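import Vale.Agent.P030.Defs

namespace Vale.Agent.P030

open Finset

theorem andreief {X : Type*} [MeasurableSpace X] (μ : MeasureTheory.Measure X)
    [MeasureTheory.IsFiniteMeasure μ] {n : ℕ} (f g : Fin n → X → ℝ)
    (hi : ∀ r k, MeasureTheory.Integrable (fun x => f r x * g k x) μ)
    (S : Set X) (hS : ∀ᵐ x ∂μ, x ∈ S) (B : ℝ) (hB0 : 0 ≤ B)
    (hB : ∀ x : Fin n → X, (∀ i, x i ∈ S) →
      |(Matrix.of fun r i => f r (x i)).det| * |(Matrix.of fun k i => g k (x i)).det| ≤ B) :
    |(Matrix.of fun r k => ∫ x, f r x * g k x ∂μ).det| ≤ B * (μ.real Set.univ) ^ n := by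
  classical
  set M : Matrix (Fin n) (Fin n) ℝ := Matrix.of fun r k => ∫ x, f r x * g k x ∂μ with hM
  have hint : ∀ σ τ : Equiv.Perm (Fin n), MeasureTheory.Integrable
      (fun x : Fin n → X => ∏ i, f (σ i) (x i) * g (τ i) (x i)) (MeasureTheory.Measure.pi fun _ => μ) :=
    fun σ τ => MeasureTheory.Integrable.fintype_prod (f := fun i y => f (σ i) y * g (τ i) y)
      fun i => hi _ _
  have h1 : ∀ τ : Equiv.Perm (Fin n), M.det = ∑ σ : Equiv.Perm (Fin n),
      ((Equiv.Perm.sign σ : ℤ) : ℝ) * ((Equiv.Perm.sign τ : ℤ) : ℝ) * ∏ i, M (σ i) (τ i) := by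
    intro τ
    have h2 := Matrix.det_permute' τ M
    rw [Matrix.det_apply'] at h2
    have h3 : ((Equiv.Perm.sign τ : ℤ) : ℝ) * ((Equiv.Perm.sign τ : ℤ) : ℝ) = 1 := by
      rcases Int.units_eq_one_or (Equiv.Perm.sign τ) with h | h <;> simp [h]
    calc M.det = ((Equiv.Perm.sign τ : ℤ) : ℝ) * (((Equiv.Perm.sign τ : ℤ) : ℝ) * M.det) := by
          rw [← mul_assoc, h3, one_mul]
      _ = _ := by
          rw [← h2, Finset.mul_sum]
          exact Finset.sum_congr rfl fun σ _ => by simp only [Matrix.submatrix_apply, id]; ring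
  have h4 : (n.factorial : ℝ) * M.det = ∫ x : Fin n → X,
      (Matrix.of fun r i => f r (x i)).det * (Matrix.of fun k i => g k (x i)).det
        ∂(MeasureTheory.Measure.pi fun _ => μ) := by
    have h5 : ∀ x : Fin n → X,
        (Matrix.of fun r i => f r (x i)).det * (Matrix.of fun k i => g k (x i)).det =
        ∑ τ : Equiv.Perm (Fin n), ∑ σ : Equiv.Perm (Fin n),
          ((Equiv.Perm.sign σ : ℤ) : ℝ) * ((Equiv.Perm.sign τ : ℤ) : ℝ) *
            ∏ i, f (σ i) (x i) * g (τ i) (x i) := by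
      intro x
      rw [Matrix.det_apply', Matrix.det_apply', Finset.sum_mul_sum, Finset.sum_comm]
      refine Finset.sum_congr rfl fun τ _ => Finset.sum_congr rfl fun σ _ => ?_
      simp only [Matrix.of_apply, Finset.prod_mul_distrib]
      ring
    simp only [h5]
    rw [MeasureTheory.integral_finsetSum _ fun τ _ =>
      MeasureTheory.integrable_finsetSum _ fun σ _ => (hint σ τ).const_mul _]
    have h6 : (n.factorial : ℝ) * M.det = ∑ _τ : Equiv.Perm (Fin n), M.det := by
      simp [Fintype.card_perm]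
    rw [h6]
    refine Finset.sum_congr rfl fun τ _ => ?_
    rw [h1 τ, MeasureTheory.integral_finsetSum _ fun σ _ => (hint σ τ).const_mul _]
    refine Finset.sum_congr rfl fun σ _ => ?_
    rw [MeasureTheory.integral_const_mul,
      MeasureTheory.integral_fintype_prod_eq_prod (fun i y => f (σ i) y * g (τ i) y)]
    rfl
  have h7 : ∀ᵐ x ∂(MeasureTheory.Measure.pi fun _ : Fin n => μ), ∀ i, x i ∈ S :=
    MeasureTheory.ae_all_iff.2 fun i =>
      (MeasureTheory.Measure.tendsto_eval_ae_ae (μ := fun _ : Fin n => μ) (i := i)).eventually hS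
  have h8 := MeasureTheory.norm_integral_le_of_norm_le_const
    (μ := MeasureTheory.Measure.pi fun _ : Fin n => μ) (C := B)
    (f := fun x : Fin n → X =>
      (Matrix.of fun r i => f r (x i)).det * (Matrix.of fun k i => g k (x i)).det)
    (h7.mono fun x hx => by rw [Real.norm_eq_abs, abs_mul]; exact hB x hx)
  rw [← h4, Real.norm_eq_abs, abs_mul, Nat.abs_cast] at h8
  have h9 : (MeasureTheory.Measure.pi fun _ : Fin n => μ).real Set.univ = μ.real Set.univ ^ n := by
    simp [MeasureTheory.Measure.real, MeasureTheory.Measure.pi_univ]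
  rw [h9] at h8
  have h10 : (1 : ℝ) ≤ n.factorial := by exact_mod_cast n.factorial_pos
  exact (le_mul_of_one_le_left (abs_nonneg _) h10).trans h8

end Vale.Agent.P030
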