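import Vale.Agent.P030.Defs

namespace Vale.Agent.P030

open Polynomial Finset

theorem vdm_succ {n : ℕ} (x : Fin (n + 1) → ℝ) :
    vdm x = (∏ j : Fin n, (x j.succ - x 0)) * vdm fun i : Fin n => x i.succ := by
  simp only [vdm, Fin.prod_univ_succ, Fin.prod_Ioi_zero, Fin.prod_Ioi_succ]

theorem cauchy_det {n : ℕ} (t s : Fin n → ℝ) (h : ∀ i j, 1 - t i * s j ≠ 0) :
    (Matrix.of fun i j => 1 / (1 - t i * s j)).det * ∏ i, ∏ j, (1 - t i * s j) = vdm t * vdm s := by
  induction n with
  | zero => simp [vdm]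
  | succ n ih =>
    have h1 : (Matrix.of fun i j => 1 / (1 - t i * s j)).det =
        (Matrix.of fun i j : Fin (n + 1) => 1 / (1 - t i * s j) -
          (if i = 0 then 0 else (1 - t 0 * s 0) / (1 - t i * s 0)) * (1 / (1 - t 0 * s j))).det :=
      Matrix.det_eq_of_forall_row_eq_smul_add_const
        (fun i => if i = 0 then 0 else (1 - t 0 * s 0) / (1 - t i * s 0)) 0 (if_pos rfl)
        (fun i j => by simp)
    have h2 : ∀ i : Fin n, 1 / (1 - t i.succ * s 0) -
        (1 - t 0 * s 0) / (1 - t i.succ * s 0) * (1 / (1 - t 0 * s 0)) = 0 := by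
      intro i
      have h00 := h 0 0
      have h10 := h i.succ 0
      generalize 1 - t 0 * s 0 = A at *
      generalize 1 - t i.succ * s 0 = B at *
      field_simp
      ring
    have h3 : ((Matrix.of fun i j : Fin (n + 1) => 1 / (1 - t i * s j) -
          (if i = 0 then 0 else (1 - t 0 * s 0) / (1 - t i * s 0)) * (1 / (1 - t 0 * s j))).submatrix
          Fin.succ Fin.succ) = Matrix.of fun i j : Fin n =>
          ((t i.succ - t 0) / (1 - t i.succ * s 0)) * Matrix.of (fun i j : Fin n =>
            ((s j.succ - s 0) / (1 - t 0 * s j.succ)) *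
              Matrix.of (fun i j : Fin n => 1 / (1 - t i.succ * s j.succ)) i j) i j := by
      ext i j
      have a1 := h i.succ 0
      have a2 := h 0 j.succ
      have a3 := h i.succ j.succ
      simp only [Matrix.submatrix_apply, Matrix.of_apply, if_neg (Fin.succ_ne_zero i)]
      have e : (1 - t i.succ * s 0) * (1 - t 0 * s j.succ) -
          (1 - t 0 * s 0) * (1 - t i.succ * s j.succ) = (t i.succ - t 0) * (s j.succ - s 0) := by
        ring
      generalize 1 - t i.succ * s 0 = A at *
      generalize 1 - t 0 * s j.succ = B at *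
      generalize 1 - t i.succ * s j.succ = C at *
      generalize 1 - t 0 * s 0 = D at *
      field_simp
      linear_combination e
    rw [h1, Matrix.det_succ_column_zero, Fin.sum_univ_succ, Fin.succAbove_zero, h3,
      Matrix.det_mul_column, Matrix.det_mul_row, vdm_succ t, vdm_succ s]
    simp only [Matrix.of_apply, if_neg (Fin.succ_ne_zero _), h2, mul_zero, zero_mul,
      Finset.sum_const_zero, add_zero, if_true, Fin.val_zero, pow_zero, one_mul, sub_zero,
      Fin.prod_univ_succ, Finset.prod_mul_distrib, Finset.prod_div_distrib]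
    have h4 := ih (fun i => t i.succ) (fun i => s i.succ) fun i j => h _ _
    have h5 : ∏ i : Fin n, (1 - t i.succ * s 0) ≠ 0 := Finset.prod_ne_zero_iff.2 fun i _ => h _ _
    have h6 : ∏ i : Fin n, (1 - t 0 * s i.succ) ≠ 0 := Finset.prod_ne_zero_iff.2 fun i _ => h _ _
    have h7 := h 0 0
    rw [mul_mul_mul_comm (∏ x : Fin n, (t x.succ - t 0)) (vdm _), ← h4]
    generalize ∏ i : Fin n, (1 - t i.succ * s 0) = A at *
    generalize ∏ i : Fin n, (1 - t 0 * s i.succ) = B at *
    generalize 1 - t 0 * s 0 = D at *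
    field_simp
theorem col_det (N : ℕ) (s : Fin (36 * N) → ℝ) :
    (Matrix.of fun k j : Fin (36 * N) => aeval (s j) (col N k)).det
      = (∏ j, s j ^ (6 * N) * (1 - s j) ^ (2 * N)) * vdm s := by
  have h1 : (Matrix.of fun k j : Fin (36 * N) => aeval (s j) (col N k)) =
      Matrix.of fun k j : Fin (36 * N) => (s j ^ (6 * N) * (1 - s j) ^ (2 * N)) *
        (Matrix.vandermonde s).transpose k j := by
    ext k j
    simp only [col, Matrix.of_apply, map_mul, map_pow, aeval_X, map_sub, map_one,
      Matrix.transpose_apply, Matrix.vandermonde_apply]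
    ring
  rw [h1, Matrix.det_mul_row, Matrix.det_transpose, Matrix.det_vandermonde, vdm]
theorem vdm_ne_zero {n : ℕ} {x : Fin n → ℝ} (h : Function.Injective x) : vdm x ≠ 0 := by
  rw [vdm, ← Matrix.det_vandermonde]
  exact Matrix.det_vandermonde_ne_zero_iff.2 h
theorem vdm_eq_zero {n : ℕ} {x : Fin n → ℝ} (h : ¬ Function.Injective x) : vdm x = 0 := by
  rw [vdm, ← Matrix.det_vandermonde]
  by_contra h'
  exact h (Matrix.det_vandermonde_ne_zero_iff.1 h')
theorem log_vdm {n : ℕ} {x : Fin n → ℝ} (h : Function.Injective x) :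
    2 * Real.log |vdm x| = ∑ i, ∑ j ∈ univ.erase i, Real.log |x i - x j| := by
  induction n with
  | zero => simp [vdm]
  | succ n ih =>
    have h1 : Function.Injective fun i : Fin n => x i.succ := h.comp (Fin.succ_injective n)
    have h2 : ∀ j : Fin n, |x j.succ - x 0| ≠ 0 := fun j =>
      abs_ne_zero.2 (sub_ne_zero.2 fun e => Fin.succ_ne_zero j (h e))
    have h3 : ∀ (i : Fin (n + 1)) (F : Fin (n + 1) → ℝ), F i = 0 →
        ∑ j ∈ univ.erase i, F j = ∑ j, F j := fun i F hF => Finset.sum_erase _ hF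
    have h4 : ∀ (i : Fin n) (F : Fin n → ℝ), F i = 0 →
        ∑ j ∈ univ.erase i, F j = ∑ j, F j := fun i F hF => Finset.sum_erase _ hF
    rw [vdm_succ, abs_mul, Finset.abs_prod, Real.log_mul (Finset.prod_ne_zero_iff.2 fun j _ => h2 j)
      (abs_ne_zero.2 (vdm_ne_zero h1)), Real.log_prod fun j _ => h2 j, mul_add, ih h1,
      Finset.sum_congr rfl fun i _ => h3 i _ (by simp),
      Finset.sum_congr rfl fun i _ => h4 i _ (by simp)]
    simp only [Fin.sum_univ_succ, Finset.sum_add_distrib, sub_self, abs_zero, Real.log_zero,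
      abs_sub_comm (x 0)]
    ring

end Vale.Agent.P030
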