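import Vale.Agent.P030.PN

namespace Vale.Agent.P030

open Polynomial Finset

theorem CF_cc_succ (m : ℕ) : cc (m + 1) = cc m * (2 * m + 1) / (2 * m + 2) := rfl
theorem CF_nu_succ (k : ℕ) : nu (k + 2) = nu k * (k + 1) / (k + 2) := rfl
theorem CF_mcol_succ (i : ℕ) : mcol (i + 2) = (i * mcol i + nu i + nu (i + 1)) / (i + 1) := rfl
theorem CF_mrow_succ (j : ℕ) : mrow (j + 2) = ((j + 1) * mrow j + 2 / (j + 2)) / (j + 2) := rfl

theorem cc_pos (l : ℕ) : 0 < cc l := by
  induction l with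
  | zero => simp [cc]
  | succ l ih => rw [CF_cc_succ]; positivity
theorem cc_eq (l : ℕ) : cc l = (Nat.centralBinom l : ℚ) / 4 ^ l := by
  induction l with
  | zero => simp [cc]
  | succ l ih =>
    have h : ((l : ℚ) + 1) * (Nat.centralBinom (l + 1) : ℚ)
        = 2 * (2 * l + 1) * (Nat.centralBinom l : ℚ) := by
      exact_mod_cast Nat.succ_mul_centralBinom_succ l
    have h' : (Nat.centralBinom (l + 1) : ℚ)
        = 2 * (2 * l + 1) * (Nat.centralBinom l : ℚ) / (l + 1) := by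
      rw [eq_div_iff (by positivity), mul_comm, h]
    rw [CF_cc_succ, ih, h']
    field_simp
    ring
theorem nu_even (l : ℕ) : nu (2 * l) = 0 := by
  induction l with
  | zero => rfl
  | succ l ih => rw [show 2 * (l + 1) = 2 * l + 2 by ring, CF_nu_succ, ih]; simp
theorem nu_odd (l : ℕ) : nu (2 * l + 1) = 2 / ((2 * l + 1) * cc l) := by
  induction l with
  | zero => simp [nu, cc]
  | succ l ih =>
    have := cc_pos l
    rw [show 2 * (l + 1) + 1 = (2 * l + 1) + 2 by ring, CF_nu_succ, ih, CF_cc_succ]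
    push_cast
    field_simp
    ring
theorem nu_nonneg (k : ℕ) : 0 ≤ nu k := by
  obtain ⟨l, rfl | rfl⟩ := Nat.even_or_odd' k
  · rw [nu_even]
  · rw [nu_odd]
    have := cc_pos l
    positivity
theorem CF_nu_even' (l : ℕ) : nu (2 * l + 1 + 1) = 0 := by
  rw [show 2 * l + 1 + 1 = 2 * (l + 1) by ring, nu_even]
theorem mcol_odd (l : ℕ) : mcol (2 * l + 1) = cc l * ∑ i ∈ range l, nu (2 * i + 1) ^ 2 / 2 := by
  induction l with
  | zero => simp [mcol]
  | succ l ih =>
    have := cc_pos l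
    rw [show 2 * (l + 1) + 1 = (2 * l + 1) + 2 by ring, CF_mcol_succ, ih, CF_cc_succ,
      sum_range_succ, CF_nu_even', nu_odd l]
    push_cast
    field_simp
    ring
theorem mcol_even (l : ℕ) :
    mcol (2 * l + 2) = nu (2 * l + 1) * ∑ i ∈ range (l + 1), 1 / (2 * (i : ℚ) + 1) := by
  induction l with
  | zero => simp [mcol, nu]
  | succ l ih =>
    rw [show 2 * (l + 1) + 2 = (2 * l + 2) + 2 by ring, CF_mcol_succ, ih,
      sum_range_succ _ (l + 1), show 2 * l + 2 = 2 * l + 1 + 1 by ring, CF_nu_even',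
      show 2 * l + 1 + 1 + 1 = (2 * l + 1) + 2 by ring,
      show 2 * (l + 1) + 1 = (2 * l + 1) + 2 by ring, CF_nu_succ]
    push_cast
    field_simp
    ring
theorem mrow_even (m : ℕ) :
    mrow (2 * m) = cc m * ∑ l ∈ range m, nu (2 * l + 1) / (2 * (l : ℚ) + 2) := by
  induction m with
  | zero => simp [mrow]
  | succ l ih =>
    have := cc_pos l
    rw [show 2 * (l + 1) = 2 * l + 2 by ring, CF_mrow_succ, ih, CF_cc_succ,
      sum_range_succ, nu_odd l]
    push_cast
    field_simp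
theorem mrow_odd (m : ℕ) :
    mrow (2 * m + 1) = nu (2 * m + 1) * ∑ l ∈ range (m + 1), cc l / (2 * (l : ℚ) + 1) := by
  induction m with
  | zero => simp [mrow, nu, cc]
  | succ l ih =>
    have := cc_pos l
    rw [show 2 * (l + 1) + 1 = (2 * l + 1) + 2 by ring, CF_mrow_succ, ih,
      sum_range_succ _ (l + 1), CF_nu_succ, CF_cc_succ, nu_odd l]
    push_cast
    field_simp
    ring
theorem M0_zero_right (i : ℕ) : M0 i 0 = mcol i := by
  cases i <;> rfl
theorem M0_zero_left (j : ℕ) : M0 0 j = mrow j := by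
  cases j <;> rfl
theorem M0_succ (i j : ℕ) : M0 (i + 1) (j + 1) = M0 i j - nu i / (j + 1) := by
  rw [M0]

/-- the beta function at positive integers. -/
def CF_B (a b : ℕ) : ℚ := (a.factorial : ℚ) * b.factorial / (a + b + 1).factorial

theorem CF_B_zero (a : ℕ) : CF_B a 0 = 1 / ((a + 1 : ℕ) : ℚ) := by
  have : (a.factorial : ℚ) ≠ 0 := by positivity
  simp only [CF_B, Nat.factorial_zero, add_zero, Nat.factorial_succ]
  push_cast
  field_simp

theorem CF_B_succ (a b : ℕ) : CF_B a (b + 1) = CF_B a b - CF_B (a + 1) b := by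
  have : ((a + b + 1).factorial : ℚ) ≠ 0 := by positivity
  unfold CF_B
  rw [show a + (b + 1) + 1 = (a + b + 1) + 1 by ring, show a + 1 + b + 1 = (a + b + 1) + 1 by ring,
    Nat.factorial_succ (a + b + 1), Nat.factorial_succ a, Nat.factorial_succ b]
  push_cast
  field_simp
  ring

theorem CF_nu_B (l : ℕ) : nu (2 * l + 1) = 2 ^ (2 * l + 1) * CF_B l l := by
  induction l with
  | zero => simp [nu, CF_B]
  | succ l ih =>
    have : ((l + l + 1).factorial : ℚ) ≠ 0 := by positivity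
    rw [show 2 * (l + 1) + 1 = (2 * l + 1) + 2 by ring, CF_nu_succ, ih]
    unfold CF_B
    rw [show l + 1 + (l + 1) + 1 = (l + l + 1) + 1 + 1 by ring, Nat.factorial_succ (l + l + 1 + 1),
      Nat.factorial_succ (l + l + 1), Nat.factorial_succ l]
    push_cast
    field_simp
    ring

variable {p : ℕ} [Fact p.Prime]

theorem CF_pn_B {T : ℕ} (b : ℕ) : ∀ a : ℕ, a + b + 1 ≤ T →
    pn p (CF_B a b) ≤ (p : ℝ) ^ Nat.log p T := by
  induction b with
  | zero =>
    intro a ha
    rw [CF_B_zero]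
    exact pn_inv_nat_le (by omega)
  | succ b ih =>
    intro a ha
    rw [CF_B_succ]
    exact pn_sub_le (ih a (by omega)) (ih (a + 1) (by omega))

theorem CF_pn_two (hp : p ≠ 2) : pn p 2 = 1 := by
  have : ¬ p ∣ 2 := fun h =>
    hp ((Nat.prime_dvd_prime_iff_eq (Fact.out : p.Prime) Nat.prime_two).mp h)
  exact_mod_cast pn_nat_of_not_dvd this

theorem CF_pn_four (hp : p ≠ 2) : pn p 4 = 1 := by
  rw [show (4 : ℚ) = 2 * 2 by norm_num, pn_mul, CF_pn_two hp, one_mul]

theorem pn_cc (hp : p ≠ 2) (l : ℕ) : pn p (cc l) ≤ 1 := by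
  rw [cc_eq, pn_div, pn_pow, CF_pn_four hp, one_pow, div_one]
  exact pn_nat _
theorem pn_cG (hp : p ≠ 2) (i j : ℕ) : pn p (cG i j) ≤ 1 := by
  unfold cG
  split_ifs
  · exact pn_cc hp _
  · simp [pn_zero]
theorem pn_nu (hp : p ≠ 2) {k T : ℕ} (hk : k ≤ T) : pn p (nu k) ≤ (p : ℝ) ^ Nat.log p T := by
  obtain ⟨l, rfl | rfl⟩ := Nat.even_or_odd' k
  · rw [nu_even, pn_zero]
    positivity
  · rw [CF_nu_B, pn_mul, pn_pow, CF_pn_two hp, one_pow, one_mul]
    exact CF_pn_B l l (by omega)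

theorem CF_inv_le {T k : ℕ} {x : ℚ} (hx : x = k) (hk : k ≤ T) :
    pn p (1 / x) ≤ (p : ℝ) ^ Nat.log p T := by
  rw [hx]
  exact pn_inv_nat_le hk

theorem CF_pn_mcol (hp : p ≠ 2) {i T : ℕ} (hi : i ≤ T) :
    pn p (mcol i) ≤ (p : ℝ) ^ Nat.log p T * (p : ℝ) ^ Nat.log p T := by
  obtain ⟨l, rfl | rfl⟩ := Nat.even_or_odd' i
  · cases l with
    | zero =>
      rw [show mcol (2 * 0) = 0 from rfl, pn_zero]
      positivity
    | succ l =>
      rw [show 2 * (l + 1) = 2 * l + 2 by ring, mcol_even]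
      refine pn_mul_le (pn_nu hp (by omega)) (pn_sum_le _ _ (by positivity) fun i hi => ?_)
      have := mem_range.mp hi
      exact CF_inv_le (k := 2 * i + 1) (by push_cast; ring) (by omega)
  · rw [mcol_odd, ← one_mul ((p : ℝ) ^ Nat.log p T * _)]
    refine pn_mul_le (pn_cc hp _) (pn_sum_le _ _ (by positivity) fun i hi => ?_)
    have := mem_range.mp hi
    rw [pn_div, CF_pn_two hp, div_one, sq]
    exact pn_mul_le (pn_nu hp (by omega)) (pn_nu hp (by omega))

theorem CF_pn_mrow (hp : p ≠ 2) {i T : ℕ} (hi : i ≤ T) :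
    pn p (mrow i) ≤ (p : ℝ) ^ Nat.log p T * (p : ℝ) ^ Nat.log p T := by
  obtain ⟨l, rfl | rfl⟩ := Nat.even_or_odd' i
  · rw [mrow_even, ← one_mul ((p : ℝ) ^ Nat.log p T * _)]
    refine pn_mul_le (pn_cc hp _) (pn_sum_le _ _ (by positivity) fun i hi => ?_)
    have := mem_range.mp hi
    rw [div_eq_mul_one_div]
    exact pn_mul_le (pn_nu hp (by omega))
      (CF_inv_le (k := 2 * i + 2) (by push_cast; ring) (by omega))
  · rw [mrow_odd]
    refine pn_mul_le (pn_nu hp (by omega)) (pn_sum_le _ _ (by positivity) fun i hi => ?_)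
    have := mem_range.mp hi
    rw [div_eq_mul_one_div, ← one_mul ((p : ℝ) ^ Nat.log p T)]
    exact pn_mul_le (pn_cc hp _) (CF_inv_le (k := 2 * i + 1) (by push_cast; ring) (by omega))

theorem pn_M0 (hp : p ≠ 2) {i j T : ℕ} (hi : i ≤ T) (hj : j ≤ T) :
    pn p (M0 i j) ≤ (p : ℝ) ^ (2 * Nat.log p T) := by
  rw [two_mul, pow_add]
  induction j generalizing i with
  | zero => rw [M0_zero_right]; exact CF_pn_mcol hp hi
  | succ j ih =>
    cases i with
    | zero => rw [M0_zero_left]; exact CF_pn_mrow hp hj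
    | succ i =>
      rw [M0_succ, div_eq_mul_one_div]
      exact pn_sub_le (ih (by omega) (by omega)) (pn_mul_le (pn_nu hp (by omega))
        (CF_inv_le (k := j + 1) (by push_cast; ring) hj))

theorem CF_pn_harmonic {i T : ℕ} (hi : i ≤ T) : pn p (harmonic i) ≤ (p : ℝ) ^ Nat.log p T := by
  unfold harmonic
  refine pn_sum_le _ _ (by positivity) fun k hk => ?_
  have := mem_range.mp hk
  rw [← one_div]
  exact pn_inv_nat_le (by omega)

theorem pn_Z0 {i j T : ℕ} (hi : i ≤ T) (hj : j ≤ T) :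
    pn p (Z0 i j) ≤ (p : ℝ) ^ (2 * Nat.log p T) := by
  rw [two_mul, pow_add]
  unfold Z0
  split_ifs
  · rw [pn_neg]
    refine pn_sum_le _ _ (by positivity) fun k hk => ?_
    have := mem_range.mp hk
    have h := CF_inv_le (p := p) (T := T) (k := k + 1) (x := (k : ℚ) + 1) (by push_cast; ring)
      (by omega)
    rw [← one_div_pow, sq]
    exact pn_mul_le h h
  · rw [div_eq_mul_one_div]
    refine pn_mul_le (pn_sub_le (CF_pn_harmonic hi) (CF_pn_harmonic hj)) ?_
    have := pn_inv_int_le (p := p) (k := (i : ℤ) - j) (T := T) (by omega)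
    exact_mod_cast this
theorem CF_pn2_two : pn 2 2 = 1 / 2 := by
  have := pn_p (p := 2)
  exact_mod_cast this
theorem pn2_nu (k : ℕ) : pn 2 (nu k) ≤ (k : ℝ) / 2 ^ k := by
  obtain ⟨l, rfl | rfl⟩ := Nat.even_or_odd' k
  · rw [nu_even, pn_zero]
    positivity
  · rw [CF_nu_B, pn_mul, pn_pow, CF_pn2_two, one_div_pow, mul_comm, ← div_eq_mul_one_div]
    refine div_le_div_of_nonneg_right ?_ (by positivity)
    exact (CF_pn_B (T := 2 * l + 1) l l (by omega)).trans (pn_pow_log_le (by omega))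
theorem pn2_cc (m : ℕ) : pn 2 (cc m) ≤ 4 ^ m := by
  have h4 : pn 2 4 = 1 / 4 := by
    rw [show (4 : ℚ) = 2 * 2 by norm_num, pn_mul, CF_pn2_two]
    norm_num
  rw [cc_eq, pn_div, pn_pow, h4, one_div_pow, div_div_eq_mul_div, div_one]
  exact mul_le_of_le_one_left (by positivity) (pn_nat _)

end Vale.Agent.P030
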