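import Vale.Agent.P030.CertA1
import Vale.Agent.P030.CertA2
import Vale.Agent.P030.CertA3
import Vale.Agent.P030.CertA4

namespace Vale.Agent.P030.CL

end Vale.Agent.P030.CL

namespace Vale.Agent.P030

open CL in
theorem certA : Cert (33 / 36) 0 := by
  have h1 : GA1 0 32768 :=
    (((((cA1_0).trans (cA1_1)).trans ((cA1_2).trans ((cA1_3).trans (cA1_4)))).trans
    (((cA1_5).trans ((cA1_6).trans (cA1_7))).trans ((cA1_8).trans ((cA1_9).trans
    (cA1_10))))).trans ((((cA1_11).trans ((cA1_12).trans (cA1_13))).trans ((cA1_14).trans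
    ((cA1_15).trans (cA1_16)))).trans (((cA1_17).trans ((cA1_18).trans (cA1_19))).trans
    ((cA1_20).trans ((cA1_21).trans (cA1_22)))))).trans (((((cA1_23).trans (cA1_24)).trans
    ((cA1_25).trans ((cA1_26).trans (cA1_27)))).trans (((cA1_28).trans ((cA1_29).trans
    (cA1_30))).trans ((cA1_31).trans ((cA1_32).trans (cA1_33))))).trans ((((cA1_34).trans
    ((cA1_35).trans (cA1_36))).trans ((cA1_37).trans ((cA1_38).trans (cA1_39)))).trans
    (((cA1_40).trans ((cA1_41).trans (cA1_42))).trans ((cA1_43).trans ((cA1_44).trans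
    (cA1_45))))))
  have h2 : GA2 0 32768 :=
    (((((cA2_0).trans (cA2_1)).trans ((cA2_2).trans (cA2_3))).trans (((cA2_4).trans
    (cA2_5)).trans ((cA2_6).trans ((cA2_7).trans (cA2_8))))).trans ((((cA2_9).trans
    (cA2_10)).trans ((cA2_11).trans ((cA2_12).trans (cA2_13)))).trans (((cA2_14).trans
    (cA2_15)).trans ((cA2_16).trans ((cA2_17).trans (cA2_18)))))).trans (((((cA2_19).trans
    (cA2_20)).trans ((cA2_21).trans (cA2_22))).trans (((cA2_23).trans (cA2_24)).trans
    ((cA2_25).trans ((cA2_26).trans (cA2_27))))).trans ((((cA2_28).trans (cA2_29)).trans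
    ((cA2_30).trans ((cA2_31).trans (cA2_32)))).trans (((cA2_33).trans (cA2_34)).trans
    ((cA2_35).trans ((cA2_36).trans (cA2_37))))))
  have h := cert_of_good h1 h2 (by decide +kernel)
  push_cast at h
  exact h

end Vale.Agent.P030
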