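import Vale.Agent.P030.CertL

namespace Vale.Agent.P030.CL

def LA : List T4 := [
    (17972719, -48840830, -20107924, -61191568), (-21951517, -6164905, 2724151, 36686640),
    (3315027, -14526564, -3405430, 2733788), (8791528, -2593227, -4320575, 10961824),
    (1638920, -2206449, -1480015, 1644184), (-4351352, -1481142, 779138, 5563496),
    (1021877, -3390646, -846747, 1415152), (1947210, -999128, -1044238, 3147760),
    (797467, -1124514, -582760, 1139140), (-928664, -706504, 49902, 1828536),
    (575437, -1298537, -408276, 898508), (217621, -557979, -255585, 1044448),
    (528776, -833649, -332937, 693124), (82929, -425882, -163119, 559068),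
    (394818, -602935, -249823, 518128), (-242306, -365406, -23137, 255884),
    (389768, -627166, -221958, 369404), (294128, -291652, -180014, 69972),
    (302252, -347654, -174163, 244104), (-249982, -260554, 17357, -38392),
    (299304, -448325, -159489, 140364), (220659, -217493, -127734, -95260),
    (248319, -256865, -132130, 56840), (-121310, -195878, -4535, -118544),
    (234532, -304408, -119523, -7668), (86702, -172108, -66837, -120844),
    (212062, -221162, -105712, -54524), (1627, -153354, -32763, -111052),
    (187595, -202810, -92486, -85368), (-11720, -141560, -23715, -95328),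
    (183103, -195194, -86881, -102172), (67045, -124713, -46297, -77760),
    (154486, -141218, -73937, -107192), (-49996, -119123, -4016, -60888),
    (156852, -164790, -71930, -102852), (74592, -105270, -43140, -46088),
    (131615, -109521, -61128, -91632), (-41470, -101641, -2014, -33896),
    (132276, -130785, -59371, -75928), (47683, -91827, -30070, -24312),
    (115226, -94864, -51960, -57924), (-12658, -87780, -8165, -17000),
    (110084, -98971, -48791, -39500), (13034, -82049, -15421, -11472),
    (101935, -86325, -44808, -22152), (13458, -76979, -14355, -7232),
    (91232, -74158, -40124, -6972), (-11414, -74365, -4874, -3844),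
    (89428, -77452, -38589, 5360), (25232, -68835, -16373, -980),
    (75987, -57786, -33220, 14540), (-20013, -67915, -161, 1548),
    (76704, -66375, -32762, 20592), (22375, -62846, -13888, 3816),
    (63689, -48228, -27701, 23792), (-16598, -62392, 95, 5816),
    (63793, -54196, -27196, 24584), (11277, -58434, -8892, 7472),
    (53087, -42448, -23038, 23516), (-8846, -57797, -1443, 8700),
    (51105, -42891, -21932, 21156), (-682, -55079, -3797, 9428),
    (42828, -37694, -18690, 18040), (-3272, -54181, -2480, 9616),
    (38741, -33723, -16933, 14632), (-9043, -52424, -87, 9280),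
    (31730, -32373, -14183, 11288), (-2779, -51460, -1937, 8484),
    (25978, -26585, -11892, 8268), (-13354, -50191, 2094, 7332),
    (18440, -25823, -8986, 5716), (-7010, -49152, 139, 5956),
    (10537, -19847, -5956, 3692), (-15998, -47492, 3588, 4508),
    (-337, -16702, -1868, 2188), (-14119, -44661, 3160, 3124),
    (-14767, -8355, 3504, 1148), (-18630, -36164, 4997, 1912),
    (-40753, 6720, 13057, 476), (-950, 13917, -1169, 956)]

abbrev GA1 := Good (P1 LA (33 / 36) 0 (-374973 / 5000000))
abbrev GA2 := Good (P2 LA (-422343 / 500000))

theorem gA1 {e t : ℕ} (l : List ℕ) (ht : t ≤ 32768)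
    (hc : chain e (val1 LA) (ok1 198 (33 / 36) 0 (-374973 / 5000000)) t (val1 LA t) l = true) : GA1 t e :=
  good1 (by norm_num) (by norm_num) (by norm_num) (by norm_num) (by decide +kernel) ht hc

theorem gA2 {e t : ℕ} (l : List ℕ) (ht : t ≤ 32768)
    (hc : chain e (val2 LA) (ok2 56 (-422343 / 500000)) t (val2 LA t) l = true) : GA2 t e :=
  good2 (by norm_num) (by decide +kernel) ht hc

end Vale.Agent.P030.CL
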