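import Vale.Agent.P030.CertL

namespace Vale.Agent.P030.CL

def LB : List T4 := [
    (19827990, -74158059, -19673637, -86456628), (56366467, -7430605, -22886158, 33742536),
    (4706253, -4128562, -3569188, 2087696), (13568291, -4221995, -5711382, 4020168)]

abbrev GB1 := Good (P1 LB (40 / 36) 2 (-2354939 / 10000000))
abbrev GB2 := Good (P2 LB (-9338393 / 10000000))

theorem gB1 {e t : ℕ} (l : List ℕ) (ht : t ≤ 32768)
    (hc : chain e (val1 LB) (ok1 8 (40 / 36) 2 (-2354939 / 10000000)) t (val1 LB t) l = true) : GB1 t e :=
  good1 (by norm_num) (by norm_num) (by norm_num) (by norm_num) (by decide +kernel) ht hc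

theorem gB2 {e t : ℕ} (l : List ℕ) (ht : t ≤ 32768)
    (hc : chain e (val2 LB) (ok2 7 (-9338393 / 10000000)) t (val2 LB t) l = true) : GB2 t e :=
  good2 (by norm_num) (by decide +kernel) ht hc

theorem cB1_0 : GB1 0 32768 := gB1 [
    3300014101290561, 5325014401130423, 7116015101020363, 8974016100930303, 11041018000840251,
    12585020600770212, 14039024200730184, 15493028400710161, 16384043200700145, 18004035300700130,
    19390024900720115, 20828022900750103, 22428020000800094, 24088017400860085, 25872015900940079,
    27924014901030075, 31393014201200071, 32768014001350070]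
  (by norm_num) (by decide +kernel)

theorem cB2_0 : GB2 0 32768 := gB2 [
    3526061601400139, 5846047301420139, 7630040901460140, 9259036201510141, 10949031901580142,
    12702028101670145, 14353024501800150, 15813022601940156, 17230020702110162, 18647019202300170,
    20223017802530176, 21917016702840185, 23611015703210193, 25305015003650198, 27126014604160203,
    29357014204810206, 32640014006230208, 32768013913230209]
  (by norm_num) (by decide +kernel)

end Vale.Agent.P030.CL

namespace Vale.Agent.P030

open CL in
theorem certB : Cert (40 / 36) 2 := by
  have h1 : GB1 0 32768 :=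
    cB1_0
  have h2 : GB2 0 32768 :=
    cB2_0
  have h := cert_of_good h1 h2 (by decide +kernel)
  push_cast at h
  exact h

end Vale.Agent.P030
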