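import Vale.Agent.P030.CertS

namespace Vale.Agent.P030.CL

open Real

noncomputable def xp (t : ℕ) : ℝ := arccos (cs t : ℝ)

theorem pR_pos (t : ℕ) : 0 < pR t := by
  unfold pR
  nlinarith [mul_self_nonneg ((16384 : ℤ) - t)]

theorem pR_pos' (t : ℕ) : (0 : ℝ) < pR t := by exact_mod_cast pR_pos t

theorem cs_cast (t : ℕ) : (cs t : ℝ) = pP t / pR t := by simp [cs]
theorem sn_cast (t : ℕ) : (sn t : ℝ) = pQ t / pR t := by simp [sn]

theorem cs_sq (t : ℕ) : (cs t : ℝ) ^ 2 + (sn t : ℝ) ^ 2 = 1 := by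
  have := pR_pos' t
  rw [cs_cast, sn_cast]
  field_simp
  unfold pP pQ pR
  push_cast
  ring

theorem sn_nonneg {t : ℕ} (h : t ≤ 32768) : (0 : ℝ) ≤ sn t := by
  rw [sn_cast]
  refine div_nonneg ?_ (pR_pos' t).le
  have : (t : ℝ) ≤ 32768 := by exact_mod_cast h
  have h0 : (0 : ℝ) ≤ t := Nat.cast_nonneg t
  unfold pQ
  push_cast
  nlinarith

theorem cos_xp (t : ℕ) : cos (xp t) = cs t :=
  cos_arccos (by nlinarith [cs_sq t, sq_nonneg (sn t : ℝ)])
    (by nlinarith [cs_sq t, sq_nonneg (sn t : ℝ)])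

theorem sin_xp {t : ℕ} (h : t ≤ 32768) : sin (xp t) = sn t := by
  rw [xp, sin_arccos, show 1 - (cs t : ℝ) ^ 2 = (sn t : ℝ) ^ 2 by linarith [cs_sq t],
    sqrt_sq (sn_nonneg h)]

theorem xp_zero : xp 0 = 0 := by
  have : cs 0 = 1 := by norm_num [cs, pP, pR]
  simp [xp, this]

theorem xp_last : xp 32768 = π := by
  have : cs 32768 = -1 := by norm_num [cs, pP, pR]
  simp [xp, this]

theorem hh_spec {t u : ℕ} (ht : t ≤ 32768) (hu : u ≤ 32768) (hd : 0 < dd t u) (h : xp t ≤ xp u) :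
    (xp u - xp t) ^ 2 ≤ hh t u := by
  have hd' : (0 : ℝ) < dd t u := by exact_mod_cast hd
  have c : cos (xp u - xp t) = dd t u := by
    rw [cos_sub, cos_xp, cos_xp, sin_xp ht, sin_xp hu, dd]; push_cast; ring
  have s : sin (xp u - xp t) = sn u * cs t - cs u * sn t := by
    rw [sin_sub, cos_xp, cos_xp, sin_xp ht, sin_xp hu]
  have h0 : 0 ≤ xp u - xp t := sub_nonneg.2 h
  have h1 : xp u - xp t < π / 2 := by
    by_contra hc
    have := cos_nonpos_of_pi_div_two_le_of_le (not_lt.1 hc)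
      (by linarith [arccos_le_pi (cs u : ℝ), arccos_nonneg (cs t : ℝ), pi_pos, xp.eq_1 u, xp.eq_1 t])
    linarith
  have := le_tan h0 h1
  rw [tan_eq_sin_div_cos, c, s] at this
  rw [hh]
  push_cast
  exact pow_le_pow_left₀ h0 this 2

theorem hor_spec (fa fb : T4 → ℤ) {P Q R : ℤ} (hR : 0 < R) {x : ℝ} (hc : cos x = P / R)
    (hs : sin x = Q / R) (l : List T4) (k : ℕ) : 0 < (hor fa fb P Q R l).2.2 ∧
    lsum (fun k g => fa g * cos (k * x) + fb g * sin (k * x)) l (k + 1)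
      = (cos (k * x) * (hor fa fb P Q R l).1 - sin (k * x) * (hor fa fb P Q R l).2.1)
        / (hor fa fb P Q R l).2.2 := by
  induction l generalizing k with
  | nil => simp [hor, lsum]
  | cons g l ih =>
    obtain ⟨h0, h1⟩ := ih (k + 1)
    rw [lsum, h1]
    rcases hr : hor fa fb P Q R l with ⟨X, Y, W⟩
    rw [hr] at h0
    simp only [hor, hr]
    refine ⟨mul_pos h0 hR, ?_⟩
    have hW : (0 : ℝ) < W := by exact_mod_cast h0
    have hR' : (0 : ℝ) < R := by exact_mod_cast hR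
    push_cast
    rw [add_mul, one_mul, cos_add, sin_add, hc, hs]
    field_simp
    ring

theorem horz_spec {A B : ℤ} (hB : 0 < B) {z : ℝ} (hz : z = A / B) (l : List T4) (k : ℕ) :
    0 < (horz A B l).2 ∧ lsum (fun k g => 2 * (g.2.2.1 : ℝ) * z ^ k) l (k + 1)
      = z ^ k * (horz A B l).1 / (horz A B l).2 := by
  induction l generalizing k with
  | nil => simp [horz, lsum]
  | cons g l ih =>
    obtain ⟨h0, h1⟩ := ih (k + 1)
    rw [lsum, h1]
    rcases hr : horz A B l with ⟨X, W⟩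
    rw [hr] at h0
    simp only [horz, hr]
    refine ⟨mul_pos h0 hB, ?_⟩
    have hW : (0 : ℝ) < W := by exact_mod_cast h0
    have hR' : (0 : ℝ) < B := by exact_mod_cast hB
    push_cast
    rw [pow_succ]
    nth_rewrite 2 [hz]
    nth_rewrite 3 [hz]
    field_simp

theorem up_spec (X : ℤ) {W : ℤ} (hW : 0 < W) : (X : ℝ) / W / 10 ^ 8 ≤ up X W := by
  have h := Int.lt_ediv_add_one_mul_self (X * 2 ^ 40) (show 0 < W * 10 ^ 8 by positivity)
  have h' : (X : ℝ) * 2 ^ 40 < ((X * 2 ^ 40 / (W * 10 ^ 8) + 1 : ℤ) : ℝ) * (W * 10 ^ 8) := by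
    exact_mod_cast h
  have hW' : (0 : ℝ) < W := by exact_mod_cast hW
  rw [up, Rat.cast_div, Rat.cast_intCast, div_div, div_le_div_iff₀ (by positivity) (by positivity)]
  push_cast at h' ⊢
  linarith

noncomputable def T1 (L : List T4) (x : ℝ) : ℝ :=
  1 / 10 ^ 8 * lsum (fun k g => g.1 * cos (k * x) + g.2.1 * sin (k * x)) L 1

noncomputable def T2 (L : List T4) (x : ℝ) : ℝ :=
  1 / 10 ^ 8 * lsum (fun k g => (g.2.2.2 * cos (k * x) + (0 : ℤ) * sin (k * x))
    + 2 * (g.2.2.1 : ℝ) * zz x ^ k) L 1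

theorem lsum_add (φ ψ : ℕ → T4 → ℝ) (l : List T4) (k : ℕ) :
    lsum (fun k g => φ k g + ψ k g) l k = lsum φ l k + lsum ψ l k := by
  induction l generalizing k with
  | nil => simp [lsum]
  | cons g l ih => simp only [lsum, ih]; ring

theorem val1_spec (L : List T4) {t : ℕ} (h : t ≤ 32768) : T1 L (xp t) ≤ val1 L t := by
  obtain ⟨h0, h1⟩ := hor_spec (fun g => g.1) (fun g => g.2.1) (pR_pos t)
    ((cos_xp t).trans (cs_cast t)) ((sin_xp h).trans (sn_cast t)) L 0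
  have := up_spec (hor (fun g => g.1) (fun g => g.2.1) (pP t) (pQ t) (pR t) L).1 h0
  rw [T1, h1]
  simp only [Nat.cast_zero, zero_mul, cos_zero, sin_zero, one_mul, sub_zero]
  calc _ = _ := by ring
    _ ≤ _ := this

theorem val2_spec (L : List T4) {t : ℕ} (h : t ≤ 32768) : T2 L (xp t) ≤ val2 L t := by
  obtain ⟨h0, h1⟩ := hor_spec (fun g => g.2.2.2) (fun _ => 0) (pR_pos t)
    ((cos_xp t).trans (cs_cast t)) ((sin_xp h).trans (sn_cast t)) L 0
  obtain ⟨h2, h3⟩ := horz_spec (A := pR t - pP t) (B := 2 * pR t) (by linarith [pR_pos t])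
    (z := zz (xp t)) (by
      have := pR_pos' t
      rw [zz, cos_xp, cs_cast]; push_cast; field_simp) L 0
  have := up_spec (hor (fun g => g.2.2.2) (fun _ => 0) (pP t) (pQ t) (pR t) L).1 h0
  have := up_spec (horz (pR t - pP t) (2 * pR t) L).1 h2
  rw [T2, lsum_add, h1, h3]
  simp only [Nat.cast_zero, zero_mul, cos_zero, sin_zero, one_mul, sub_zero, pow_zero]
  have e : (val2 L t : ℝ) = up (hor (fun g => g.2.2.2) (fun _ => 0) (pP t) (pQ t) (pR t) L).1
      (hor (fun g => g.2.2.2) (fun _ => 0) (pP t) (pQ t) (pR t) L).2.2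
      + up (horz (pR t - pP t) (2 * pR t) L).1 (horz (pR t - pP t) (2 * pR t) L).2 := by
    rw [← Rat.cast_add]; rfl
  rw [e]
  linarith

theorem sc_T1 (L : List T4) {M : ℚ} (h : (cM1 L : ℚ) / 10 ^ 8 ≤ M) : SC (T1 L) M := by
  have := (sc_lsum (φ := fun x k g => g.1 * cos (k * x) + g.2.1 * sin (k * x))
    (fun k g => sc_trig g.1 g.2.1 k) L 1).smul (c := 1 / 10 ^ 8) (by positivity)
  refine this.of_eq (fun _ => rfl) ?_
  have h' : ((cM1 L : ℤ) : ℝ) / 10 ^ 8 ≤ M := by exact_mod_cast h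
  rw [cM1, isum_cast] at h'
  push_cast at h'
  linarith

theorem sc_T2 (L : List T4) {M : ℚ} (h : (cM2 L : ℚ) / 10 ^ 8 ≤ M) : SC (T2 L) M := by
  have := (sc_lsum (φ := fun x k g => (g.2.2.2 * cos (k * x) + (0 : ℤ) * sin (k * x))
      + 2 * (g.2.2.1 : ℝ) * zz x ^ k)
    (fun k g => (sc_trig g.2.2.2 (0 : ℤ) k).add (sc_zpow g.2.2.1 k)) L 1).smul
    (c := 1 / 10 ^ 8) (by positivity)
  refine this.of_eq (fun _ => rfl) ?_
  have h' : ((cM2 L : ℤ) : ℝ) / 10 ^ 8 ≤ M := by exact_mod_cast h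
  rw [cM2, isum_cast] at h'
  push_cast at h' ⊢
  simp only [abs_zero, add_zero]
  linarith

theorem log101 : (995033085 / 10 ^ 11 : ℝ) ≤ log (101 / 100) := by
  have h := abs_log_sub_add_sum_range_le (x := 1 / 101) (by rw [abs_of_pos] <;> norm_num) 6
  have e : log (1 - 1 / 101 : ℝ) = -log (101 / 100) := by
    rw [← log_inv]; norm_num
  rw [e, abs_of_pos (show (0 : ℝ) < 1 / 101 by norm_num)] at h
  have := (abs_le.1 h).2
  simp only [Finset.sum_range_succ, Finset.range_zero, Finset.sum_empty] at this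
  norm_num at this ⊢
  linarith

theorem qq_ge (n : ℕ) : (101 / 100 : ℝ) ^ n / 4 ≤ qq n := by
  have h := Nat.lt_mul_div_succ (101 ^ n * 2 ^ 30) (show 0 < 4 * 100 ^ n by positivity)
  have h' : (101 : ℝ) ^ n * 2 ^ 30 < 4 * 100 ^ n * ((101 ^ n * 2 ^ 30 / (4 * 100 ^ n) + 1 : ℕ) : ℝ) := by
    exact_mod_cast h
  rw [qq, Rat.cast_div, Rat.cast_natCast, div_pow, div_div,
    div_le_div_iff₀ (by positivity) (by positivity)]
  push_cast at h' ⊢
  linarith

theorem qq_pos (n : ℕ) : (0 : ℝ) < qq n := lt_of_lt_of_le (by positivity) (qq_ge n)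

theorem log_le_qq (n : ℕ) {y : ℝ} (hy : 0 < y) : log y ≤ qq n * y + lg n := by
  have h1 := log_le_sub_one_of_pos (mul_pos (qq_pos n) hy)
  rw [log_mul (qq_pos n).ne' hy.ne'] at h1
  have h2 := log_le_log (by positivity) (qq_ge n)
  rw [log_div (by positivity) (by norm_num), log_pow, show (4 : ℝ) = 2 ^ 2 by norm_num,
    log_pow] at h2
  have h3 := mul_le_mul_of_nonneg_left log101 (Nat.cast_nonneg (α := ℝ) n)
  have h4 := log_two_lt_d9
  rw [lg]
  push_cast at h2 ⊢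
  norm_num at h3 h4 ⊢
  linarith

end Vale.Agent.P030.CL
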