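import Vale.Agent.P030.CertH

namespace Vale.Agent.P030.CL

open Real

def Good (Pr : ℝ → Prop) (t e : ℕ) : Prop := ∀ x, xp t < x → x ≤ xp e → Pr x

theorem Good.trans {Pr : ℝ → Prop} {a b c : ℕ} (h : Good Pr a b) (h' : Good Pr b c) :
    Good Pr a c := fun x h1 h2 =>
  (le_or_gt x (xp b)).elim (h x h1) fun h3 => h' x h3 h2

theorem chain_good {Pr : ℝ → Prop} {val : ℕ → ℚ} {ok : ℕ → ℚ → ℕ → ℚ → ℕ → ℕ → ℕ → Bool}
    (h : ∀ t u n1 n2 n3, t ≤ 32768 → u ≤ 32768 → 0 < dd t u →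
      ok t (val t) u (val u) n1 n2 n3 = true → Good Pr t u) {e : ℕ} (l : List ℕ) (t : ℕ)
    (ht : t ≤ 32768) (hc : chain e val ok t (val t) l = true) : Good Pr t e := by
  induction l generalizing t with
  | nil =>
    have : t = e := by simpa [chain] using hc
    subst this
    exact fun x h1 h2 => absurd h1 (not_lt.2 h2)
  | cons c l ih =>
    simp only [chain, Bool.and_eq_true, decide_eq_true_eq] at hc
    obtain ⟨⟨⟨h1, h2⟩, h3⟩, h4⟩ := hc
    exact (h _ _ _ _ _ ht h1 h2 h3).trans (ih _ h1 h4)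

def P1 (L : List T4) (th lam m : ℚ) (x : ℝ) : Prop :=
  0 < x → x < π → cos x ≠ 0 →
    T1 L x + 1 / 2 * log (1 + ww x ^ 2) + 47 / 36 * log |cos x|
      + (1 / 18 - eta) * log (1 - cos x) - th * log |ww x| + lam * (sin x - 29 / 36) ≤ m

def P2 (L : List T4) (m : ℚ) (x : ℝ) : Prop :=
  0 < x → x < π →
    T2 L x - log (1 + zz x ^ 2) + 1 / 6 * log (ss x) + 1 / 18 * log (1 - ss x) ≤ m

theorem cs_sign {t : ℕ} : (t ≤ 16384 → (0 : ℝ) ≤ cs t) ∧ (16384 ≤ t → (cs t : ℝ) ≤ 0) := by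
  rw [cs_cast]
  constructor
  · intro h
    have : (t : ℝ) ≤ 16384 := by exact_mod_cast h
    refine div_nonneg ?_ (pR_pos' t).le
    unfold pP; push_cast; nlinarith
  · intro h
    have : (16384 : ℝ) ≤ t := by exact_mod_cast h
    refine div_nonpos_of_nonpos_of_nonneg ?_ (pR_pos' t).le
    unfold pP; push_cast; nlinarith

theorem cos_lt {x : ℝ} (s0 : 0 < sin x) : 0 < 1 - cos x ∧ 0 < 1 + cos x := by
  constructor <;> nlinarith [sin_sq_add_cos_sq x, neg_one_le_cos x, cos_le_one x]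

theorem log_ww {x : ℝ} (s0 : 0 < sin x) : log (1 + ww x ^ 2) = log 2 - log (1 + sin x) := by
  rw [← log_div (by norm_num) (by positivity), ww]
  congr 1
  field_simp
  nlinarith [sin_sq_add_cos_sq x]

theorem cell1 {L : List T4} {M th lam m : ℚ} (h1 : 1 / 2 ≤ th) (h2 : th ≤ 47 / 36) (h3 : 0 ≤ lam)
    (hM0 : 0 ≤ M) (hM : (cM1 L : ℚ) / 10 ^ 8 ≤ M) (t u n1 n2 n3 : ℕ) (ht : t ≤ 32768)
    (hu : u ≤ 32768) (hd : 0 < dd t u)
    (hok : ok1 M th lam m t (val1 L t) u (val1 L u) n1 n2 n3 = true) : Good (P1 L th lam m) t u := by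
  intro x ha hb x0 x1 xc
  simp only [ok1, Bool.and_eq_true, decide_eq_true_eq] at hok
  obtain ⟨hs, hok⟩ := hok
  have hok' := (Rat.cast_le (K := ℝ)).2 hok
  simp only [e1, k1] at hok'
  push_cast at hok'
  have h1' := (Rat.cast_le (K := ℝ)).2 h1
  have h2' := (Rat.cast_le (K := ℝ)).2 h2
  push_cast at h1' h2'
  have h3' : (0 : ℝ) ≤ lam := by exact_mod_cast h3
  have hM0' : (0 : ℝ) ≤ M := by exact_mod_cast hM0
  have q1 := qq_pos n1
  have q2 := qq_pos n2
  have q3 := qq_pos n3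
  set b1 : ℝ := (47 / 36 - th) * qq n1 with hb1
  set b2 : ℝ := (th - 1 / 2) * qq n2 with hb2
  set b3 : ℝ := (1 / 18 - 1 / 100000) * qq n3 with hb3
  have b10 : 0 ≤ b1 := mul_nonneg (by linarith) q1.le
  have b20 : 0 ≤ b2 := mul_nonneg (by linarith) q2.le
  have b30 : 0 ≤ b3 := mul_nonneg (by norm_num) q3.le
  have hsg : |(sg u : ℝ)| = 1 := by unfold sg; split_ifs <;> simp
  have hcos : |cos x| = sg u * cos x := by
    unfold sg
    split_ifs with hu'
    · have : cos (xp u) ≤ cos x := cos_le_cos_of_nonneg_of_le_pi x0.le (arccos_le_pi _) hb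
      rw [cos_xp] at this
      rw [abs_of_nonneg ((cs_sign.1 hu').trans this)]; simp
    · have : cos x ≤ cos (xp t) := cos_le_cos_of_nonneg_of_le_pi (arccos_nonneg _) x1.le ha.le
      rw [cos_xp] at this
      rw [abs_of_nonpos (this.trans (cs_sign.2 (hs.resolve_left hu')))]; simp
  have sc : SC (fun x => T1 L x + lam * sin x + b1 * sg u * cos x + b2 * (1 + sin x)
      + b3 * (1 - cos x)) (M + lam + b1 + b2 + b3) := by
    refine (((sc_T1 L hM).add (sc_trig (b1 * sg u - b3) (lam + b2) 1)).add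
      (SC.const (b2 + b3) le_rfl)).of_eq (fun x => by simp only [one_mul]; ring) ?_
    have : |b1 * sg u - b3| ≤ b1 + b3 := by
      refine (abs_sub _ _).trans ?_
      rw [abs_mul, hsg, abs_of_nonneg b10, abs_of_nonneg b30, mul_one]
    rw [abs_of_nonneg (add_nonneg h3' b20)]
    linarith
  have hM' : 0 ≤ M + lam + b1 + b2 + b3 := by linarith
  have bd := sc.bound hM' ha.le hb
  simp only [cos_xp, sin_xp ht, sin_xp hu] at bd
  have hh' := mul_le_mul_of_nonneg_left (hh_spec ht hu hd (ha.le.trans hb))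
    (show 0 ≤ (M + lam + b1 + b2 + b3) / 8 by linarith)
  have mx : max (T1 L (xp t) + lam * sn t + b1 * sg u * cs t + b2 * (1 + sn t) + b3 * (1 - cs t))
      (T1 L (xp u) + lam * sn u + b1 * sg u * cs u + b2 * (1 + sn u) + b3 * (1 - cs u))
      ≤ max ((val1 L t : ℝ) + lam * sn t + b1 * sg u * cs t + b2 * (1 + sn t) + b3 * (1 - cs t))
      ((val1 L u : ℝ) + lam * sn u + b1 * sg u * cs u + b2 * (1 + sn u) + b3 * (1 - cs u)) :=
    max_le_max (by linarith [val1_spec L ht]) (by linarith [val1_spec L hu])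
  have s0 : 0 < sin x := sin_pos_of_pos_of_lt_pi x0 x1
  have c1 := (cos_lt s0).1
  have l1 := log_ww s0
  have l2 : log |ww x| = log |cos x| - log (1 + sin x) := by
    rw [ww, abs_div, log_div (abs_ne_zero.2 xc) (by positivity),
      abs_of_pos (show 0 < 1 + sin x by positivity)]
  have g1 := mul_le_mul_of_nonneg_left (log_le_qq n1 (abs_pos.2 xc))
    (show (0 : ℝ) ≤ 47 / 36 - th by linarith)
  have g2 := mul_le_mul_of_nonneg_left (log_le_qq n2 (show 0 < 1 + sin x by positivity))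
    (show (0 : ℝ) ≤ th - 1 / 2 by linarith)
  have g3 := mul_le_mul_of_nonneg_left (log_le_qq n3 c1)
    (show (0 : ℝ) ≤ 1 / 18 - 1 / 100000 by norm_num)
  have g4 := log_two_lt_d9
  nth_rewrite 2 [hcos] at g1
  rw [mul_add, ← mul_assoc, ← mul_assoc, ← hb1] at g1
  rw [mul_add, ← mul_assoc, ← hb2] at g2
  rw [mul_add, ← mul_assoc, ← hb3] at g3
  rw [l1, l2, eta]
  norm_num at g4
  linarith

theorem cell2 {L : List T4} {M m : ℚ} (hM0 : 0 ≤ M) (hM : (cM2 L : ℚ) / 10 ^ 8 ≤ M)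
    (t u n1 n2 n3 : ℕ) (ht : t ≤ 32768) (hu : u ≤ 32768) (hd : 0 < dd t u)
    (hok : ok2 M m t (val2 L t) u (val2 L u) n1 n2 n3 = true) : Good (P2 L m) t u := by
  intro x ha hb x0 x1
  simp only [ok2, decide_eq_true_eq] at hok
  have hok' := (Rat.cast_le (K := ℝ)).2 hok
  simp only [e2, k2, zq] at hok'
  push_cast at hok'
  have hM0' : (0 : ℝ) ≤ M := by exact_mod_cast hM0
  have q1 := qq_pos n1
  have q2 := qq_pos n2
  have q3 := qq_pos n3
  have sc : SC (fun x => T2 L x + qq n1 / 6 * zz x + qq n2 / 9 * (1 - zz x)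
      + 11 / 9 * -log (1 + zz x ^ 2)) (M + qq n1 / 12 + qq n2 / 18 + 22 / 9) := by
    refine ((((sc_T2 L hM).add (sc_trig (qq n2 / 18 - qq n1 / 12) 0 1)).add
      (SC.const (qq n1 / 12 + qq n2 / 18) le_rfl)).add (sc_G.smul (c := 11 / 9) (by norm_num))).of_eq
      (fun x => by simp only [one_mul, zz]; ring) ?_
    have : |(qq n2 : ℝ) / 18 - qq n1 / 12| ≤ qq n1 / 12 + qq n2 / 18 := by
      rw [abs_le]; constructor <;> linarith
    rw [abs_zero]
    linarith
  have bd := sc.bound (by linarith) ha.le hb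
  have hh' := mul_le_mul_of_nonneg_left (hh_spec ht hu hd (ha.le.trans hb))
    (show (0 : ℝ) ≤ (M + qq n1 / 12 + qq n2 / 18 + 22 / 9) / 8 by linarith)
  have G : ∀ z : ℝ, 11 / 9 * -log (1 + z ^ 2) ≤ 11 / 9 * qq n3 / (1 + z ^ 2) + 11 / 9 * lg n3 := by
    intro z
    have := log_le_qq n3 (show 0 < (1 + z ^ 2)⁻¹ by positivity)
    rw [log_inv] at this
    rw [div_eq_mul_inv (11 / 9 * (qq n3 : ℝ))]
    linarith
  have zx : ∀ t, zz (xp t) = (1 - cs t) / 2 := fun t => by rw [zz, cos_xp]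
  simp only [zx] at bd
  have mx : max (T2 L (xp t) + qq n1 / 6 * ((1 - cs t) / 2) + qq n2 / 9 * (1 - (1 - cs t) / 2)
        + 11 / 9 * -log (1 + ((1 - cs t) / 2) ^ 2))
      (T2 L (xp u) + qq n1 / 6 * ((1 - cs u) / 2) + qq n2 / 9 * (1 - (1 - cs u) / 2)
        + 11 / 9 * -log (1 + ((1 - cs u) / 2) ^ 2))
      ≤ max ((val2 L t : ℝ) + qq n1 / 6 * ((1 - cs t) / 2) + qq n2 / 9 * (1 - (1 - cs t) / 2)
        + 11 / 9 * qq n3 / (1 + ((1 - cs t) / 2) ^ 2))
      ((val2 L u : ℝ) + qq n1 / 6 * ((1 - cs u) / 2) + qq n2 / 9 * (1 - (1 - cs u) / 2)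
        + 11 / 9 * qq n3 / (1 + ((1 - cs u) / 2) ^ 2)) + (11 / 9 * lg n3 : ℝ) := by
    rw [← max_add_add_right]
    exact max_le_max (by linarith [val2_spec L ht, G ((1 - cs t) / 2)])
      (by linarith [val2_spec L hu, G ((1 - cs u) / 2)])
  have s0 : 0 < sin x := sin_pos_of_pos_of_lt_pi x0 x1
  have z0 : 0 < zz x := by
    unfold zz; linarith [(cos_lt s0).1]
  have z1 : 0 < 1 - zz x := by
    unfold zz; linarith [(cos_lt s0).2]
  have l1 : log (ss x) = log 2 + log (zz x) - log (1 + zz x ^ 2) := by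
    rw [ss, log_div (by positivity) (by positivity), log_mul (by norm_num) z0.ne']
  have l2 : log (1 - ss x) = 2 * log (1 - zz x) - log (1 + zz x ^ 2) := by
    have : 1 - ss x = (1 - zz x) ^ 2 / (1 + zz x ^ 2) := by
      rw [ss]; field_simp; ring
    rw [this, log_div (by positivity) (by positivity), log_pow]; norm_num
  have g1 := log_le_qq n1 z0
  have g2 := log_le_qq n2 z1
  have g4 := log_two_lt_d9
  rw [l1, l2]
  norm_num at g4
  linarith

theorem good1 {L : List T4} {M th lam m : ℚ} (h1 : 1 / 2 ≤ th) (h2 : th ≤ 47 / 36) (h3 : 0 ≤ lam)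
    (hM0 : 0 ≤ M) (hM : (cM1 L : ℚ) / 10 ^ 8 ≤ M) {e t : ℕ} {l : List ℕ} (ht : t ≤ 32768)
    (hc : chain e (val1 L) (ok1 M th lam m) t (val1 L t) l = true) : Good (P1 L th lam m) t e :=
  chain_good (cell1 h1 h2 h3 hM0 hM) l t ht hc

theorem good2 {L : List T4} {M m : ℚ} (hM0 : 0 ≤ M) (hM : (cM2 L : ℚ) / 10 ^ 8 ≤ M)
    {e t : ℕ} {l : List ℕ} (ht : t ≤ 32768)
    (hc : chain e (val2 L) (ok2 M m) t (val2 L t) l = true) : Good (P2 L m) t e :=
  chain_good (cell2 hM0 hM) l t ht hc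

theorem lsum_mul (c : ℝ) (φ : ℕ → T4 → ℝ) (l : List T4) (k : ℕ) :
    c * lsum φ l k = lsum (fun k g => c * φ k g) l k := by
  induction l generalizing k with
  | nil => simp [lsum]
  | cons g l ih => simp only [lsum, ← ih]; ring

theorem cert_of_good {L : List T4} {th lam m1 m2 : ℚ} (g1 : Good (P1 L th lam m1) 0 32768)
    (g2 : Good (P2 L m2) 0 32768)
    (c3 : (cQ L : ℚ) / (16 * 10 ^ 16) - 2 * (6931471803 / 10 ^ 10) + m1 + m2
      + 3 / 100000 * (6931471808 / 10 ^ 10) ≤ -19325 / 10000) : Cert th lam := by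
  refine ⟨L.length, fun k => -k * (L.getD (k - 1) 0).2.1 / 10 ^ 8,
    fun k => -k * ((L.getD (k - 1) 0).1 + 2 * (L.getD (k - 1) 0).2.2.1) / 10 ^ 8,
    fun k => k * (L.getD (k - 1) 0).2.2.1 / 10 ^ 8,
    fun k => -k * (L.getD (k - 1) 0).2.2.2 / (4 * 10 ^ 8), m1, m2, fun x x0 x1 xc => ?_,
    fun x x0 x1 => ?_, ?_⟩
  · have := g1 x (by rwa [xp_zero]) (by rw [xp_last]; exact x1.le) x0 x1 xc
    convert this using 6
    rw [T1, lsum_mul, ← lsum_Icc, v1, ← Finset.sum_neg_distrib]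
    refine Finset.sum_congr rfl fun k hk => ?_
    have : (k : ℝ) ≠ 0 := by
      have := (Finset.mem_Icc.1 hk).1
      positivity
    field_simp
    ring
  · have := g2 x (by rwa [xp_zero]) (by rw [xp_last]; exact x1.le) x0 x1
    convert this using 4
    rw [T2, lsum_mul, ← lsum_Icc, v2]
    refine Finset.sum_congr rfl fun k hk => ?_
    have : (k : ℝ) ≠ 0 := by
      have := (Finset.mem_Icc.1 hk).1
      positivity
    push_cast
    field_simp
    ring
  · have h := (Rat.cast_le (K := ℝ)).2 c3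
    push_cast at h
    have e : Qd L.length (fun k => -k * (L.getD (k - 1) 0).2.1 / 10 ^ 8)
        (fun k => -k * ((L.getD (k - 1) 0).1 + 2 * (L.getD (k - 1) 0).2.2.1) / 10 ^ 8)
        (fun k => k * (L.getD (k - 1) 0).2.2.1 / 10 ^ 8)
        (fun k => -k * (L.getD (k - 1) 0).2.2.2 / (4 * 10 ^ 8)) = 1 / (16 * 10 ^ 16) * cQ L := by
      rw [cQ, isum_cast, lsum_mul, ← lsum_Icc, Qd]
      refine Finset.sum_congr rfl fun k hk => ?_
      have : (k : ℝ) ≠ 0 := by
        have := (Finset.mem_Icc.1 hk).1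
        positivity
      push_cast
      field_simp
      ring
    have g4 := log_two_lt_d9
    have g5 := log_two_gt_d9
    rw [e, eta, show (8 : ℝ) = 2 ^ 3 by norm_num, log_pow]
    norm_num at g4 g5 h ⊢
    linarith

end Vale.Agent.P030.CL
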