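import Vale.Agent.P030.CertD

namespace Vale.Agent.P030.CL

open Real

/-- semiconvexity with constant `M`. -/
def SC (f : ℝ → ℝ) (M : ℝ) : Prop := ConvexOn ℝ Set.univ fun x => f x + M / 2 * x ^ 2

theorem SC.of_deriv {f f' f'' : ℝ → ℝ} {M : ℝ} (h1 : ∀ x, HasDerivAt f (f' x) x)
    (h2 : ∀ x, HasDerivAt f' (f'' x) x) (h3 : ∀ x, -M ≤ f'' x) : SC f M := by
  have d1 : ∀ x, HasDerivAt (fun x => f x + M / 2 * x ^ 2) (f' x + M * x) x := fun x => by
    have := (h1 x).add ((hasDerivAt_pow 2 x).const_mul (M / 2))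
    exact this.congr_deriv (by simp; ring)
  have d2 : ∀ x, HasDerivAt (fun x => f' x + M * x) (f'' x + M) x := fun x => by
    have := (h2 x).add ((hasDerivAt_id x).const_mul M)
    exact this.congr_deriv (by simp)
  have e : deriv (fun x => f x + M / 2 * x ^ 2) = fun x => f' x + M * x :=
    funext fun x => (d1 x).deriv
  refine Monotone.convexOn_univ_of_deriv (fun x => (d1 x).differentiableAt) ?_
  rw [e]
  refine monotone_of_deriv_nonneg (fun x => (d2 x).differentiableAt) fun x => ?_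
  rw [(d2 x).deriv]
  linarith [h3 x]

theorem SC.add {f g : ℝ → ℝ} {M M' : ℝ} (h : SC f M) (h' : SC g M') :
    SC (fun x => f x + g x) (M + M') := by
  have := ConvexOn.add h h'
  refine this.congr fun x _ => ?_
  simp only [Pi.add_apply]; ring

theorem SC.smul {f : ℝ → ℝ} {M c : ℝ} (hc : 0 ≤ c) (h : SC f M) :
    SC (fun x => c * f x) (c * M) := by
  have := ConvexOn.smul hc h
  refine this.congr fun x _ => ?_
  simp only [smul_eq_mul]; ring

theorem SC.const (c : ℝ) {M : ℝ} (hM : 0 ≤ M) : SC (fun _ => c) M :=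
  SC.of_deriv (f' := fun _ => 0) (f'' := fun _ => 0) (fun x => hasDerivAt_const x c)
    (fun x => hasDerivAt_const x 0) fun _ => by linarith

theorem SC.of_eq {f g : ℝ → ℝ} {M M' : ℝ} (h : SC f M) (e : ∀ x, g x = f x) (hM : M ≤ M') :
    SC g M' := by
  have := h.add (SC.const 0 (sub_nonneg.2 hM))
  simp only [add_zero, add_sub_cancel] at this
  rwa [show g = f from funext e]

theorem SC.bound {f : ℝ → ℝ} {M a b x : ℝ} (h : SC f M) (hM : 0 ≤ M) (ha : a ≤ x) (hb : x ≤ b) :
    f x ≤ max (f a) (f b) + M / 8 * (b - a) ^ 2 := by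
  rcases eq_or_lt_of_le (ha.trans hb) with hab | hab
  · have : x = a := le_antisymm (hab ▸ hb) ha
    subst this
    have := le_max_left (f x) (f b)
    have : 0 ≤ M / 8 * (b - x) ^ 2 := by positivity
    linarith
  · have hd : 0 < b - a := sub_pos.2 hab
    set s := (x - a) / (b - a) with hs
    have hs0 : 0 ≤ s := div_nonneg (sub_nonneg.2 ha) hd.le
    have hs1 : s ≤ 1 := (div_le_one hd).2 (by linarith)
    have hx : x = (1 - s) * a + s * b := by
      rw [hs]; field_simp; ring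
    have := h.2 (Set.mem_univ a) (Set.mem_univ b) (sub_nonneg.2 hs1) hs0 (by ring)
    simp only [smul_eq_mul] at this
    rw [← hx] at this
    have m1 := le_max_left (f a) (f b)
    have m2 := le_max_right (f a) (f b)
    have e : (1 - s) * (M / 2 * a ^ 2) + s * (M / 2 * b ^ 2) - M / 2 * x ^ 2
        = M / 8 * (b - a) ^ 2 - M / 8 * ((b - a) * (1 - 2 * s)) ^ 2 := by
      rw [hx]; ring
    have : 0 ≤ M / 8 * ((b - a) * (1 - 2 * s)) ^ 2 := by positivity
    nlinarith [mul_le_mul_of_nonneg_left m1 (sub_nonneg.2 hs1), mul_le_mul_of_nonneg_left m2 hs0]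

theorem sc_trig (α β k : ℝ) :
    SC (fun x => α * cos (k * x) + β * sin (k * x)) (k ^ 2 * (|α| + |β|)) := by
  have hk : ∀ x, HasDerivAt (fun x : ℝ => k * x) k x := fun x => by
    simpa using (hasDerivAt_id x).const_mul k
  refine SC.of_deriv (f' := fun x => α * (-sin (k * x) * k) + β * (cos (k * x) * k))
    (f'' := fun x => α * (-(cos (k * x) * k) * k) + β * (-sin (k * x) * k * k))
    (fun x => (((hk x).cos).const_mul α).add (((hk x).sin).const_mul β))
    (fun x => ((((hk x).sin.neg).mul_const k).const_mul α).add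
      ((((hk x).cos).mul_const k).const_mul β)) fun x => ?_
  have h1 : α * cos (k * x) ≤ |α| := by
    calc _ ≤ |α * cos (k * x)| := le_abs_self _
      _ ≤ |α| * 1 := by rw [abs_mul]; gcongr; exact abs_cos_le_one _
      _ = _ := mul_one _
  have h2 : β * sin (k * x) ≤ |β| := by
    calc _ ≤ |β * sin (k * x)| := le_abs_self _
      _ ≤ |β| * 1 := by rw [abs_mul]; gcongr; exact abs_sin_le_one _
      _ = _ := mul_one _
  nlinarith [mul_le_mul_of_nonneg_left (add_le_add h1 h2) (sq_nonneg k)]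

theorem zz_d (x : ℝ) : HasDerivAt zz (sin x / 2) x := by
  have := ((hasDerivAt_cos x).const_sub 1).div_const 2
  exact this.congr_deriv (by simp)

theorem zz_01 (x : ℝ) : 0 ≤ zz x ∧ zz x ≤ 1 := by
  unfold zz
  constructor <;> linarith [neg_one_le_cos x, cos_le_one x]

theorem sin_sq_zz (x : ℝ) : sin x ^ 2 = 4 * zz x * (1 - zz x) := by
  unfold zz
  rw [sin_sq]; ring

theorem bern {z : ℝ} (h0 : 0 ≤ z) (h1 : z ≤ 1) (m : ℕ) : m * z ^ m * (1 - z) ≤ 1 - z ^ m := by
  induction m with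
  | zero => simp
  | succ m ih =>
    have hp : 0 ≤ z ^ m := pow_nonneg h0 m
    have h2 : 0 ≤ m * z ^ m * (1 - z) := mul_nonneg (by positivity) (by linarith)
    have h3 : z * (m * z ^ m * (1 - z)) ≤ m * z ^ m * (1 - z) := by nlinarith
    have h4 : z * (z ^ m * (1 - z)) ≤ z ^ m * (1 - z) := by
      nlinarith [mul_nonneg hp (sub_nonneg.2 h1)]
    push_cast
    rw [pow_succ]
    nlinarith

theorem sc_zpow (E : ℝ) (k : ℕ) : SC (fun x => 2 * E * zz x ^ k) (3 * k * |E|) := by
  rcases k with _ | m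
  · simpa using SC.const (2 * E) le_rfl
  refine SC.of_deriv (f' := fun x => 2 * E * (((m + 1 : ℕ) : ℝ) * zz x ^ m * (sin x / 2)))
    (f'' := fun x => 2 * E * (((m + 1 : ℕ) : ℝ) * ((m : ℝ) * zz x ^ (m - 1) * (sin x / 2)) * (sin x / 2)
      + ((m + 1 : ℕ) : ℝ) * zz x ^ m * (cos x / 2)))
    (fun x => by simpa using ((zz_d x).pow (m + 1)).const_mul (2 * E))
    (fun x => (((((zz_d x).pow m).const_mul _).mul ((hasDerivAt_sin x).div_const 2)).const_mul _))
    fun x => ?_
  obtain ⟨z0, z1⟩ := zz_01 x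
  have e : (m : ℝ) * zz x ^ (m - 1) * (sin x / 2) * (sin x / 2) = m * zz x ^ m * (1 - zz x) := by
    have : (m : ℝ) * zz x ^ (m - 1) * (sin x / 2) * (sin x / 2)
        = m * zz x ^ (m - 1) * sin x ^ 2 / 4 := by ring
    rw [this, sin_sq_zz]
    rcases m with _ | m
    · simp
    · simp only [Nat.add_sub_cancel, pow_succ]; ring
  have b := bern z0 z1 m
  have hp : 0 ≤ zz x ^ m := pow_nonneg z0 m
  have hp1 : zz x ^ m ≤ 1 := pow_le_one₀ z0 z1
  have b0 : 0 ≤ m * zz x ^ m * (1 - zz x) := mul_nonneg (by positivity) (by linarith)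
  set w := m * zz x ^ m * (1 - zz x) + zz x ^ m * (cos x / 2) with hw
  have hw1 : |w| ≤ 3 / 2 := by
    rw [abs_le]
    constructor <;> nlinarith [neg_one_le_cos x, cos_le_one x]
  have e2 : 2 * E * (((m + 1 : ℕ) : ℝ) * ((m : ℝ) * zz x ^ (m - 1) * (sin x / 2)) * (sin x / 2)
      + ((m + 1 : ℕ) : ℝ) * zz x ^ m * (cos x / 2)) = 2 * ((m + 1 : ℕ) : ℝ) * (E * w) := by
    rw [hw, ← e]; ring
  rw [e2]
  have h3 : -(|E| * (3 / 2)) ≤ E * w := by
    have : |E * w| ≤ |E| * (3 / 2) := by rw [abs_mul]; gcongr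
    linarith [neg_abs_le (E * w)]
  have hm : (0 : ℝ) ≤ ((m + 1 : ℕ) : ℝ) := Nat.cast_nonneg _
  nlinarith [mul_le_mul_of_nonneg_left h3 hm]

theorem sc_G : SC (fun x => -log (1 + zz x ^ 2)) 2 := by
  have hp : ∀ x, 0 < 1 + zz x ^ 2 := fun x => by positivity
  have d : ∀ x, HasDerivAt (fun x => 1 + zz x ^ 2) (zz x * sin x) x := fun x => by
    have := ((zz_d x).pow 2).const_add 1
    exact this.congr_deriv (by simp; ring)
  refine SC.of_deriv (f' := fun x => -(zz x * sin x / (1 + zz x ^ 2)))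
    (f'' := fun x => -(((sin x / 2 * sin x + zz x * cos x) * (1 + zz x ^ 2)
      - zz x * sin x * (zz x * sin x)) / (1 + zz x ^ 2) ^ 2))
    (fun x => ((d x).log (hp x).ne').neg)
    (fun x => (((zz_d x).mul (hasDerivAt_sin x)).div (d x) (hp x).ne').neg) fun x => ?_
  obtain ⟨z0, z1⟩ := zz_01 x
  rw [neg_le_neg_iff, div_le_iff₀ (by positivity)]
  have h1 : sin x / 2 * sin x + zz x * cos x ≤ 2 := by
    nlinarith [sin_sq_le_one x, cos_le_one x, neg_one_le_cos x]
  nlinarith [mul_le_mul_of_nonneg_right h1 (hp x).le, sq_nonneg (zz x * sin x), sq_nonneg (zz x),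
    sq_nonneg (zz x ^ 2)]

noncomputable def lsum (φ : ℕ → T4 → ℝ) : List T4 → ℕ → ℝ
  | [], _ => 0
  | g :: l, k => φ k g + lsum φ l (k + 1)

theorem isum_cast (φ : ℕ → T4 → ℤ) (l : List T4) (k : ℕ) :
    (isum φ l k : ℝ) = lsum (fun k g => (φ k g : ℝ)) l k := by
  induction l generalizing k with
  | nil => simp [isum, lsum]
  | cons g l ih => simp [isum, lsum, ih]

theorem lsum_eq (φ : ℕ → T4 → ℝ) (l : List T4) (k : ℕ) :
    lsum φ l k = ∑ j ∈ Finset.range l.length, φ (k + j) (l.getD j 0) := by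
  induction l generalizing k with
  | nil => simp [lsum]
  | cons g l ih =>
    rw [lsum, ih, List.length_cons, Finset.sum_range_succ', add_comm]
    simp [add_assoc, add_comm 1]

theorem lsum_Icc (φ : ℕ → T4 → ℝ) (l : List T4) :
    ∑ k ∈ Finset.Icc 1 l.length, φ k (l.getD (k - 1) 0) = lsum φ l 1 := by
  rw [lsum_eq, ← Finset.Ico_add_one_right_eq_Icc, Finset.sum_Ico_eq_sum_range]
  simp

theorem sc_lsum {φ : ℝ → ℕ → T4 → ℝ} {ψ : ℕ → T4 → ℝ} (h : ∀ k g, SC (fun x => φ x k g) (ψ k g))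
    (l : List T4) (k : ℕ) : SC (fun x => lsum (φ x) l k) (lsum ψ l k) := by
  induction l generalizing k with
  | nil => exact SC.const 0 le_rfl
  | cons g l ih => exact (h k g).add (ih (k + 1))

end Vale.Agent.P030.CL
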