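import Vale.Agent.P030.Rows

namespace Vale.Agent.P030

open Polynomial Finset

noncomputable def Con_Phi : PowerSeries ℚ := PowerSeries.mk fun d => cZ 0 d

noncomputable def Con_i : ℤ[X] →+* PowerSeries ℚ :=
  Polynomial.coeToPowerSeries.ringHom.comp (Polynomial.mapRingHom (Int.castRingHom ℚ))

theorem Con_i_coeff (P : ℤ[X]) (n : ℕ) : PowerSeries.coeff n (Con_i P) = (P.coeff n : ℚ) := by
  simp [Con_i]

theorem Con_i_X : Con_i X = PowerSeries.X := by simp [Con_i]

theorem Con_rec (d : ℕ) : ((d : ℚ) + 2) * cZ 0 (d + 2) = (d + 1) * cZ 0 d := by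
  unfold cZ
  rcases Nat.even_or_odd' d with ⟨l, rfl | rfl⟩
  · rw [if_pos (by omega), if_pos (by omega), show (2 * l + 2 - 0) / 2 = l + 1 by omega,
      show (2 * l - 0) / 2 = l by omega, cc]
    push_cast; field_simp
  · rw [if_neg (by omega), if_neg (by omega)]; simp

theorem Con_ode : (1 - PowerSeries.X ^ 2) * PowerSeries.derivative ℚ Con_Phi =
    PowerSeries.X * Con_Phi := by
  ext n
  rw [sub_mul, one_mul, map_sub, PowerSeries.coeff_X_pow_mul', PowerSeries.coeff_derivative]
  rcases n with _ | _ | n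
  · simp [Con_Phi, cZ]
  · have := Con_rec 0
    simp only [PowerSeries.coeff_succ_X_mul, Con_Phi, PowerSeries.coeff_mk]
    norm_num at this ⊢
    linarith
  · rw [if_pos (by omega), PowerSeries.coeff_derivative, PowerSeries.coeff_succ_X_mul]
    have := Con_rec (n + 1)
    simp only [Con_Phi, PowerSeries.coeff_mk, show n + 1 + 1 - 2 = n by omega]
    push_cast at this ⊢
    rw [show n + 1 + 1 + 1 = n + 1 + 2 by ring]
    linarith

theorem Con_const : PowerSeries.constantCoeff Con_Phi = 1 := by
  rw [← PowerSeries.coeff_zero_eq_constantCoeff_apply]; simp [Con_Phi, cZ, cc]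

theorem Con_sq : Con_Phi ^ 2 * (1 - PowerSeries.X ^ 2) = 1 := by
  apply PowerSeries.derivative.ext
  · have h := Con_ode
    simp only [Derivation.leibniz, Derivation.leibniz_pow, map_sub, Derivation.map_one_eq_zero,
      PowerSeries.derivative_X, smul_eq_mul, nsmul_eq_mul]
    push_cast
    linear_combination 2 * Con_Phi * h
  · simp [Con_const]

theorem Con_dvd (d : ℕ) :
    (PowerSeries.X : PowerSeries ℚ) ^ (2 * d) ∣ Con_i (tau d) * Con_Phi - Con_i (ups d) := by
  have h1 := congrArg Con_i (tau_sq d)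
  simp only [map_sub, map_mul, map_pow, map_one, Con_i_X] at h1
  have hu : IsUnit ((Con_i (tau d) * Con_Phi + Con_i (ups d)) * (1 - PowerSeries.X ^ 2)) := by
    rw [PowerSeries.isUnit_iff_constantCoeff, isUnit_iff_ne_zero]
    have e : ∀ P : ℤ[X], PowerSeries.constantCoeff (Con_i P) = (P.coeff 0 : ℚ) := fun P => by
      rw [← PowerSeries.coeff_zero_eq_constantCoeff_apply, Con_i_coeff]
    simp only [map_mul, map_add, map_sub, map_pow, map_one, PowerSeries.constantCoeff_X, e,
      Con_const]
    rcases d with _ | d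
    · simp [tau, ups]
    · rw [tau_coeff_zero, ups_coeff_zero]; push_cast; positivity
  rw [← hu.dvd_mul_right]
  refine Dvd.intro 1 ?_
  linear_combination -h1 - Con_i (tau d) ^ 2 * Con_sq

theorem Con_main {N r : ℕ} (hr : r ≤ 36 * N) :
    (PowerSeries.X : PowerSeries ℚ) ^ (44 * N) ∣ Con_i (rowA N r) * Con_Phi - Con_i (rowD N r) := by
  set m : ℤ := (r : ℤ) - 3 * N with hm
  have key : (PowerSeries.X : PowerSeries ℚ) ^ (44 * N) ∣
      Con_i (al (47 * N) m) * Con_Phi - Con_i (de (47 * N) m) := by
    unfold al de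
    simp only [map_mul, map_pow, Con_i_X]
    rcases lt_trichotomy m 0 with h | h | h
    · have : (PowerSeries.X : PowerSeries ℚ) ^ (44 * N) ∣ PowerSeries.X ^ (47 * N - m.natAbs) :=
        pow_dvd_pow _ (by omega)
      exact dvd_sub ((this.mul_right _).mul_right _) ((this.mul_left _).mul_right _)
    · rw [h]
      simp only [Int.sign_zero, map_zero, zero_mul, sub_zero]
      exact ((pow_dvd_pow _ (by simp; omega)).mul_right _).mul_right _
    · rw [Int.sign_eq_one_of_pos h]
      simp only [map_one, one_mul]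
      rw [mul_assoc, ← mul_sub]
      refine dvd_trans ?_ (mul_dvd_mul_left _ (Con_dvd m.natAbs))
      rw [← pow_add]
      exact pow_dvd_pow _ (by omega)
  unfold rowA rowD
  rw [map_mul, map_mul, mul_assoc, ← mul_sub]
  exact key.mul_left _

/-- Taylor contact: `rowA / sqrt (1 - X^2) = rowD + O(X^(44 N))`. -/
theorem contact {N r j : ℕ} (hr : r ≤ 36 * N) (hj : j < 44 * N) :
    ∑ i ∈ range (49 * N + 1), ((rowA N r).coeff i : ℚ) * cZ i j = ((rowD N r).coeff j : ℚ) := by
  have h := PowerSeries.X_pow_dvd_iff.1 (Con_main hr) j hj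
  rw [map_sub, sub_eq_zero, Con_i_coeff, PowerSeries.coeff_mul,
    Finset.Nat.sum_antidiagonal_eq_sum_range_succ_mk] at h
  rw [← h]
  symm
  apply Finset.sum_subset_zero_on_sdiff
  · intro i hi; simp only [Finset.mem_range] at hi ⊢; omega
  · intro i hi
    simp only [Finset.mem_sdiff, Finset.mem_range] at hi
    rw [cZ, if_neg (by omega), mul_zero]
  · intro i hi
    simp only [Finset.mem_range] at hi
    rw [Con_i_coeff]
    simp only [Con_Phi, PowerSeries.coeff_mk, cZ, Nat.sub_zero, Nat.zero_le, true_and]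
    congr 1
    have : i ≤ j := by omega
    simp [this]

end Vale.Agent.P030
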