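import Mathlib

namespace Vale.Agent.P030

open Polynomial Finset

/-- `nu k = ∫_{-1}^1 sgn t * t^k / sqrt (1 - t^2) dt`. -/
def nu : ℕ → ℚ
  | 0 => 0
  | 1 => 2
  | k + 2 => nu k * (k + 1) / (k + 2)

/-- `cc m = centralBinom m / 4^m`. -/
def cc : ℕ → ℚ
  | 0 => 1
  | m + 1 => cc m * (2 * m + 1) / (2 * m + 2)

def mcol : ℕ → ℚ
  | 0 => 0
  | 1 => 0
  | i + 2 => (i * mcol i + nu i + nu (i + 1)) / (i + 1)

def mrow : ℕ → ℚ
  | 0 => 0
  | 1 => 2
  | j + 2 => ((j + 1) * mrow j + 2 / (j + 2)) / (j + 2)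

/-- rational part of `∑ m, nu (i + m) / (j + m + 1)`. -/
def M0 : ℕ → ℕ → ℚ
  | i, 0 => mcol i
  | 0, j + 1 => mrow (j + 1)
  | i + 1, j + 1 => M0 i j - nu i / (j + 1)

def cG (i j : ℕ) : ℚ := if j < i ∧ (i - j) % 2 = 1 then cc ((i - j) / 2) else 0

def cZ (i j : ℕ) : ℚ := if i ≤ j ∧ (j - i) % 2 = 0 then cc ((j - i) / 2) else 0

/-- rational part of `∑ m, 1 / ((i + m + 1) * (j + m + 1))`. -/
def Z0 (i j : ℕ) : ℚ :=
  if i = j then -∑ k ∈ range i, 1 / ((k : ℚ) + 1) ^ 2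
  else (harmonic i - harmonic j) / ((i : ℚ) - j)

/-- `(1 - f)^d = tau d - f * ups d` when `f^2 = 1 - X^2`. -/
noncomputable def tau : ℕ → ℤ[X]
  | 0 => 1
  | 1 => 1
  | d + 2 => 2 * tau (d + 1) - X ^ 2 * tau d

noncomputable def ups : ℕ → ℤ[X]
  | 0 => 0
  | 1 => 1
  | d + 2 => 2 * ups (d + 1) - X ^ 2 * ups d

noncomputable def al (c : ℕ) (m : ℤ) : ℤ[X] := X ^ (c - m.natAbs) * tau m.natAbs

noncomputable def de (c : ℕ) (m : ℤ) : ℤ[X] := C m.sign * X ^ (c - m.natAbs) * ups m.natAbs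

noncomputable def rowA (N r : ℕ) : ℤ[X] := (1 - X) ^ (2 * N) * al (47 * N) ((r : ℤ) - 3 * N)

noncomputable def rowD (N r : ℕ) : ℤ[X] := (1 - X) ^ (2 * N) * de (47 * N) ((r : ℤ) - 3 * N)

noncomputable def col (N k : ℕ) : ℤ[X] := X ^ (6 * N + k) * (1 - X) ^ (2 * N)

noncomputable def ent (G : ℚ) (N r j : ℕ) : ℚ :=
  ∑ i ∈ range (49 * N + 1), ((rowA N r).coeff i : ℚ) * (M0 i j + 4 * G * cG i j)
    - 3 / 2 * ∑ i ∈ range (49 * N + 1), ((rowD N r).coeff i : ℚ) * Z0 i j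

noncomputable def mat (G : ℚ) (N r k : ℕ) : ℚ :=
  ∑ j ∈ range (44 * N), ((col N k).coeff j : ℚ) * ent G N r j

noncomputable def Delta (G : ℚ) (N : ℕ) : ℚ :=
  (Matrix.of fun r k : Fin (36 * N) => mat G N r k).det

/-- the `p`-adic absolute value of a rational. -/
noncomputable def pn (p : ℕ) [Fact p.Prime] (x : ℚ) : ℝ := ‖(x : ℚ_[p])‖

noncomputable def Ep (p : ℕ) : ℤ[X] := (1 - X ^ 2) ^ ((p - 1) / 2)

/-- coefficient of `Ep p` at `x - i` (zero when `x < i`). -/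
noncomputable def aE (p x i : ℕ) : ℤ := if i ≤ x then (Ep p).coeff (x - i) else 0

noncomputable def xi (p N r l : ℕ) : ℚ :=
  ∑ i ∈ range (49 * N + 1), ((rowA N r).coeff i : ℚ) * (2 * aE p (2 * p + l) i)
    - 3 / 2 * ((rowD N r).coeff (p + l) : ℚ)

/-- the piecewise linear bound for the odd primes. -/
noncomputable def Vf (N y : ℝ) : ℝ :=
  max (49 * N - y) 0 + max (44 * N - y) 0 + max (43 * N - y) 0 + max (30 * N - y) 0
    - 2 * max (51 / 2 * N - y) 0 - 2 * max (49 / 2 * N - y) 0 + 2 * max (43 / 2 * N - y) 0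
    - 2 * max (37 / 2 * N - y) 0

/-- Catalan's constant. -/
noncomputable def cat : ℝ := ∑' j : ℕ, (-1 : ℝ) ^ j / (2 * j + 1) ^ 2

noncomputable def ww (a : ℝ) : ℝ := Real.cos a / (1 + Real.sin a)

noncomputable def zz (b : ℝ) : ℝ := (1 - Real.cos b) / 2

noncomputable def ss (b : ℝ) : ℝ := 2 * zz b / (1 + zz b ^ 2)

noncomputable def rho (w : ℝ) : ℝ := if 0 < w then -5 else 1

noncomputable def psi (N r : ℕ) (a : ℝ) : ℝ :=
  if 0 < Real.cos a then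
    aeval (Real.cos a) (rowA N r) - 3 / 2 * Real.sin a * aeval (Real.cos a) (rowD N r)
  else -aeval (Real.cos a) (rowA N r)

noncomputable def Gam (N k : ℕ) (t : ℝ) : ℝ :=
  ∫ s in (0 : ℝ)..1, aeval s (col N k) / (1 - t * s)

/-- Vandermonde product. -/
noncomputable def vdm {n : ℕ} (x : Fin n → ℝ) : ℝ := ∏ i : Fin n, ∏ j ∈ Ioi i, (x j - x i)

noncomputable def Qr {n : ℕ} (w c : Fin n → ℝ) : ℝ := ∑ i, ∑ j, c i * c j / (1 - w i * w j)

noncomputable def Lr (r x : ℝ) : ℝ := 1 / 2 * Real.log (1 - 2 * r * Real.cos x + r ^ 2)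

/-- the regularised energy. -/
noncomputable def Sr {n : ℕ} (r : ℝ) (a b : Fin n → ℝ) : ℝ :=
  ∑ i, ∑ j, (Lr r (a i - a j) + 1 / 2 * Lr r (a i + a j) + Lr r (b i - b j) + Lr r (b i + b j)
    + Real.log (1 - r * zz (b i) * zz (b j)) - 2 * Lr (r * zz (b j)) (a i))

/-- the logarithm of the interaction part of the integrand. -/
noncomputable def Lam {n : ℕ} (a b : Fin n → ℝ) : ℝ :=
  Real.log |vdm fun i => ww (a i)| + Real.log |vdm fun i => Real.cos (a i)|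
    + 2 * Real.log |vdm fun j => ss (b j)|
    - ∑ i, ∑ j, Real.log (1 - Real.cos (a i) * ss (b j))

noncomputable def Qd (K : ℕ) (c a e d : ℕ → ℝ) : ℝ :=
  ∑ k ∈ Icc 1 K, (c k ^ 2 / 2 + a k ^ 2 / 2 + e k ^ 2 + 2 * d k ^ 2) / k

noncomputable def v1 (K : ℕ) (c a e : ℕ → ℝ) (x : ℝ) : ℝ :=
  -∑ k ∈ Icc 1 K, (c k * Real.sin (k * x) + (a k + 2 * e k) * Real.cos (k * x)) / k

noncomputable def v2 (K : ℕ) (e d : ℕ → ℝ) (x : ℝ) : ℝ :=
  ∑ k ∈ Icc 1 K, (2 * e k * zz x ^ k - 4 * d k * Real.cos (k * x)) / k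

noncomputable def eta : ℝ := 1 / 100000

/-- a dual certificate for the energy problem. -/
def Cert (th lam : ℝ) : Prop :=
  ∃ (K : ℕ) (c a e d : ℕ → ℝ) (m1 m2 : ℝ),
    (∀ x : ℝ, 0 < x → x < Real.pi → Real.cos x ≠ 0 →
      v1 K c a e x + 1 / 2 * Real.log (1 + ww x ^ 2) + 47 / 36 * Real.log |Real.cos x|
        + (1 / 18 - eta) * Real.log (1 - Real.cos x) - th * Real.log |ww x|
        + lam * (Real.sin x - 29 / 36) ≤ m1) ∧
    (∀ x : ℝ, 0 < x → x < Real.pi →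
      v2 K e d x - Real.log (1 + zz x ^ 2) + 1 / 6 * Real.log (ss x)
        + 1 / 18 * Real.log (1 - ss x) ≤ m2) ∧
    Qd K c a e d - 2 * Real.log 2 + m1 + m2 + eta * Real.log 8 ≤ -1.9325

/-- the product of the three determinants in the integrand. -/
noncomputable def Itg (N : ℕ) (a s : Fin (36 * N) → ℝ) : ℝ :=
  |(Matrix.of fun r i : Fin (36 * N) => psi N r (a i)).det|
    * |(Matrix.of fun i j : Fin (36 * N) => 1 / (1 - Real.cos (a i) * s j)).det|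
    * |(Matrix.of fun k j : Fin (36 * N) => aeval (s j) (col N k)).det|

end Vale.Agent.P030
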