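import Vale.Agent.P030.Defs

namespace Vale.Agent.P030

open Finset

theorem hasSum_Lr {r : ℝ} (hr : |r| < 1) (x : ℝ) :
    HasSum (fun k : ℕ => r ^ k * Real.cos (k * x) / k) (-Lr r x) := by
  have hz : ‖(r : ℂ) * Complex.exp (x * Complex.I)‖ < 1 := by
    rw [norm_mul, Complex.norm_exp_ofReal_mul_I, mul_one, Complex.norm_real, Real.norm_eq_abs]
    exact hr
  have h := Complex.hasSum_re (Complex.hasSum_taylorSeries_neg_log hz)
  have e1 : (fun k : ℕ => (((r : ℂ) * Complex.exp (x * Complex.I)) ^ k / k).re)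
      = fun k : ℕ => r ^ k * Real.cos (k * x) / k := by
    funext k
    rw [mul_pow, ← Complex.exp_nat_mul, ← mul_assoc, ← Complex.ofReal_natCast, ← Complex.ofReal_mul,
      ← Complex.ofReal_pow, Complex.div_ofReal_re, Complex.re_ofReal_mul,
      Complex.exp_ofReal_mul_I_re]
  have e2 : (-Complex.log (1 - (r : ℂ) * Complex.exp (x * Complex.I))).re = -Lr r x := by
    rw [Complex.neg_re, Complex.log_re, Lr]
    congr 1
    have : 1 - 2 * r * Real.cos x + r ^ 2 = ‖1 - (r : ℂ) * Complex.exp (x * Complex.I)‖ ^ 2 := by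
      rw [Complex.sq_norm, Complex.normSq_apply]
      simp only [Complex.sub_re, Complex.one_re, Complex.re_ofReal_mul, Complex.exp_ofReal_mul_I_re,
        Complex.sub_im, Complex.one_im, Complex.im_ofReal_mul, Complex.exp_ofReal_mul_I_im]
      nlinarith [Real.sin_sq_add_cos_sq x]
    rw [this, Real.log_pow]
    push_cast
    ring
  rwa [e1, e2] at h

theorem ENa_log {r : ℝ} (hr : |r| < 1) :
    HasSum (fun k : ℕ => r ^ k / k) (-Real.log (1 - r)) := by
  have h := hasSum_Lr hr 0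
  have e : Lr r 0 = Real.log (1 - r) := by
    rw [Lr, Real.cos_zero, show 1 - 2 * r * 1 + r ^ 2 = (1 - r) ^ 2 by ring, Real.log_pow]
    push_cast
    ring
  simpa [e] using h

theorem ENa_zz (b : ℝ) : 0 ≤ zz b ∧ zz b ≤ 1 := by
  rw [zz]
  constructor <;> linarith [Real.cos_le_one b, Real.neg_one_le_cos b]

/-- the quadratic form at frequency `k`. -/
noncomputable def ENa_X {n : ℕ} (a b : Fin n → ℝ) (k : ℕ) : ℝ :=
  (∑ i, Real.sin (k * a i)) ^ 2 / 2 + (∑ i, Real.cos (k * a i)) ^ 2 / 2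
    + (∑ i, Real.cos (k * a i) - ∑ j, zz (b j) ^ k) ^ 2 + 2 * (∑ j, Real.cos (k * b j)) ^ 2

theorem ENa_hasSum {n : ℕ} {r : ℝ} (h0 : 0 < r) (h1 : r < 1) (a b : Fin n → ℝ) :
    HasSum (fun k : ℕ => r ^ k * ENa_X a b k / k) (-Sr r a b) := by
  have hr : |r| < 1 := by rw [abs_of_pos h0]; exact h1
  have hz : ∀ j, |r * zz (b j)| < 1 := fun j => by
    obtain ⟨h2, h3⟩ := ENa_zz (b j)
    rw [abs_of_nonneg (by positivity)]
    nlinarith
  have hzz : ∀ i j, |r * zz (b i) * zz (b j)| < 1 := fun i j => by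
    obtain ⟨h2, h3⟩ := ENa_zz (b j)
    rw [abs_mul, abs_of_nonneg h2]
    nlinarith [hz i, abs_nonneg (r * zz (b i))]
  have h := hasSum_sum (s := (univ : Finset (Fin n))) fun i _ =>
    hasSum_sum (s := (univ : Finset (Fin n))) fun j _ =>
      (((((hasSum_Lr hr (a i - a j)).add ((hasSum_Lr hr (a i + a j)).mul_left (1 / 2))).add
        (hasSum_Lr hr (b i - b j))).add (hasSum_Lr hr (b i + b j))).add (ENa_log (hzz i j))).sub
        ((hasSum_Lr (hz j) (a i)).mul_left 2)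
  convert h using 1
  · rfl
  · funext k
    have e : ENa_X a b k = ∑ i, ∑ j, (Real.sin (k * a i) * Real.sin (k * a j) / 2
        + 3 / 2 * (Real.cos (k * a i) * Real.cos (k * a j))
        + zz (b i) ^ k * zz (b j) ^ k - 2 * (Real.cos (k * a i) * zz (b j) ^ k)
        + 2 * (Real.cos (k * b i) * Real.cos (k * b j))) := by
      simp only [sum_add_distrib, sum_sub_distrib, ← mul_sum, ← sum_div, ← sum_mul]
      rw [ENa_X]
      ring
    rw [e, mul_sum, sum_div]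
    refine sum_congr rfl fun i _ => ?_
    rw [mul_sum, sum_div]
    refine sum_congr rfl fun j _ => ?_
    simp only [mul_sub, mul_add, Real.cos_sub, Real.cos_add, mul_pow]
    ring
  · rw [Sr, ← sum_neg_distrib]
    refine sum_congr rfl fun i _ => ?_
    rw [← sum_neg_distrib]
    refine sum_congr rfl fun j _ => ?_
    ring

theorem ENa_X_nonneg {n : ℕ} (a b : Fin n → ℝ) (k : ℕ) : 0 ≤ ENa_X a b k := by
  rw [ENa_X]; positivity

theorem ENa_abs {n : ℕ} (f : Fin n → ℝ) (h : ∀ i, |f i| ≤ 1) : |∑ i, f i| ≤ n := by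
  refine (abs_sum_le_sum_abs _ _).trans ((sum_le_sum fun i _ => h i).trans ?_)
  simp

theorem ENa_X_le {n : ℕ} (a b : Fin n → ℝ) (k : ℕ) : ENa_X a b k ≤ 7 * (n : ℝ) ^ 2 := by
  have h1 := abs_le.1 (ENa_abs (fun i => Real.sin (k * a i)) fun i => Real.abs_sin_le_one _)
  have h2 := abs_le.1 (ENa_abs (fun i => Real.cos (k * a i)) fun i => Real.abs_cos_le_one _)
  have h3 := abs_le.1 (ENa_abs (fun i => Real.cos (k * b i)) fun i => Real.abs_cos_le_one _)
  have h4 := abs_le.1 (ENa_abs (fun i => zz (b i) ^ k) fun i => by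
    obtain ⟨h2, h3⟩ := ENa_zz (b i)
    rw [abs_of_nonneg (by positivity)]
    exact pow_le_one₀ h2 h3)
  have g1 := sq_le_sq' h1.1 h1.2
  have g2 := sq_le_sq' h2.1 h2.2
  have g3 := sq_le_sq' h3.1 h3.2
  have g4 : (∑ i, Real.cos (k * a i) - ∑ j, zz (b j) ^ k) ^ 2 ≤ (2 * n) ^ 2 :=
    sq_le_sq' (by linarith [h2.1, h4.2]) (by linarith [h2.2, h4.1])
  rw [ENa_X]
  nlinarith

theorem en_sos {n : ℕ} {r : ℝ} (h0 : 0 < r) (h1 : r < 1) (a b : Fin n → ℝ) (K : ℕ) (c a' e d : ℕ → ℝ) :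
    Sr r a b ≤ (n : ℝ) ^ 2 * (Qd K c a' e d + 7 * K * (1 - r))
      + n * ∑ i, v1 K c a' e (a i) + n * ∑ j, v2 K e d (b j) := by
  have h := sum_le_hasSum (Icc 1 K) (fun k _ => by
    have := ENa_X_nonneg a b k
    positivity) (ENa_hasSum h0 h1 a b)
  have e1 : (n : ℝ) ^ 2 * (Qd K c a' e d + 7 * K * (1 - r))
      + n * ∑ i, v1 K c a' e (a i) + n * ∑ j, v2 K e d (b j)
      = ∑ k ∈ Icc 1 K, ((n : ℝ) ^ 2 * ((c k ^ 2 / 2 + a' k ^ 2 / 2 + e k ^ 2 + 2 * d k ^ 2) / k)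
        + (n : ℝ) ^ 2 * (7 * (1 - r))
        - n * ((c k * ∑ i, Real.sin (k * a i) + (a' k + 2 * e k) * ∑ i, Real.cos (k * a i)) / k)
        + n * ((2 * e k * ∑ j, zz (b j) ^ k - 4 * d k * ∑ j, Real.cos (k * b j)) / k)) := by
    have f1 : ∑ i, v1 K c a' e (a i) = -∑ k ∈ Icc 1 K,
        (c k * ∑ i, Real.sin (k * a i) + (a' k + 2 * e k) * ∑ i, Real.cos (k * a i)) / k := by
      simp only [v1, sum_neg_distrib]
      rw [sum_comm]
      simp only [← sum_div, sum_add_distrib, ← mul_sum]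
    have f2 : ∑ j, v2 K e d (b j) = ∑ k ∈ Icc 1 K,
        (2 * e k * ∑ j, zz (b j) ^ k - 4 * d k * ∑ j, Real.cos (k * b j)) / k := by
      simp only [v2]
      rw [sum_comm]
      simp only [← sum_div, sum_sub_distrib, ← mul_sum]
    rw [f1, f2, Qd]
    simp only [sum_add_distrib, sum_sub_distrib, ← mul_sum, sum_const, Nat.card_Icc, nsmul_eq_mul,
      Nat.add_sub_cancel]
    ring
  rw [e1]
  refine le_trans (le_neg.1 h) ?_
  rw [← sum_neg_distrib]
  refine sum_le_sum fun k hk => ?_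
  have hk1 : (1 : ℝ) ≤ k := by exact_mod_cast (mem_Icc.1 hk).1
  have hk0 : (0 : ℝ) < k := by linarith
  have hb : 1 - r ^ k ≤ k * (1 - r) := by
    have := one_add_mul_le_pow (a := r - 1) (by linarith) k
    rw [show 1 + (r - 1) = r by ring] at this
    linarith
  have hX0 := ENa_X_nonneg a b k
  have hX1 := ENa_X_le a b k
  have h2 : (1 - r ^ k) * ENa_X a b k ≤ k * (1 - r) * (7 * (n : ℝ) ^ 2) :=
    mul_le_mul hb hX1 hX0 (by nlinarith)
  have h3 : -ENa_X a b k ≤ (n : ℝ) ^ 2 * (c k ^ 2 / 2 + a' k ^ 2 / 2 + e k ^ 2 + 2 * d k ^ 2)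
      - n * (c k * ∑ i, Real.sin (k * a i) + (a' k + 2 * e k) * ∑ i, Real.cos (k * a i))
      + n * (2 * e k * ∑ j, zz (b j) ^ k - 4 * d k * ∑ j, Real.cos (k * b j)) := by
    rw [ENa_X]
    generalize ∑ i, Real.sin (k * a i) = C
    generalize ∑ i, Real.cos (k * a i) = A
    generalize ∑ j, zz (b j) ^ k = B
    generalize ∑ j, Real.cos (k * b j) = D
    nlinarith [sq_nonneg (C - n * c k), sq_nonneg (A - n * a' k), sq_nonneg (A - B - n * e k),
      sq_nonneg (D - n * d k)]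
  rw [← sub_nonneg]
  have e3 : ∀ P Q R S T : ℝ, (n : ℝ) ^ 2 * (P / k) + S - n * (Q / k) + n * (R / k) - -(T / k)
      = ((n : ℝ) ^ 2 * P - n * Q + n * R + k * S + T) / k := fun P Q R S T => by
    field_simp
    ring
  rw [e3]
  refine div_nonneg ?_ hk0.le
  nlinarith

end Vale.Agent.P030
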