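import Vale.Agent.P030.Rows

namespace Vale.Agent.P030

open Polynomial Finset

theorem ww_abs_lt {a : ℝ} (h0 : 0 < a) (h1 : a < Real.pi) : |ww a| < 1 := by
  have hs := Real.sin_pos_of_pos_of_lt_pi h0 h1
  rw [ww, abs_div, abs_of_pos (by linarith : 0 < 1 + Real.sin a), div_lt_one (by linarith)]
  linarith [Real.abs_cos_le_one a]
theorem ww_ne_zero {a : ℝ} (h0 : 0 < a) (h1 : a < Real.pi) (hc : Real.cos a ≠ 0) : ww a ≠ 0 := by
  have hs := Real.sin_pos_of_pos_of_lt_pi h0 h1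
  exact div_ne_zero hc (by linarith)
theorem ww_pos_iff {a : ℝ} (h0 : 0 < a) (h1 : a < Real.pi) : 0 < ww a ↔ 0 < Real.cos a := by
  have hs := Real.sin_pos_of_pos_of_lt_pi h0 h1
  exact div_pos_iff_of_pos_right (by linarith)
theorem psi_one_add {a : ℝ} (h0 : 0 < a) (h1 : a < Real.pi) :
    1 + ww a ^ 2 = 2 / (1 + Real.sin a) := by
  have hs := Real.sin_pos_of_pos_of_lt_pi h0 h1
  have : 1 + Real.sin a ≠ 0 := by linarith
  rw [ww]
  field_simp
  linear_combination Real.sin_sq_add_cos_sq a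
theorem cos_eq_ww {a : ℝ} (h0 : 0 < a) (h1 : a < Real.pi) :
    Real.cos a = 2 * ww a / (1 + ww a ^ 2) := by
  have hs := Real.sin_pos_of_pos_of_lt_pi h0 h1
  have : 1 + Real.sin a ≠ 0 := by linarith
  rw [psi_one_add h0 h1, ww]
  field_simp
theorem sin_eq_ww {a : ℝ} (h0 : 0 < a) (h1 : a < Real.pi) :
    Real.sin a = (1 - ww a ^ 2) / (1 + ww a ^ 2) := by
  have hs := Real.sin_pos_of_pos_of_lt_pi h0 h1
  have : 1 + Real.sin a ≠ 0 := by linarith
  have e : 1 - ww a ^ 2 = 2 - (1 + ww a ^ 2) := by ring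
  rw [e, psi_one_add h0 h1]
  field_simp
  ring
theorem ww_inj {a b : ℝ} (h0 : 0 < a) (h1 : a < Real.pi) (h2 : 0 < b) (h3 : b < Real.pi)
    (h : ww a = ww b) : a = b := by
  refine Real.injOn_cos ⟨h0.le, h1.le⟩ ⟨h2.le, h3.le⟩ ?_
  rw [cos_eq_ww h0 h1, cos_eq_ww h2 h3, h]
theorem zz_mem {b : ℝ} (h0 : 0 < b) (h1 : b < Real.pi) : 0 < zz b ∧ zz b < 1 := by
  have hs := Real.sin_pos_of_pos_of_lt_pi h0 h1
  have h := Real.sin_sq_add_cos_sq b
  have h2 : |Real.cos b| < 1 := (sq_lt_one_iff_abs_lt_one _).1 (by nlinarith)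
  rw [abs_lt] at h2
  unfold zz
  constructor <;> linarith [h2.1, h2.2]
theorem ss_mem {b : ℝ} (h0 : 0 < b) (h1 : b < Real.pi) : 0 < ss b ∧ ss b < 1 := by
  obtain ⟨h2, h3⟩ := zz_mem h0 h1
  unfold ss
  refine ⟨by positivity, ?_⟩
  rw [div_lt_one (by positivity)]
  nlinarith [sq_pos_of_pos (sub_pos.2 h3)]
theorem ss_inj {a b : ℝ} (h0 : 0 < a) (h1 : a < Real.pi) (h2 : 0 < b) (h3 : b < Real.pi)
    (h : ss a = ss b) : a = b := by
  obtain ⟨a0, a1⟩ := zz_mem h0 h1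
  obtain ⟨b0, b1⟩ := zz_mem h2 h3
  unfold ss at h
  rw [div_eq_div_iff (by positivity) (by positivity)] at h
  have e : (zz a - zz b) * (1 - zz a * zz b) = 0 := by linear_combination h / 2
  have hne : 1 - zz a * zz b ≠ 0 := by nlinarith
  have := sub_eq_zero.1 ((mul_eq_zero.1 e).resolve_right hne)
  refine Real.injOn_cos ⟨h0.le, h1.le⟩ ⟨h2.le, h3.le⟩ ?_
  unfold zz at this
  linarith
theorem ss_surj {s : ℝ} (h0 : 0 < s) (h1 : s < 1) : ∃ b, 0 < b ∧ b < Real.pi ∧ ss b = s := by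
  have hf : 0 < 1 - s ^ 2 := by nlinarith
  set f := √(1 - s ^ 2) with hfd
  have f0 : 0 < f := Real.sqrt_pos.2 hf
  have ff : f ^ 2 = 1 - s ^ 2 := Real.sq_sqrt hf.le
  have z0 : 0 < s / (1 + f) := by positivity
  have z1 : s / (1 + f) < 1 := by rw [div_lt_one (by positivity)]; linarith
  refine ⟨Real.arccos (1 - 2 * (s / (1 + f))), Real.arccos_pos.2 (by linarith),
    Real.arccos_lt_pi.2 (by linarith), ?_⟩
  have e : zz (Real.arccos (1 - 2 * (s / (1 + f)))) = s / (1 + f) := by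
    rw [zz, Real.cos_arccos (by linarith) (by linarith)]; ring
  have e2 : 1 + (s / (1 + f)) ^ 2 = 2 / (1 + f) := by
    field_simp
    linear_combination ff
  rw [ss, e, e2]
  field_simp

theorem psi_al {t f w : ℝ} (h : f ^ 2 = 1 - t ^ 2) (h1 : 1 - f = t * w) (h2 : 1 + f = t * w⁻¹)
    {c : ℕ} {m : ℤ} (hm : m.natAbs ≤ c) :
    aeval t (al c m) = t ^ c * (w ^ m + w ^ (-m)) / 2 ∧
      f * aeval t (de c m) = t ^ c * (w ^ (-m) - w ^ m) / 2 := by
  have a1 := tau_ups_eval t f h m.natAbs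
  have a2 := tau_ups_eval t (-f) (by rw [neg_sq, h]) m.natAbs
  rw [h1, mul_pow] at a1
  rw [sub_neg_eq_add 1, h2, mul_pow] at a2
  have e : t ^ c = t ^ (c - m.natAbs) * t ^ m.natAbs := by rw [← pow_add, Nat.sub_add_cancel hm]
  simp only [al, de, map_mul, map_pow, aeval_X, aeval_C, e]
  obtain ⟨d, rfl | rfl⟩ := Int.eq_nat_or_neg m
  · simp only [Int.natAbs_natCast, zpow_neg, zpow_natCast, inv_pow] at *
    refine ⟨by linear_combination t ^ (c - d) / 2 * (a1 + a2), ?_⟩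
    rcases d with _ | d
    · simp
    · rw [Int.sign_eq_one_of_pos (by omega), map_one]
      linear_combination t ^ (c - (d + 1)) / 2 * (a2 - a1)
  · simp only [Int.natAbs_neg, Int.natAbs_natCast, zpow_neg, neg_neg, zpow_natCast, inv_pow] at *
    refine ⟨by linear_combination t ^ (c - d) / 2 * (a1 + a2), ?_⟩
    rcases d with _ | d
    · simp
    · rw [Int.sign_eq_neg_one_of_neg (by omega), map_neg, map_one]
      linear_combination t ^ (c - (d + 1)) / 2 * (a1 - a2)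

theorem psi_eq {N r : ℕ} (hN : 1 ≤ N) (hr : r < 36 * N) {a : ℝ} (h0 : 0 < a) (h1 : a < Real.pi)
    (hc : Real.cos a ≠ 0) :
    psi N r a = (if 0 < Real.cos a then -1 / 4 else -1 / 2) *
      ((1 - Real.cos a) ^ (2 * N) * Real.cos a ^ (47 * N) / ww a ^ (33 * N - 1)) *
      (ww a ^ (36 * N - 1 - r) + rho (ww a) * ww a ^ (30 * N - 1) * ww a ^ r) := by
  have hs := Real.sin_pos_of_pos_of_lt_pi h0 h1
  have hw := ww_ne_zero h0 h1 hc
  have hs' : 1 + Real.sin a ≠ 0 := by linarith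
  obtain ⟨b1, b2⟩ := psi_al (t := Real.cos a) (f := Real.sin a) (w := ww a) (c := 47 * N)
    (m := (r : ℤ) - 3 * N) (by linarith [Real.sin_sq_add_cos_sq a])
    (by rw [ww]; field_simp; linear_combination -Real.sin_sq_add_cos_sq a)
    (by rw [ww]; field_simp) (by omega)
  have e1 : ww a ^ (36 * N - 1 - r) = ww a ^ (33 * N - 1) * ww a ^ (-((r : ℤ) - 3 * N)) := by
    rw [← zpow_natCast, ← zpow_natCast, ← zpow_add₀ hw]; congr 1; omega
  have e2 : ww a ^ (30 * N - 1) * ww a ^ r = ww a ^ (33 * N - 1) * ww a ^ ((r : ℤ) - 3 * N) := by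
    rw [← zpow_natCast, ← zpow_natCast, ← zpow_natCast, ← zpow_add₀ hw, ← zpow_add₀ hw]
    congr 1; omega
  have hp : ww a ^ (33 * N - 1) ≠ 0 := pow_ne_zero _ hw
  rw [mul_assoc (rho _), e1, e2, psi, rho]
  simp only [ww_pos_iff h0 h1, rowA, rowD, map_mul, map_pow, map_sub, map_one, aeval_X, b1]
  generalize ww a ^ (33 * N - 1) = W at *
  split_ifs
  · have : (-1 / 4 * ((1 - Real.cos a) ^ (2 * N) * Real.cos a ^ (47 * N) / W) *
        (W * ww a ^ (-((r : ℤ) - 3 * N)) + -5 * (W * ww a ^ ((r : ℤ) - 3 * N)))) =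
        -1 / 4 * ((1 - Real.cos a) ^ (2 * N) * Real.cos a ^ (47 * N)) *
        (ww a ^ (-((r : ℤ) - 3 * N)) + -5 * ww a ^ ((r : ℤ) - 3 * N)) := by field_simp
    rw [this]
    linear_combination (-3 / 2 * (1 - Real.cos a) ^ (2 * N)) * b2
  · field_simp
    ring

theorem psi_det_le {N : ℕ} (hN : 1 ≤ N) (a : Fin (36 * N) → ℝ) (h0 : ∀ i, 0 < a i)
    (h1 : ∀ i, a i < Real.pi) (hc : ∀ i, Real.cos (a i) ≠ 0) :
    |(Matrix.of fun r i : Fin (36 * N) => psi N r (a i)).det|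
      ≤ (∏ i, (1 - Real.cos (a i)) ^ (2 * N) * |Real.cos (a i)| ^ (47 * N) / |ww (a i)| ^ (33 * N - 1))
        * |(Matrix.of fun r i : Fin (36 * N) => ww (a i) ^ (36 * N - 1 - r)
            + rho (ww (a i)) * ww (a i) ^ (30 * N - 1) * ww (a i) ^ (r : ℕ)).det| := by
  have e : (Matrix.of fun r i : Fin (36 * N) => psi N r (a i)) = Matrix.of fun r i =>
      ((if 0 < Real.cos (a i) then -1 / 4 else -1 / 2) *
        ((1 - Real.cos (a i)) ^ (2 * N) * Real.cos (a i) ^ (47 * N) / ww (a i) ^ (33 * N - 1))) *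
      (Matrix.of fun r i : Fin (36 * N) => ww (a i) ^ (36 * N - 1 - r)
            + rho (ww (a i)) * ww (a i) ^ (30 * N - 1) * ww (a i) ^ (r : ℕ)) r i := by
    ext r i
    exact psi_eq hN r.2 (h0 i) (h1 i) (hc i)
  rw [e, Matrix.det_mul_row, abs_mul, abs_prod]
  refine mul_le_mul_of_nonneg_right (prod_le_prod (fun i _ => abs_nonneg _) fun i _ => ?_)
    (abs_nonneg _)
  have h2 : 0 ≤ 1 - Real.cos (a i) := by linarith [Real.cos_le_one (a i)]
  rw [abs_mul, abs_div, abs_mul, abs_pow, abs_pow, abs_pow, abs_of_nonneg h2]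
  refine mul_le_of_le_one_left (by positivity) ?_
  split_ifs <;> rw [abs_le] <;> constructor <;> norm_num

end Vale.Agent.P030
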