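import Vale.Agent.P030.CD
import Vale.Agent.P030.PSI

namespace Vale.Agent.P030

open Finset

theorem ENb_L {r x : ℝ} (h0 : 0 < r) (hu : 0 < 1 - Real.cos x) :
    1 / 2 * Real.log (1 - Real.cos x) ≤ Lr r x - 1 / 2 * Real.log r - 1 / 2 * Real.log 2 := by
  have h : Real.log (2 * r * (1 - Real.cos x)) ≤ Real.log (1 - 2 * r * Real.cos x + r ^ 2) :=
    Real.log_le_log (by positivity) (by nlinarith [sq_nonneg (1 - r)])
  rw [Real.log_mul (by positivity) hu.ne', Real.log_mul two_ne_zero h0.ne'] at h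
  rw [Lr]
  linarith

theorem ENb_lower {r : ℝ} (h0 : 0 < r) (h1 : r < 1) (x : ℝ) : Real.log (1 - r) ≤ Lr r x := by
  have h : Real.log ((1 - r) ^ 2) ≤ Real.log (1 - 2 * r * Real.cos x + r ^ 2) :=
    Real.log_le_log (by have := sub_pos.2 h1; positivity) (by nlinarith [Real.cos_le_one x])
  rw [Real.log_pow] at h
  rw [Lr]
  push_cast at h
  linarith

theorem ENb_sq (a a' : ℝ) :
    (Real.cos a - Real.cos a') ^ 2 = (1 - Real.cos (a - a')) * (1 - Real.cos (a + a')) := by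
  rw [Real.cos_sub, Real.cos_add]
  have h1 := Real.sin_sq a
  have h2 := Real.sin_sq a'
  have : (1 - (Real.cos a * Real.cos a' + Real.sin a * Real.sin a'))
      * (1 - (Real.cos a * Real.cos a' - Real.sin a * Real.sin a'))
      = (1 - Real.cos a * Real.cos a') ^ 2 - Real.sin a ^ 2 * Real.sin a' ^ 2 := by ring
  rw [this, h1, h2]
  ring

theorem ENb_pos {a a' : ℝ} (h0 : 0 < a) (h1 : a < Real.pi) (h2 : 0 < a') (h3 : a' < Real.pi)
    (hne : a ≠ a') : Real.cos a - Real.cos a' ≠ 0 ∧ 0 < 1 - Real.cos (a - a')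
      ∧ 0 < 1 - Real.cos (a + a') := by
  have hc : Real.cos a - Real.cos a' ≠ 0 := fun h =>
    hne (Real.injOn_cos ⟨h0.le, h1.le⟩ ⟨h2.le, h3.le⟩ (sub_eq_zero.1 h))
  have h := pow_ne_zero 2 hc
  rw [ENb_sq] at h
  exact ⟨hc, lt_of_le_of_ne (sub_nonneg.2 (Real.cos_le_one _)) (left_ne_zero_of_mul h).symm,
    lt_of_le_of_ne (sub_nonneg.2 (Real.cos_le_one _)) (right_ne_zero_of_mul h).symm⟩

theorem ENb_log_abs (x : ℝ) : Real.log |x| = 1 / 2 * Real.log (x ^ 2) := by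
  rw [Real.log_pow, Real.log_abs]
  push_cast
  ring

theorem ENb_cos {r a a' : ℝ} (hr : 0 < r) (h0 : 0 < a) (h1 : a < Real.pi) (h2 : 0 < a')
    (h3 : a' < Real.pi) (hne : a ≠ a') :
    Real.log |Real.cos a - Real.cos a'|
      ≤ Lr r (a - a') + Lr r (a + a') - Real.log r - Real.log 2 := by
  obtain ⟨-, p1, p2⟩ := ENb_pos h0 h1 h2 h3 hne
  rw [ENb_log_abs, ENb_sq, Real.log_mul p1.ne' p2.ne']
  linarith [ENb_L hr p1, ENb_L hr p2]

theorem ENb_w {r a a' : ℝ} (hr : 0 < r) (h0 : 0 < a) (h1 : a < Real.pi) (h2 : 0 < a')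
    (h3 : a' < Real.pi) (hne : a ≠ a') :
    Real.log |ww a - ww a'| ≤ 1 / 2 * Real.log (1 + ww a ^ 2) + 1 / 2 * Real.log (1 + ww a' ^ 2)
      + Lr r (a - a') - 1 / 2 * Real.log r - Real.log 2 := by
  obtain ⟨-, p1, -⟩ := ENb_pos h0 h1 h2 h3 hne
  have q1 : 0 < 1 + ww a ^ 2 := by positivity
  have q2 : 0 < 1 + ww a' ^ 2 := by positivity
  have e : (ww a - ww a') ^ 2 = (1 + ww a ^ 2) * (1 + ww a' ^ 2) * (1 - Real.cos (a - a')) / 2 := by
    rw [Real.cos_sub, cos_eq_ww h0 h1, cos_eq_ww h2 h3, sin_eq_ww h0 h1, sin_eq_ww h2 h3]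
    field_simp
    ring
  rw [ENb_log_abs, e, Real.log_div (by positivity) two_ne_zero, Real.log_mul (by positivity) p1.ne',
    Real.log_mul q1.ne' q2.ne']
  linarith [ENb_L hr p1]

theorem ENb_s {r b b' : ℝ} (hr : 0 < r) (hr1 : r < 1) (h0 : 0 < b) (h1 : b < Real.pi) (h2 : 0 < b')
    (h3 : b' < Real.pi) (hne : b ≠ b') :
    Real.log |ss b - ss b'| ≤ Lr r (b - b') + Lr r (b + b') - Real.log r - Real.log 2
      + Real.log (1 - r * zz b * zz b') - Real.log (1 + zz b ^ 2) - Real.log (1 + zz b' ^ 2) := by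
  obtain ⟨p0, -, -⟩ := ENb_pos h0 h1 h2 h3 hne
  obtain ⟨z1, z2⟩ := zz_mem h0 h1
  obtain ⟨z3, z4⟩ := zz_mem h2 h3
  have q1 : 0 < 1 + zz b ^ 2 := by positivity
  have q2 : 0 < 1 + zz b' ^ 2 := by positivity
  have q4 : 0 < zz b * zz b' := by positivity
  have q3 : 0 < 1 - zz b * zz b' := by nlinarith
  have e0 : Real.cos b - Real.cos b' = -(2 * (zz b - zz b')) := by rw [zz, zz]; ring
  have e : ss b - ss b' = -(Real.cos b - Real.cos b') * (1 - zz b * zz b')
      / ((1 + zz b ^ 2) * (1 + zz b' ^ 2)) := by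
    rw [e0, ss, ss]
    field_simp
    ring
  have h4 := ENb_cos hr h0 h1 h2 h3 hne
  rw [Real.log_abs] at h4
  have h5 : Real.log (1 - zz b * zz b') ≤ Real.log (1 - r * zz b * zz b') :=
    Real.log_le_log q3 (by nlinarith)
  rw [Real.log_abs, e, Real.log_div (mul_ne_zero (neg_ne_zero.2 p0) q3.ne') (by positivity),
    Real.log_mul (neg_ne_zero.2 p0) q3.ne', Real.log_mul q1.ne' q2.ne', Real.log_neg_eq_log]
  linarith

theorem ENb_cross {r δ a b : ℝ} (hr : 0 < r) (hr1 : r < 1) (hδ : 0 < δ) (h0 : 0 < a)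
    (h1 : a < Real.pi) (h2 : 0 < b) (h3 : b < Real.pi) :
    -Real.log (1 - Real.cos a * ss b) ≤ -2 * Lr (r * zz b) a + Real.log (1 + zz b ^ 2)
      + 2 * (1 - r) / δ + if 1 - δ < zz b then Real.log (8 / (1 - Real.cos a)) else 0 := by
  obtain ⟨z1, z2⟩ := zz_mem h2 h3
  have t1 : Real.cos a < 1 := by
    have := Real.cos_lt_cos_of_nonneg_of_le_pi le_rfl h1.le h0
    rwa [Real.cos_zero] at this
  have t0 := Real.neg_one_le_cos a
  have e : 1 - Real.cos a * ss b = (1 - 2 * zz b * Real.cos a + zz b ^ 2) / (1 + zz b ^ 2) := by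
    rw [ss]
    field_simp
    ring
  rw [e, Lr]
  generalize zz b = z at *
  generalize Real.cos a = t at *
  have hP : (1 - t) / 2 ≤ 1 - 2 * z * t + z ^ 2 := by
    rcases le_total t 0 with h | h
    · nlinarith
    · nlinarith [sq_nonneg (z - t)]
  have hP0 : 0 < 1 - 2 * z * t + z ^ 2 := by linarith
  have hrz : r * z < 1 := by nlinarith
  have hrz0 : 0 < r * z := by positivity
  have hQ0 : 0 < 1 - 2 * (r * z) * t + (r * z) ^ 2 := by nlinarith
  have hu : 0 ≤ (1 - r) / δ := div_nonneg (by linarith) hδ.le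
  rw [Real.log_div hP0.ne' (by positivity), mul_div_assoc]
  split_ifs with h
  · have h4 : Real.log (1 - 2 * (r * z) * t + (r * z) ^ 2)
        ≤ Real.log ((1 - 2 * z * t + z ^ 2) * (8 / (1 - t))) := by
      refine Real.log_le_log hQ0 ?_
      rw [← mul_div_assoc, le_div_iff₀ (by linarith)]
      have : 1 - 2 * (r * z) * t + (r * z) ^ 2 ≤ 4 := by nlinarith
      nlinarith
    rw [Real.log_mul hP0.ne' (div_pos (by norm_num) (by linarith)).ne'] at h4
    linarith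
  · have hz : δ ≤ 1 - z := by linarith [not_lt.1 h]
    obtain ⟨m, hm0, hm⟩ : ∃ m : ℝ, 0 ≤ m ∧ m ^ 2 = 1 - 2 * z * t + z ^ 2 :=
      ⟨_, Real.sqrt_nonneg _, Real.sq_sqrt hP0.le⟩
    have m1 : δ ≤ m := hz.trans (le_of_sq_le_sq (by nlinarith) hm0)
    have m2 : t - z ≤ m := le_of_sq_le_sq (by nlinarith) hm0
    have hru : 1 - r = (1 - r) / δ * δ := by field_simp
    generalize (1 - r) / δ = u at *
    have m3 : (1 - r) * z ≤ u * m := by
      calc _ ≤ 1 - r := mul_le_of_le_one_right (by linarith) z2.le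
        _ ≤ _ := by rw [hru]; exact mul_le_mul_of_nonneg_left m1 hu
    have m4 : 0 ≤ (1 - r) * z := mul_nonneg (by linarith) z1.le
    have h4 : Real.log (1 - 2 * (r * z) * t + (r * z) ^ 2)
        ≤ Real.log ((1 - 2 * z * t + z ^ 2) * (1 + u) ^ 2) := by
      refine Real.log_le_log hQ0 ?_
      have e1 : 1 - 2 * (r * z) * t + (r * z) ^ 2
          = m ^ 2 + 2 * ((1 - r) * z) * (t - z) + ((1 - r) * z) ^ 2 := by rw [hm]; ring
      rw [e1, ← hm]
      have g1 : (1 - r) * z * (t - z) ≤ u * m * m :=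
        (mul_le_mul_of_nonneg_left m2 m4).trans (mul_le_mul_of_nonneg_right m3 hm0)
      have g2 : ((1 - r) * z) ^ 2 ≤ (u * m) ^ 2 := pow_le_pow_left₀ m4 m3 2
      nlinarith
    rw [Real.log_mul hP0.ne' (by positivity), Real.log_pow] at h4
    have h5 := Real.log_le_sub_one_of_pos (show 0 < 1 + u by linarith)
    push_cast at h4
    linarith

theorem en_cmp {n : ℕ} {r δ : ℝ} (h0 : 0 < r) (h1 : r < 1) (hδ : 0 < δ) (a b : Fin n → ℝ)
    (ha0 : ∀ i, 0 < a i) (ha1 : ∀ i, a i < Real.pi) (hb0 : ∀ i, 0 < b i) (hb1 : ∀ i, b i < Real.pi)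
    (ha : Function.Injective a) (hb : Function.Injective b) :
    Lam a b ≤ Sr r a b + (n : ℝ) ^ 2 * (-2 * Real.log 2 - 2 * Real.log r + 2 * (1 - r) / δ)
      + n * (4 * Real.log 2 - 5 * Real.log (1 - r))
      + n * ∑ i, 1 / 2 * Real.log (1 + ww (a i) ^ 2) - n * ∑ j, Real.log (1 + zz (b j) ^ 2)
      + ((univ.filter fun j => 1 - δ < zz (b j)).card : ℝ)
        * ∑ i, Real.log (8 / (1 - Real.cos (a i))) := by
  have i1 : Function.Injective fun i => ww (a i) := fun i j h =>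
    ha (ww_inj (ha0 i) (ha1 i) (ha0 j) (ha1 j) h)
  have i2 : Function.Injective fun i => Real.cos (a i) := fun i j h =>
    ha (Real.injOn_cos ⟨(ha0 i).le, (ha1 i).le⟩ ⟨(ha0 j).le, (ha1 j).le⟩ h)
  have i3 : Function.Injective fun i => ss (b i) := fun i j h =>
    hb (ss_inj (hb0 i) (hb1 i) (hb0 j) (hb1 j) h)
  have v1 := log_vdm i1
  have v2 := log_vdm i2
  have v3 := log_vdm i3
  have lr : Real.log r ≤ 0 := Real.log_nonpos h0.le h1.le
  have lr1 : Real.log (1 - r) ≤ 0 := Real.log_nonpos (by linarith) (by linarith)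
  set H : Fin n → Fin n → ℝ := fun i j => Lr r (a i - a j) + 1 / 2 * Lr r (a i + a j)
    + Lr r (b i - b j) + Lr r (b i + b j) + Real.log (1 - r * zz (b i) * zz (b j))
    + (-2 * Real.log 2 - 2 * Real.log r)
    + 1 / 2 * (1 / 2 * Real.log (1 + ww (a i) ^ 2)) + 1 / 2 * (1 / 2 * Real.log (1 + ww (a j) ^ 2))
    - Real.log (1 + zz (b i) ^ 2) - Real.log (1 + zz (b j) ^ 2) with hH
  have hd : ∀ i, -H i i ≤ 4 * Real.log 2 - 5 * Real.log (1 - r) := fun i => by
    obtain ⟨z1, z2⟩ := zz_mem (hb0 i) (hb1 i)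
    have g1 : 0 ≤ Real.log (1 + ww (a i) ^ 2) := Real.log_nonneg (by nlinarith)
    have g2 : Real.log (1 + zz (b i) ^ 2) ≤ Real.log 2 :=
      Real.log_le_log (by positivity) (by nlinarith)
    have g3 : Real.log (1 - r) ≤ Real.log (1 - r * zz (b i) * zz (b i)) :=
      Real.log_le_log (by linarith) (by nlinarith [mul_pos z1 z1, mul_lt_mul'' z2 z2 z1.le z1.le])
    simp only [hH]
    linarith [ENb_lower h0 h1 (a i - a i), ENb_lower h0 h1 (a i + a i), ENb_lower h0 h1 (b i - b i),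
      ENb_lower h0 h1 (b i + b i)]
  have k1 : ∑ i, ∑ j ∈ univ.erase i, (1 / 2 * Real.log |ww (a i) - ww (a j)|
      + 1 / 2 * Real.log |Real.cos (a i) - Real.cos (a j)| + Real.log |ss (b i) - ss (b j)|)
      ≤ ∑ i, (∑ j, H i j + (4 * Real.log 2 - 5 * Real.log (1 - r))) := by
    refine sum_le_sum fun i _ => ?_
    rw [← add_sum_erase univ (H i) (mem_univ i)]
    have : ∑ j ∈ univ.erase i, (1 / 2 * Real.log |ww (a i) - ww (a j)|
        + 1 / 2 * Real.log |Real.cos (a i) - Real.cos (a j)| + Real.log |ss (b i) - ss (b j)|)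
        ≤ ∑ j ∈ univ.erase i, H i j := sum_le_sum fun j hj => by
      have hne : i ≠ j := (ne_of_mem_erase hj).symm
      simp only [hH]
      linarith [ENb_w h0 (ha0 i) (ha1 i) (ha0 j) (ha1 j) (ha.ne hne),
        ENb_cos h0 (ha0 i) (ha1 i) (ha0 j) (ha1 j) (ha.ne hne),
        ENb_s h0 h1 (hb0 i) (hb1 i) (hb0 j) (hb1 j) (hb.ne hne)]
    linarith [hd i]
  have k2 : ∑ i, ∑ j, -Real.log (1 - Real.cos (a i) * ss (b j))
      ≤ ∑ i, ∑ j, (-2 * Lr (r * zz (b j)) (a i) + Real.log (1 + zz (b j) ^ 2) + 2 * (1 - r) / δ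
        + if 1 - δ < zz (b j) then Real.log (8 / (1 - Real.cos (a i))) else 0) :=
    sum_le_sum fun i _ => sum_le_sum fun j _ =>
      ENb_cross h0 h1 hδ (ha0 i) (ha1 i) (hb0 j) (hb1 j)
  have e3 : ∑ i, ∑ j, (if 1 - δ < zz (b j) then Real.log (8 / (1 - Real.cos (a i))) else 0)
      = ((univ.filter fun j => 1 - δ < zz (b j)).card : ℝ)
        * ∑ i, Real.log (8 / (1 - Real.cos (a i))) := by
    rw [mul_sum]
    refine sum_congr rfl fun i _ => ?_
    rw [← sum_filter, sum_const, nsmul_eq_mul]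
  rw [Lam, Sr, ← e3]
  simp only [hH, sum_add_distrib, sum_sub_distrib, sum_neg_distrib, ← mul_sum, sum_const,
    card_univ, Fintype.card_fin, nsmul_eq_mul] at k1 k2 ⊢
  nlinarith

end Vale.Agent.P030
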