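import Vale.Agent.P030.FRa

namespace Vale.Agent.P030

open Polynomial Finset

variable {p : ℕ} [Fact p.Prime]

theorem FRz_sum (e i : ℕ) :
    pn p ((p : ℚ) ^ (e + 1) * ∑ k ∈ range i, 1 / ((k : ℚ) + 1) ^ (e + 1) -
      ∑ k ∈ range (i / p), 1 / ((k : ℚ) + 1) ^ (e + 1)) ≤ 1 / p := by
  induction i with
  | zero => simpa using FRa_sm_zero
  | succ i ih =>
    rw [sum_range_succ, mul_add, Nat.succ_div]
    split_ifs with h
    · have h1 : i + 1 = p * (i / p + 1) := by
        rw [← Nat.succ_div_of_dvd h, Nat.mul_div_cancel' h]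
      have h2 : (i : ℚ) + 1 = p * ((i / p : ℕ) + 1) := by exact_mod_cast h1
      have := FRa_pne (p := p)
      rw [sum_range_succ, add_sub_add_comm, h2, mul_pow,
        show ∀ x : ℚ, (p : ℚ) ^ (e + 1) * (1 / (p ^ (e + 1) * x)) - 1 / x = 0 from fun x => by
          rw [one_div, mul_inv, ← mul_assoc, mul_inv_cancel₀ (pow_ne_zero _ this)]; simp, add_zero]
      exact ih
    · rw [add_zero, add_sub_right_comm, pow_succ' (p : ℚ), mul_assoc _ _ (1 / _), ← pow_succ']
      refine pn_add_le ih (FRa_p_mul (FRa_mul (by simpa using pn_nat (p := p) (p ^ e))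
        (FRa_inv ?_)))
      have := pn_nat_of_not_dvd h
      push_cast at this
      rw [pn_pow, this, one_pow]

theorem FRz_harm (i : ℕ) : pn p (p * harmonic i - harmonic (i / p)) ≤ 1 / p := by
  simpa [harmonic] using FRz_sum (p := p) 0 i

theorem FRz_harm0 {i : ℕ} (hi : i < p) : pn p (harmonic i) ≤ 1 :=
  pn_sum_le _ _ zero_le_one fun k hk => by
    have := mem_range.1 hk
    simpa using FRa_inv0 (p := p) (k := k + 1) (by omega)

theorem FRz_unit {i j : ℕ} (h : i % p ≠ j % p) : pn p ((i : ℚ) - j) = 1 := by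
  simpa using pn_int_of_not_dvd (p := p) (z := (i : ℤ) - j)
    fun k => h ((Nat.modEq_iff_dvd).2 k).symm

theorem fr_Z0 {i j : ℕ} (hi : i < p ^ 2) (hj : j < p ^ 2) :
    pn p ((p : ℚ) ^ 2 * Z0 i j - (if i % p = j % p then Z0 (i / p) (j / p) else 0)) ≤ 1 / p := by
  have ha : i / p < p := Nat.div_lt_of_lt_mul (by rwa [← sq])
  have hb : j / p < p := Nat.div_lt_of_lt_mul (by rwa [← sq])
  have h3 := pn_sub_le (FRz_harm (p := p) i) (FRz_harm j)
  rcases eq_or_ne i j with rfl | hij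
  · rw [if_pos rfl, Z0, Z0, if_pos rfl, if_pos rfl, mul_neg, neg_sub_neg, ← neg_sub, pn_neg]
    exact FRz_sum 1 i
  rw [Z0, if_neg hij]
  split_ifs with h
  · have h1 := Nat.div_add_mod i p
    have h2 := Nat.div_add_mod j p
    have hne : i / p ≠ j / p := fun k => by rw [k] at h1; omega
    have hu := FRz_unit (p := p) (i := i / p) (j := j / p)
      (by rwa [Nat.mod_eq_of_lt ha, Nat.mod_eq_of_lt hb])
    have e1 : (p : ℚ) * (i / p : ℕ) + (i % p : ℕ) = i := by exact_mod_cast h1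
    have e2 : (p : ℚ) * (j / p : ℕ) + (i % p : ℕ) = j := by rw [h]; exact_mod_cast h2
    have e : (i : ℚ) - j = p * (((i / p : ℕ) : ℚ) - (j / p : ℕ)) := by linear_combination e2 - e1
    have h0 : ((i / p : ℕ) : ℚ) - (j / p : ℕ) ≠ 0 := sub_ne_zero.2 (by exact_mod_cast hne)
    have := FRa_pne (p := p)
    rw [Z0, if_neg hne, e]
    convert FRa_mul_sm h3 (FRa_inv hu) using 2
    field_simp
    ring
  · rw [sub_zero, sq, mul_assoc, ← mul_div_assoc, div_eq_mul_one_div, mul_sub]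
    exact FRa_p_mul (FRa_mul (pn_sub_le (FRa_cg_in (FRz_harm i) (FRz_harm0 ha))
      (FRa_cg_in (FRz_harm j) (FRz_harm0 hb))) (FRa_inv (FRz_unit h)))

theorem fr_Z0_one {R i j : ℕ} (hR : R ≤ j) (hj : j < p) (hi : i < p + R) :
    pn p ((p : ℚ) * Z0 i j
      - ∑ l ∈ range R, (if i = p + l then 1 else 0 : ℚ) / ((l : ℚ) - j)) ≤ 1 / p := by
  rcases lt_or_ge i p with h | h
  · rw [sum_eq_zero fun l _ => by rw [if_neg (by omega), zero_div], sub_zero]
    refine FRa_p_mul ?_
    simpa [Nat.log_of_lt (max_lt h hj)] using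
      pn_Z0 (p := p) (le_max_left i j) (le_max_right i j)
  obtain ⟨l, rfl⟩ := Nat.exists_eq_add_of_le h
  have hl : l < j := by omega
  rw [sum_eq_single_of_mem l (mem_range.2 (by omega)) fun k _ hk => by
    rw [if_neg (by omega), zero_div], if_pos rfl, Z0, if_neg (by omega)]
  have h1 := FRz_harm (p := p) (p + l)
  have h2 := FRz_harm (p := p) j
  rw [Nat.add_div_left _ (by omega), Nat.div_eq_of_lt (by omega)] at h1
  rw [Nat.div_eq_of_lt hj] at h2
  have hne : l % p ≠ j % p := by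
    rw [Nat.mod_eq_of_lt hj, Nat.mod_eq_of_lt (by omega)]; omega
  have u1 := FRz_unit hne
  have u2 := FRz_unit (p := p) (i := p + l) (j := j) (by rwa [Nat.add_mod_left])
  have n1 : (l : ℚ) - j ≠ 0 := sub_ne_zero.2 (by exact_mod_cast hl.ne)
  have n2 : ((p + l : ℕ) : ℚ) - j ≠ 0 := sub_ne_zero.2 (by exact_mod_cast (by omega : p + l ≠ j))
  convert pn_sub_le (FRa_mul_sm (pn_sub_le h1 h2) (FRa_inv u2))
    (FRa_p_mul (FRa_mul (FRa_inv u1) (FRa_inv u2))) using 2
  simp only [harmonic_zero, zero_add, harmonic_succ]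
  field_simp
  push_cast
  ring

end Vale.Agent.P030
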