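import Vale.Agent.P030.Defs

namespace Vale.Agent.P030

open Polynomial Finset

theorem Rows_tau_succ (d : ℕ) : tau (d + 2) = 2 * tau (d + 1) - X ^ 2 * tau d := by rw [tau]
theorem Rows_ups_succ (d : ℕ) : ups (d + 2) = 2 * ups (d + 1) - X ^ 2 * ups d := by rw [ups]

theorem Rows_coeff_rec (p q : ℤ[X]) (i : ℕ) :
    (2 * p - X ^ 2 * q).coeff i = 2 * p.coeff i - if 2 ≤ i then q.coeff (i - 2) else 0 := by
  rw [coeff_sub, coeff_X_pow_mul', show (2 : ℤ[X]) = C 2 from rfl, coeff_C_mul]

theorem tau_ups_eval {R : Type*} [CommRing R] (t f : R) (h : f ^ 2 = 1 - t ^ 2) (d : ℕ) :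
    aeval t (tau d) - f * aeval t (ups d) = (1 - f) ^ d := by
  induction d using Nat.twoStepInduction with
  | zero => simp [tau, ups]
  | one => simp [tau, ups]
  | more d h1 h2 =>
    rw [Rows_tau_succ, Rows_ups_succ]
    simp only [map_sub, map_mul, map_pow, aeval_X, map_ofNat]
    have ht : t ^ 2 = 1 - f ^ 2 := by rw [h]; ring
    linear_combination 2 * h2 - t ^ 2 * h1 - (1 - f) ^ d * ht

theorem Rows_step (d : ℕ) : tau (d + 1) = tau d + (1 - X ^ 2) * ups d ∧
    ups (d + 1) = tau d + ups d := by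
  induction d with
  | zero => simp [tau, ups]
  | succ d ih =>
    rw [Rows_tau_succ, Rows_ups_succ, ih.1, ih.2]
    constructor <;> ring

theorem tau_sq (d : ℕ) : tau d ^ 2 - (1 - X ^ 2) * ups d ^ 2 = X ^ (2 * d) := by
  induction d with
  | zero => simp [tau, ups]
  | succ d ih =>
    rw [(Rows_step d).1, (Rows_step d).2]
    linear_combination X ^ 2 * ih

theorem tau_coeff_eq_zero {d i : ℕ} (h : d < i) : (tau d).coeff i = 0 := by
  induction d using Nat.twoStepInduction generalizing i with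
  | zero => simp [tau, coeff_one]; omega
  | one => simp [tau, coeff_one]; omega
  | more d h1 h2 =>
    rw [Rows_tau_succ, Rows_coeff_rec, h2 (by omega), if_pos (by omega), h1 (by omega)]; simp

theorem ups_coeff_eq_zero {d i : ℕ} (h : d ≤ i) : (ups d).coeff i = 0 := by
  induction d using Nat.twoStepInduction generalizing i with
  | zero => simp [ups]
  | one => simp [ups, coeff_one]; omega
  | more d h1 h2 =>
    rw [Rows_ups_succ, Rows_coeff_rec, h2 (by omega), if_pos (by omega), h1 (by omega)]; simp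

theorem tau_coeff_zero (d : ℕ) : (tau (d + 1)).coeff 0 = 2 ^ d := by
  induction d with
  | zero => simp [tau]
  | succ d ih => rw [Rows_tau_succ, Rows_coeff_rec, ih]; simp; ring

theorem ups_coeff_zero (d : ℕ) : (ups (d + 1)).coeff 0 = 2 ^ d := by
  induction d with
  | zero => simp [ups]
  | succ d ih => rw [Rows_ups_succ, Rows_coeff_rec, ih]; simp; ring

theorem Rows_dvd_two_mul {e : ℕ} {x : ℤ} (h : (2 : ℤ) ^ (e - 1) ∣ x) : (2 : ℤ) ^ e ∣ 2 * x := by
  rcases e with _ | e
  · simp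
  · rw [pow_succ']; exact mul_dvd_mul_left 2 h

theorem tau_dvd (d i : ℕ) : (2 : ℤ) ^ (d - i) ∣ 2 * (tau d).coeff i := by
  induction d using Nat.twoStepInduction generalizing i with
  | zero => simp
  | one => apply Rows_dvd_two_mul; rw [show 1 - i - 1 = 0 by omega]; simp
  | more d h1 h2 =>
    rw [Rows_tau_succ, Rows_coeff_rec, mul_sub]
    apply dvd_sub
    · apply Rows_dvd_two_mul
      rw [show d + 2 - i - 1 = d + 1 - i by omega]; exact h2 i
    · split_ifs with hi
      · rw [show d + 2 - i = d - (i - 2) by omega]; exact h1 _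
      · simp

theorem ups_dvd (d i : ℕ) : (2 : ℤ) ^ (d - 1 - i) ∣ (ups d).coeff i := by
  induction d using Nat.twoStepInduction generalizing i with
  | zero => simp
  | one => simp
  | more d h1 h2 =>
    rw [Rows_ups_succ, Rows_coeff_rec]
    apply dvd_sub
    · apply Rows_dvd_two_mul
      rw [show d + 2 - 1 - i - 1 = d + 1 - 1 - i by omega]; exact h2 i
    · split_ifs with hi
      · rcases d with _ | d
        · simp [ups]
        · rw [show d + 1 + 2 - 1 - i = d + 1 - 1 - (i - 2) by omega]; exact h1 _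
      · simp

theorem Rows_al_coeff (c : ℕ) (m : ℤ) (i : ℕ) : (al c m).coeff i =
    if c - m.natAbs ≤ i then (tau m.natAbs).coeff (i - (c - m.natAbs)) else 0 := by
  rw [al, coeff_X_pow_mul']

theorem Rows_de_coeff (c : ℕ) (m : ℤ) (i : ℕ) : (de c m).coeff i =
    m.sign * if c - m.natAbs ≤ i then (ups m.natAbs).coeff (i - (c - m.natAbs)) else 0 := by
  rw [de, mul_assoc, coeff_C_mul, coeff_X_pow_mul']

theorem al_coeff_eq_zero {c i : ℕ} {m : ℤ} (hm : m.natAbs ≤ c) (h : c < i) :
    (al c m).coeff i = 0 := by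
  rw [Rows_al_coeff, if_pos (by omega), tau_coeff_eq_zero (by omega)]

theorem de_coeff_eq_zero {c i : ℕ} {m : ℤ} (hm : m.natAbs ≤ c) (h : c ≤ i) :
    (de c m).coeff i = 0 := by
  rw [Rows_de_coeff, if_pos (by omega), ups_coeff_eq_zero (by omega), mul_zero]

theorem al_dvd {c : ℕ} {m : ℤ} (hm : m.natAbs ≤ c) (i : ℕ) :
    (2 : ℤ) ^ (c - i) ∣ 2 * (al c m).coeff i := by
  rw [Rows_al_coeff]
  split_ifs with h
  · rw [show c - i = m.natAbs - (i - (c - m.natAbs)) by omega]; exact tau_dvd _ _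
  · simp

theorem de_dvd {c : ℕ} {m : ℤ} (hm : m.natAbs ≤ c) (i : ℕ) :
    (2 : ℤ) ^ (c - 1 - i) ∣ (de c m).coeff i := by
  rw [Rows_de_coeff]
  split_ifs with h
  · rw [show c - 1 - i = m.natAbs - 1 - (i - (c - m.natAbs)) by omega]
    exact Dvd.dvd.mul_left (ups_dvd _ _) _
  · simp

theorem Rows_pow_coeff {n a : ℕ} (h : n < a) : ((1 - X : ℤ[X]) ^ n).coeff a = 0 := by
  apply coeff_eq_zero_of_natDegree_lt
  have h1 : (1 - X : ℤ[X]).natDegree ≤ 1 := by compute_degree
  exact lt_of_le_of_lt (natDegree_pow_le.trans (by nlinarith)) h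

theorem Rows_mul_high {n c i : ℕ} {q : ℤ[X]} (hq : ∀ b, c ≤ b → q.coeff b = 0) (h : n + c ≤ i) :
    ((1 - X) ^ n * q).coeff i = 0 := by
  rw [coeff_mul]
  apply Finset.sum_eq_zero
  intro x hx
  have : x.1 + x.2 = i := by simpa using hx
  by_cases h1 : n < x.1
  · rw [Rows_pow_coeff h1, zero_mul]
  · rw [hq _ (by omega), mul_zero]

theorem rowA_high {N r i : ℕ} (hr : r ≤ 36 * N) (h : 49 * N < i) : (rowA N r).coeff i = 0 :=
  Rows_mul_high (c := 47 * N + 1) (fun b hb => al_coeff_eq_zero (by omega) (by omega)) (by omega)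

theorem rowD_high {N r i : ℕ} (hr : r ≤ 36 * N) (h : 49 * N ≤ i) : (rowD N r).coeff i = 0 :=
  Rows_mul_high (c := 47 * N) (fun b hb => de_coeff_eq_zero (by omega) (by omega)) (by omega)

theorem rowA_low {N r i : ℕ} (hr : r < 36 * N) (h : i ≤ 14 * N) : (rowA N r).coeff i = 0 := by
  rw [rowA, al, mul_left_comm, coeff_X_pow_mul', if_neg (by omega)]

theorem rowD_low {N r i : ℕ} (hr : r < 36 * N) (h : i ≤ 14 * N) : (rowD N r).coeff i = 0 := by
  rw [rowD, de, mul_comm (C _), mul_assoc, mul_left_comm, coeff_X_pow_mul', if_neg (by omega)]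

theorem col_low {N k j : ℕ} (h : j < 6 * N + k) : (col N k).coeff j = 0 := by
  rw [col, coeff_X_pow_mul', if_neg (by omega)]

theorem col_high {N k j : ℕ} (h : 8 * N + k < j) : (col N k).coeff j = 0 := by
  rw [col, coeff_X_pow_mul', if_pos (by omega), Rows_pow_coeff (by omega)]

end Vale.Agent.P030
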