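import Vale.Agent.P030.FRd
import Vale.Agent.P030.FRz
import Vale.Agent.P030.Rows

namespace Vale.Agent.P030

open Polynomial Finset

variable {p : ℕ} [Fact p.Prime]

theorem ent_pn32 (hp : p ≠ 2) : pn p (3 / 2) ≤ 1 := by
  have h2 : pn p ((2 : ℕ) : ℚ) = 1 := pn_nat_of_not_dvd (fun h =>
    hp ((Nat.prime_dvd_prime_iff_eq Fact.out Nat.prime_two).1 h))
  have h3 : pn p ((3 : ℕ) : ℚ) ≤ 1 := pn_nat 3
  rw [pn_div]
  push_cast at h2 h3
  rw [h2, div_one]; exact h3

theorem ent_pn4 : pn p 4 ≤ 1 := by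
  have h : pn p ((4 : ℕ) : ℚ) ≤ 1 := pn_nat 4
  exact_mod_cast h

theorem ent_pn2 : pn p 2 ≤ 1 := by
  have h : pn p ((2 : ℕ) : ℚ) ≤ 1 := pn_nat 2
  exact_mod_cast h

theorem ent_mul1 {x y : ℚ} {c : ℝ} (hx : pn p x ≤ 1) (hy : pn p y ≤ c) : pn p (x * y) ≤ c := by
  simpa using pn_mul_le hx hy

theorem ent_mul2 {x y : ℚ} {c : ℝ} (hx : pn p x ≤ c) (hy : pn p y ≤ 1) : pn p (x * y) ≤ c := by
  simpa using pn_mul_le hx hy

theorem ent_bound (hp : p ≠ 2) {G : ℚ} {N r j : ℕ} {c : ℝ} (hG : pn p G ≤ c)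
    (hM : ∀ i ≤ 49 * N, pn p (M0 i j) ≤ c) (hZ : ∀ i ≤ 49 * N, pn p (Z0 i j) ≤ c) :
    pn p (ent G N r j) ≤ c := by
  have hc : 0 ≤ c := (pn_nonneg G).trans hG
  unfold ent
  refine pn_sub_le (pn_sum_le _ _ hc fun i hi => ?_)
    (ent_mul1 (ent_pn32 hp) (pn_sum_le _ _ hc fun i hi => ?_))
  · exact ent_mul1 (pn_int _) (pn_add_le (hM i (Nat.lt_succ_iff.1 (mem_range.1 hi)))
      (ent_mul2 (ent_mul1 ent_pn4 hG) (pn_cG hp _ _)))
  · exact ent_mul1 (pn_int _) (hZ i (Nat.lt_succ_iff.1 (mem_range.1 hi)))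

theorem ent_crude (hp : p ≠ 2) (G : ℚ) {N r j : ℕ} (hN : 1 ≤ N) (hj : j < 44 * N) :
    pn p (ent G N r j) ≤ (49 * (N : ℝ)) ^ 2 * G.den := by
  have hd : (1 : ℝ) ≤ G.den := by exact_mod_cast G.den_pos
  have hN' : (1 : ℝ) ≤ N := by exact_mod_cast hN
  have h1 : (1 : ℝ) ≤ (49 * (N : ℝ)) ^ 2 := by nlinarith
  have h2 : (p : ℝ) ^ (2 * Nat.log p (49 * N)) ≤ (49 * (N : ℝ)) ^ 2 * G.den := by
    have h3 := pn_pow_log_le (p := p) (T := 49 * N) (by omega)
    push_cast at h3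
    rw [mul_comm 2, pow_mul]
    have h4 : ((p : ℝ) ^ Nat.log p (49 * N)) ^ 2 ≤ (49 * (N : ℝ)) ^ 2 :=
      pow_le_pow_left₀ (by positivity) h3 2
    nlinarith
  refine ent_bound hp ((pn_le_den G).trans (by nlinarith)) (fun i hi => ?_) (fun i hi => ?_)
  · exact (pn_M0 hp hi (by omega)).trans h2
  · exact (pn_Z0 hi (by omega)).trans h2

theorem ent_e0 (hp : p ≠ 2) {G : ℚ} (hG : pn p G ≤ 1) {N r j : ℕ} (hN : 49 * N < p ^ 2)
    (hj : j < 44 * N) : pn p (ent G N r j) ≤ (p : ℝ) ^ 2 := by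
  have hp1 : (1 : ℝ) ≤ p := by exact_mod_cast (Fact.out : p.Prime).one_le
  have hl : Nat.log p (49 * N) < 2 := Nat.log_lt_of_lt_pow (by omega) hN
  have h2 : (p : ℝ) ^ (2 * Nat.log p (49 * N)) ≤ (p : ℝ) ^ 2 :=
    pow_le_pow_right₀ hp1 (by omega)
  refine ent_bound hp (hG.trans (one_le_pow₀ hp1)) (fun i hi => ?_) (fun i hi => ?_)
  · exact (pn_M0 hp hi (by omega)).trans h2
  · exact (pn_Z0 hi (by omega)).trans h2

theorem xi_le (hp : p ≠ 2) (N r l : ℕ) : pn p (xi p N r l) ≤ 1 := by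
  unfold xi
  refine pn_sub_le (pn_sum_le _ _ zero_le_one fun i _ => ?_) (ent_mul1 (ent_pn32 hp) (pn_int _))
  exact ent_mul1 (pn_int _) (ent_mul1 ent_pn2 (pn_int _))

omit [Fact p.Prime] in
theorem ent_aE_high (hp : 1 ≤ p) {x i : ℕ} (h : i + p ≤ x) : aE p x i = 0 := by
  unfold aE
  split_ifs
  · exact Ep_coeff_high hp (by omega)
  · rfl

theorem xi_small (hp : p ≠ 2) {N r l : ℕ} (hr : r < 36 * N) (hl : 49 * N < p + l) :
    pn p (xi p N r l) ≤ 1 / p := by
  have hp1 : 1 ≤ p := (Fact.out : p.Prime).one_le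
  have : xi p N r l = 0 := by
    unfold xi
    rw [rowD_high hr.le hl.le, sum_eq_zero]
    · simp
    · intro i hi
      rw [ent_aE_high hp1 (by have := mem_range.1 hi; omega)]
      simp
  rw [this, pn_zero]
  positivity

/-- termwise congruences give a congruence for the entry -/
theorem ent_cong (hp : p ≠ 2) {G : ℚ} (hG : pn p G ≤ 1) {N r j : ℕ} {x : ℚ} (hx : pn p x ≤ 1 / p)
    (m z : ℕ → ℚ) (hM : ∀ i ≤ 49 * N, pn p (x * M0 i j - m i) ≤ 1 / p)
    (hZ : ∀ i ≤ 49 * N, pn p (x * Z0 i j - z i) ≤ 1 / p) :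
    pn p (x * ent G N r j - (∑ i ∈ range (49 * N + 1), ((rowA N r).coeff i : ℚ) * m i
      - 3 / 2 * ∑ i ∈ range (49 * N + 1), ((rowD N r).coeff i : ℚ) * z i)) ≤ 1 / p := by
  have he : x * ent G N r j - (∑ i ∈ range (49 * N + 1), ((rowA N r).coeff i : ℚ) * m i
      - 3 / 2 * ∑ i ∈ range (49 * N + 1), ((rowD N r).coeff i : ℚ) * z i)
      = ∑ i ∈ range (49 * N + 1), ((rowA N r).coeff i : ℚ) *
          ((x * M0 i j - m i) + x * (4 * G * cG i j))
        - 3 / 2 * ∑ i ∈ range (49 * N + 1), ((rowD N r).coeff i : ℚ) * (x * Z0 i j - z i) := by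
    unfold ent
    simp only [mul_sub, mul_add, sum_add_distrib, sum_sub_distrib, mul_sum]
    simp only [mul_left_comm x]
    ring
  rw [he]
  have hc : (0 : ℝ) ≤ 1 / p := by positivity
  refine pn_sub_le (pn_sum_le _ _ hc fun i hi => ?_)
    (ent_mul1 (ent_pn32 hp) (pn_sum_le _ _ hc fun i hi => ?_))
  · exact ent_mul1 (pn_int _) (pn_add_le (hM i (Nat.lt_succ_iff.1 (mem_range.1 hi)))
      (ent_mul2 hx (ent_mul2 (ent_mul1 ent_pn4 hG) (pn_cG hp _ _))))
  · exact ent_mul1 (pn_int _) (hZ i (Nat.lt_succ_iff.1 (mem_range.1 hi)))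

theorem ent_pn_p2 : pn p ((p : ℚ) ^ 2) ≤ 1 / p := by
  rw [sq]
  exact ent_mul1 (pn_nat p) pn_p.le

theorem ent_delta {N r : ℕ} (hr : r < 36 * N) (x : ℕ) (c : ℚ) :
    ∑ i ∈ range (49 * N + 1), ((rowD N r).coeff i : ℚ) * (if i = x then c else 0)
      = (rowD N r).coeff x * c := by
  simp only [mul_ite, mul_zero, sum_ite_eq', mem_range]
  split_ifs with h
  · rfl
  · rw [rowD_high hr.le (by omega)]; simp

omit [Fact p.Prime] in
theorem ent_mod {i l : ℕ} (hl : l < p) (hi : i < l + 2 * p) (f : ℕ → ℚ) :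
    (if i % p = l then f (i / p) else 0) =
      (if i = l then f 0 else 0) + (if i = p + l then f 1 else 0) := by
  have hp : 0 < p := by omega
  by_cases h1 : i < p
  · rw [Nat.mod_eq_of_lt h1, Nat.div_eq_of_lt h1, if_neg (show i ≠ p + l by omega), add_zero]
  · obtain ⟨k, rfl⟩ := Nat.exists_eq_add_of_le (not_lt.1 h1)
    rw [if_neg (show p + k ≠ l by omega), zero_add, Nat.add_mod_left, Nat.add_div_left _ hp]
    by_cases h2 : k < p
    · rw [Nat.mod_eq_of_lt h2, Nat.div_eq_of_lt h2]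
      simp
    · obtain ⟨k', rfl⟩ := Nat.exists_eq_add_of_le (not_lt.1 h2)
      rw [Nat.add_mod_left, Nat.mod_eq_of_lt (show k' < p by omega), if_neg (by omega),
        if_neg (by omega)]

theorem ent_e1 (hp : 3 < p) {G : ℚ} (hG : pn p G ≤ 1) {N r l : ℕ} (hr : r < 36 * N) (hl : l < p)
    (h : 49 * N < l + 2 * p) : pn p ((p : ℚ) ^ 2 * ent G N r l - xi p N r l) ≤ 1 / p := by
  have hp2 : p ≠ 2 := by omega
  have hsq : 3 * p < p ^ 2 := by nlinarith
  have key := ent_cong hp2 hG (N := N) (r := r) (j := l) ent_pn_p2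
    (fun i => 2 * aE p (2 * p + l) i) (fun i => if i = p + l then 1 else 0) (fun i hi => ?_)
    (fun i hi => ?_)
  · rw [ent_delta hr, mul_one] at key
    exact key
  · have h1 := fr_M0 hp2 hp (i := i) (j := l) (by omega) (by omega)
    rw [Nat.mod_eq_of_lt hl, Nat.div_eq_of_lt hl] at h1
    simp only [sum_range_succ, sum_range_zero] at h1
    rw [ent_aE_high (x := p * 3 + l) (by omega) (by omega), mul_comm p 2] at h1
    convert h1 using 3
    norm_num [M0, mcol, nu]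
    ring
  · have h1 := fr_Z0 (p := p) (i := i) (j := l) (by omega) (by omega)
    rw [Nat.mod_eq_of_lt hl, Nat.div_eq_of_lt hl, ent_mod hl (by omega) (fun u => Z0 u 0)] at h1
    convert h1 using 3
    norm_num [Z0, harmonic]

theorem ent_e2 (hp : 3 < p) {G : ℚ} (hG : pn p G ≤ 1) {N r l : ℕ} (hr : r < 36 * N) (hl : l < p)
    (h : 49 * N < l + 2 * p) (h14 : l ≤ 14 * N) :
    pn p ((p : ℚ) ^ 2 * ent G N r (p + l) + xi p N r l) ≤ 1 / p := by
  have hp2 : p ≠ 2 := by omega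
  have hsq : 3 * p < p ^ 2 := by nlinarith
  have hm : (p + l) % p = l := by rw [Nat.add_mod_left, Nat.mod_eq_of_lt hl]
  have hd : (p + l) / p = 1 := by
    rw [Nat.add_div_left _ (by omega), Nat.div_eq_of_lt hl]
  have key := ent_cong hp2 hG (N := N) (r := r) (j := p + l) ent_pn_p2
    (fun i => 2 * aE p l i - 2 * aE p (2 * p + l) i)
    (fun i => (if i = l then 1 else 0) + if i = p + l then -1 else 0) (fun i hi => ?_)
    (fun i hi => ?_)
  · simp only [mul_add, sum_add_distrib] at key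
    rw [ent_delta hr, ent_delta hr, rowD_low hr h14] at key
    convert key using 2
    unfold xi
    have : ∀ i ∈ range (49 * N + 1), ((rowA N r).coeff i : ℚ) *
        (2 * aE p l i - 2 * aE p (2 * p + l) i) =
        -(((rowA N r).coeff i : ℚ) * (2 * aE p (2 * p + l) i)) := by
      intro i _
      by_cases hi : i ≤ l
      · rw [rowA_low hr (hi.trans h14)]; simp
      · rw [show aE p l i = 0 by simp [aE, hi]]; simp
    rw [sum_congr rfl this, sum_neg_distrib]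
    push_cast
    ring
  · have h1 := fr_M0 hp2 hp (i := i) (j := p + l) (by omega) (by omega)
    rw [hm, hd] at h1
    simp only [sum_range_succ, sum_range_zero] at h1
    rw [ent_aE_high (x := p * 3 + l) (by omega) (by omega), mul_comm p 2, mul_zero, zero_add l] at h1
    convert h1 using 3
    norm_num [M0, mcol, mrow, nu]
    ring
  · have h1 := fr_Z0 (p := p) (i := i) (j := p + l) (by omega) (by omega)
    rw [hm, hd, ent_mod hl (by omega) (fun u => Z0 u 1)] at h1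
    convert h1 using 3
    norm_num [Z0, harmonic]

theorem ent_e3 (hp : 3 < p) {G : ℚ} (hG : pn p G ≤ 1) {N r R j : ℕ} (hr : r < 36 * N)
    (hR : R ≤ j) (hj : j < p) (h : 49 * N < p + R) :
    pn p ((p : ℚ) * ent G N r j - ∑ l ∈ range R, xi p N r l / ((l : ℚ) - j)) ≤ 1 / p := by
  have hp2 : p ≠ 2 := by omega
  have key := ent_cong hp2 hG (N := N) (r := r) (j := j) (x := p) pn_p.le _ _
    (fun i hi => fr_M0_one hp hR hj (by omega)) (fun i hi => fr_Z0_one hR hj (by omega))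
  convert key using 3
  simp only [mul_sum]
  rw [sum_comm, sum_comm (s := range (49 * N + 1)), ← sum_sub_distrib]
  refine sum_congr rfl fun l _ => ?_
  have h1 := ent_delta hr (p + l) 1
  unfold xi
  rw [← mul_sum, sub_div, sum_div, ← mul_one ((rowD N r).coeff (p + l) : ℚ), ← h1, mul_div_assoc,
    sum_div]
  simp only [mul_div_assoc]

end Vale.Agent.P030
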