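import Vale.Agent.P030.CF

namespace Vale.Agent.P030

open Polynomial Finset

theorem FRa_one_sub (h i : ℕ) : ((1 - X : ℤ[X]) ^ h).coeff i = (-1) ^ i * h.choose i := by
  induction h generalizing i with
  | zero => cases i <;> simp [coeff_one]
  | succ h ih =>
    rw [pow_succ, mul_sub, mul_one, coeff_sub]
    cases i with
    | zero => simp [ih]
    | succ i => rw [coeff_mul_X, ih, ih, Nat.choose_succ_succ]; push_cast; ring

theorem FRa_expand (p : ℕ) : Ep p = expand ℤ 2 ((1 - X) ^ ((p - 1) / 2)) := by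
  simp [Ep]

theorem FRa_even (p i : ℕ) : (Ep p).coeff (2 * i) = (-1) ^ i * ((p - 1) / 2).choose i := by
  rw [FRa_expand, coeff_expand_mul' (by norm_num), FRa_one_sub]

theorem Ep_coeff_zero (p : ℕ) : (Ep p).coeff 0 = 1 := by simpa using FRa_even p 0
theorem Ep_coeff_odd (p : ℕ) {d : ℕ} (hd : d % 2 = 1) : (Ep p).coeff d = 0 := by
  rw [FRa_expand, coeff_expand (by norm_num), if_neg (by omega)]
theorem Ep_coeff_high {p d : ℕ} (hp : 1 ≤ p) (hd : p ≤ d) : (Ep p).coeff d = 0 := by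
  rcases Nat.even_or_odd' d with ⟨i, rfl | rfl⟩
  · rw [FRa_even, Nat.choose_eq_zero_of_lt (by omega)]; simp
  · exact Ep_coeff_odd p (by omega)
theorem Ep_coeff_symm {p d : ℕ} (hp : p % 2 = 1) (hd : d < p) :
    (Ep p).coeff (p - 1 - d) = (-1) ^ ((p - 1) / 2) * (Ep p).coeff d := by
  rcases Nat.even_or_odd' d with ⟨i, rfl | rfl⟩
  · obtain ⟨j, hj⟩ : ∃ j, (p - 1) / 2 = i + j := ⟨(p - 1) / 2 - i, by omega⟩
    rw [show p - 1 - 2 * i = 2 * j by omega, FRa_even, FRa_even, hj, Nat.choose_symm_add,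
      ← mul_assoc, ← pow_add, show i + j + i = j + 2 * i by ring, pow_add, pow_mul]
    simp
  · rw [Ep_coeff_odd p (by omega), Ep_coeff_odd p (by omega), mul_zero]

theorem FRa_last {p : ℕ} (hp : p % 2 = 1) : (Ep p).coeff (p - 1) = (-1) ^ ((p - 1) / 2) := by
  simpa [Ep_coeff_zero] using Ep_coeff_symm (d := 0) hp (by omega)

/-- the exact recurrence for the coefficients of `Ep p` -/
theorem FRa_rec {p : ℕ} (hp : p % 2 = 1) (d : ℕ) :
    ((d : ℚ) + 2) * (Ep p).coeff (d + 2) = ((d : ℚ) + 1 - p) * (Ep p).coeff d := by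
  rcases Nat.even_or_odd' d with ⟨i, rfl | rfl⟩
  · obtain ⟨h, rfl⟩ : ∃ h, p = 2 * h + 1 := ⟨p / 2, by omega⟩
    rw [show 2 * i + 2 = 2 * (i + 1) by ring, FRa_even, FRa_even,
      show (2 * h + 1 - 1) / 2 = h by omega]
    have e : (h.choose (i + 1) : ℚ) * (i + 1) = h.choose i * ((h : ℚ) - i) := by
      rcases le_or_gt i h with k | k
      · rw [← Nat.cast_sub k]; exact_mod_cast Nat.choose_succ_right_eq h i
      · rw [Nat.choose_eq_zero_of_lt k, Nat.choose_eq_zero_of_lt (by omega)]; simp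
    push_cast
    linear_combination (-2 * (-1) ^ i) * e
  · rw [Ep_coeff_odd p (by omega), Ep_coeff_odd p (by omega)]; simp

theorem FRa_sum_two {M : Type*} [AddCommMonoid M] (f : ℕ → M) (n : ℕ) :
    ∑ d ∈ range (2 * n), f d = ∑ i ∈ range n, (f (2 * i) + f (2 * i + 1)) := by
  induction n with
  | zero => simp
  | succ n ih => rw [mul_add, mul_one, sum_range_succ, sum_range_succ, ih, sum_range_succ, add_assoc]

theorem FRa_nu_succ (k : ℕ) : ((k : ℚ) + 2) * nu (k + 2) = (k + 1) * nu k := by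
  rw [nu]; field_simp

theorem FRa_cc_succ (m : ℕ) : (2 * (m : ℚ) + 2) * cc (m + 1) = (2 * m + 1) * cc m := by
  rw [cc]; field_simp

theorem FRa_nu_inv (w : ℕ) : nu (2 * w + 1) * (((w : ℚ) + 1) * cc (w + 1)) = 1 := by
  have := cc_pos w
  rw [nu_odd, cc]; field_simp

variable {p : ℕ} [Fact p.Prime]

theorem FRa_odd (hp : p ≠ 2) : p % 2 = 1 := (Fact.out : p.Prime).eq_two_or_odd.resolve_left hp
theorem FRa_two_le : 2 ≤ p := (Fact.out : p.Prime).two_le
theorem FRa_ppos : (0 : ℝ) < p := by exact_mod_cast (Fact.out : p.Prime).pos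
theorem FRa_pne : (p : ℚ) ≠ 0 := by exact_mod_cast (Fact.out : p.Prime).ne_zero

omit [Fact p.Prime] in
theorem FRa_inv_nonneg : (0 : ℝ) ≤ 1 / p := by positivity
theorem FRa_sm_zero : pn p 0 ≤ 1 / p := by rw [pn_zero]; exact FRa_inv_nonneg
theorem FRa_mul {a b : ℚ} (ha : pn p a ≤ 1) (hb : pn p b ≤ 1) : pn p (a * b) ≤ 1 := by
  simpa using pn_mul_le ha hb
theorem FRa_sm_mul {a x : ℚ} (ha : pn p a ≤ 1) (hx : pn p x ≤ 1 / p) : pn p (a * x) ≤ 1 / p := by
  simpa using pn_mul_le ha hx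
theorem FRa_mul_sm {a x : ℚ} (hx : pn p x ≤ 1 / p) (ha : pn p a ≤ 1) : pn p (x * a) ≤ 1 / p := by
  simpa using pn_mul_le hx ha
theorem FRa_p_mul {x : ℚ} (hx : pn p x ≤ 1) : pn p (p * x) ≤ 1 / p := FRa_mul_sm pn_p.le hx
theorem FRa_cancel {a x : ℚ} (ha : pn p a = 1) (h : pn p (a * x) ≤ 1 / p) : pn p x ≤ 1 / p := by
  rwa [pn_mul, ha, one_mul] at h
theorem FRa_sm_in {x : ℚ} (h : pn p x ≤ 1 / p) : pn p x ≤ 1 :=
  h.trans ((div_le_one FRa_ppos).2 (by exact_mod_cast (Fact.out : p.Prime).one_le))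
theorem FRa_cg_in {x y : ℚ} (h : pn p (x - y) ≤ 1 / p) (hy : pn p y ≤ 1) : pn p x ≤ 1 := by
  simpa using pn_add_le (FRa_sm_in h) hy
theorem FRa_cg_mul {a a' b b' : ℚ} (ha : pn p (a - a') ≤ 1 / p) (hb : pn p (b - b') ≤ 1 / p)
    (ha' : pn p a' ≤ 1) (hb' : pn p b' ≤ 1) : pn p (a * b - a' * b') ≤ 1 / p := by
  rw [show a * b - a' * b' = (a - a') * b + a' * (b - b') by ring]
  exact pn_add_le (FRa_mul_sm ha (FRa_cg_in hb hb')) (FRa_sm_mul ha' hb)
theorem FRa_unit {k : ℕ} (h0 : 0 < k) (hk : k < p) : pn p (k : ℚ) = 1 :=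
  pn_nat_of_not_dvd (Nat.not_dvd_of_pos_of_lt h0 hk)
theorem FRa_inv {a : ℚ} (ha : pn p a = 1) : pn p (1 / a) ≤ 1 := by rw [pn_div, pn_one, ha, div_one]
theorem FRa_two (hp : p ≠ 2) : pn p 2 = 1 := by
  simpa using FRa_unit (p := p) (k := 2) (by norm_num) (lt_of_le_of_ne FRa_two_le hp.symm)
theorem FRa_sign (n : ℕ) : pn p ((-1) ^ n) ≤ 1 := by simpa using pn_int (p := p) ((-1) ^ n)

theorem FRa_log {k : ℕ} (hk : k < p ^ 2) : (p : ℝ) ^ Nat.log p k ≤ p := by
  have : Nat.log p k ≤ 1 := Nat.lt_succ_iff.1 (Nat.log_lt_of_lt_pow' (by norm_num) hk)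
  simpa using pow_le_pow_right₀ (by exact_mod_cast (Fact.out : p.Prime).one_le : (1 : ℝ) ≤ p) this
theorem FRa_p_le {x : ℚ} (h : pn p x ≤ p) : pn p (p * x) ≤ 1 := by
  have := pn_mul_le (pn_p (p := p)).le h
  rwa [one_div, inv_mul_cancel₀ FRa_ppos.ne'] at this
theorem FRa_pnu (hp : p ≠ 2) {k : ℕ} (hk : k < p ^ 2) : pn p (p * nu k) ≤ 1 :=
  FRa_p_le ((pn_nu hp le_rfl).trans (FRa_log hk))
theorem FRa_nu0 (hp : p ≠ 2) {k : ℕ} (hk : k < p) : pn p (nu k) ≤ 1 := by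
  simpa [Nat.log_of_lt hk] using pn_nu hp (le_refl k)
theorem FRa_pinv {k : ℕ} (hk : k < p ^ 2) : pn p (p * (1 / (k : ℚ))) ≤ 1 :=
  FRa_p_le ((pn_inv_nat_le le_rfl).trans (FRa_log hk))
theorem FRa_inv0 {k : ℕ} (hk : k < p) : pn p (1 / (k : ℚ)) ≤ 1 := by
  simpa [Nat.log_of_lt hk] using pn_inv_nat_le (p := p) (le_refl k)
theorem FRa_pM (hp : p ≠ 2) {i j : ℕ} (hi : i < p ^ 2) (hj : j < p ^ 2) :
    pn p ((p : ℚ) ^ 2 * M0 i j) ≤ 1 := by
  have h1 := pn_M0 hp (le_max_left i j) (le_max_right i j)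
  rw [mul_comm, pow_mul] at h1
  have h2 := h1.trans (pow_le_pow_left₀ (by positivity) (FRa_log (max_lt hi hj)) 2)
  have := FRa_ppos (p := p)
  rw [pn_mul, pn_pow, pn_p, div_pow, one_pow, one_div, inv_mul_le_iff₀ (by positivity), mul_one]
  exact h2
theorem FRa_M0 (hp : p ≠ 2) {i j : ℕ} (hi : i < p) (hj : j < p) : pn p (M0 i j) ≤ 1 := by
  simpa [Nat.log_of_lt (max_lt hi hj)] using pn_M0 hp (le_max_left i j) (le_max_right i j)

theorem FRa_block (f g : ℕ → ℚ) (u : ℕ)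
    (h : ∀ v < u, pn p (∑ j ∈ range p, f (p * v + j) - g v) ≤ 1 / p) :
    pn p (∑ k ∈ range (p * u), f k - ∑ v ∈ range u, g v) ≤ 1 / p := by
  induction u with
  | zero => simpa using FRa_sm_zero
  | succ u ih =>
    rw [mul_add, mul_one, sum_range_add, sum_range_succ, add_sub_add_comm]
    exact pn_add_le (ih fun v hv => h v (by omega)) (h u (by omega))

theorem FRa_single (f : ℕ → ℚ) {g : ℚ} {n j0 : ℕ} (hj : j0 < n) (h0 : pn p (f j0 - g) ≤ 1 / p)
    (h : ∀ j < n, j ≠ j0 → pn p (f j) ≤ 1 / p) : pn p (∑ j ∈ range n, f j - g) ≤ 1 / p := by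
  rw [← add_sum_erase _ _ (mem_range.2 hj), add_sub_right_comm]
  exact pn_add_le h0 (pn_sum_le _ _ FRa_inv_nonneg fun j hj =>
    h j (mem_range.1 (mem_erase.1 hj).2) (mem_erase.1 hj).1)

theorem FRa_choose (k : ℕ) (hk : k < p) : (p : ℤ) ∣ ((p - 1).choose k : ℤ) - (-1) ^ k := by
  induction k with
  | zero => simp
  | succ k ih =>
    have h1 : p.choose (k + 1) = (p - 1).choose k + (p - 1).choose (k + 1) := by
      conv_lhs => rw [show p = p - 1 + 1 by omega]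
      exact Nat.choose_succ_succ _ _
    have h2 : (p : ℤ) ∣ p.choose (k + 1) := by
      exact_mod_cast (Fact.out : p.Prime).dvd_choose_self (by omega) hk
    have h3 : (p.choose (k + 1) : ℤ) = (p - 1).choose k + (p - 1).choose (k + 1) := by
      exact_mod_cast h1
    have e : ((p - 1).choose (k + 1) : ℤ) - (-1) ^ (k + 1) =
        p.choose (k + 1) - (((p - 1).choose k : ℤ) - (-1) ^ k) := by
      rw [h3]; ring
    rw [e]
    exact h2.sub (ih (by omega))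

theorem Ep_sum_sq (hp : p ≠ 2) :
    (p : ℤ) ∣ ∑ d ∈ range p, (Ep p).coeff d ^ 2 - (-1) ^ ((p - 1) / 2) := by
  have ho := FRa_odd hp
  have e : ∑ d ∈ range p, (Ep p).coeff d ^ 2 = ((p - 1).choose ((p - 1) / 2) : ℤ) := by
    have h1 := sum_range_succ (fun d => (Ep p).coeff d ^ 2) p
    rw [Ep_coeff_high (by omega) le_rfl, zero_pow two_ne_zero, add_zero,
      show p + 1 = 2 * ((p - 1) / 2 + 1) by omega, FRa_sum_two] at h1
    have h2 := Nat.sum_range_choose_sq ((p - 1) / 2)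
    rw [show 2 * ((p - 1) / 2) = p - 1 by omega] at h2
    rw [← h1, ← h2]
    push_cast
    refine sum_congr rfl fun i _ => ?_
    rw [FRa_even, Ep_coeff_odd p (by omega), mul_pow, ← pow_mul, mul_comm i, pow_mul]
    simp
  rw [e]
  exact FRa_choose _ (by omega)

theorem FRa_cc0 (hp : p ≠ 2) (u : ℕ) : pn p (cc (p * u) - cc u) ≤ 1 / p := by
  have h4 : pn p 4 = 1 := by rw [show (4 : ℚ) = 2 * 2 by norm_num, pn_mul, FRa_two hp, mul_one]
  refine FRa_cancel (a := 4 ^ (p * u) * 4 ^ u) (by rw [pn_mul, pn_pow, pn_pow, h4]; simp) ?_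
  have e : (4 : ℚ) ^ (p * u) * 4 ^ u * (cc (p * u) - cc u) =
      (((p * (2 * u)).choose (p * u) * 4 ^ u - (2 * u).choose u * (4 ^ u) ^ p : ℤ) : ℚ) := by
    rw [cc_eq, cc_eq, Nat.centralBinom_eq_two_mul_choose, Nat.centralBinom_eq_two_mul_choose,
      mul_left_comm 2 p u, ← pow_mul, mul_comm u p]
    push_cast
    field_simp
  rw [e]
  refine pn_int_of_dvd ((ZMod.intCast_zmod_eq_zero_iff_dvd _ p).1 ?_)
  push_cast
  rw [ZMod.pow_card, (ZMod.natCast_eq_natCast_iff _ _ _).2 Choose.choose_mul_mul_modEq_choose_nat,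
    sub_self]

theorem fr_cc (hp : p ≠ 2) {u l : ℕ} (hl : l < p) :
    pn p (cc (p * u + l) - cc u * ((Ep p).coeff (2 * l) : ℚ)) ≤ 1 / p := by
  induction l with
  | zero => simpa [Ep_coeff_zero] using FRa_cc0 hp u
  | succ l ih =>
    have h1 := FRa_rec (FRa_odd hp) (2 * l)
    have h2 := FRa_cc_succ (p * u + l)
    refine FRa_cancel (a := 2 * ((l + 1 : ℕ) : ℚ))
      (by rw [pn_mul, FRa_two hp, FRa_unit (by omega) hl, mul_one]) ?_
    have e : 2 * ((l + 1 : ℕ) : ℚ) * (cc (p * u + (l + 1)) - cc u * ((Ep p).coeff (2 * (l + 1)) : ℚ)) =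
        ((2 * l + 1 : ℕ) : ℚ) * (cc (p * u + l) - cc u * ((Ep p).coeff (2 * l) : ℚ)) +
        p * (((2 * u : ℕ) : ℚ) * (cc (p * u + l) - cc (p * u + l + 1)) +
          cc u * ((Ep p).coeff (2 * l) : ℚ)) := by
      rw [← add_assoc, mul_add 2 l 1, mul_one]
      push_cast at h1 h2 ⊢
      linear_combination h2 - cc u * h1
    rw [e]
    exact pn_add_le (FRa_sm_mul (pn_nat _) (ih (by omega))) (FRa_p_mul (pn_add_le
      (FRa_mul (pn_nat _) (pn_sub_le (pn_cc hp _) (pn_cc hp _))) (FRa_mul (pn_cc hp _) (pn_int _))))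

theorem FRa_nu (hp : p ≠ 2) {u : ℕ} (hu : u < p) (d : ℕ) : ∀ k, d < p → k + d + 1 = p * (u + 1) →
    pn p (p * nu k - ((Ep p).coeff d : ℚ) * nu u) ≤ 1 / p := by
  have ho := FRa_odd hp
  have hb : p * (u + 1) ≤ p ^ 2 := by rw [sq]; exact Nat.mul_le_mul_left _ hu
  induction d using Nat.twoStepInduction with
  | zero =>
    intro k _ hk
    rw [Ep_coeff_zero, Int.cast_one, one_mul]
    rcases Nat.even_or_odd' u with ⟨w, rfl | rfl⟩
    · have : (p * (2 * w + 1)) % 2 = 1 := Nat.odd_mul_odd ho (by omega)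
      obtain ⟨l, rfl⟩ : ∃ l, k = 2 * l := ⟨k / 2, by omega⟩
      simpa [nu_even] using FRa_sm_zero
    · have e1 : p * (2 * w + 1 + 1) = 2 * (p * (w + 1)) := by ring
      obtain ⟨l, rfl⟩ : ∃ l, k = 2 * l + 1 := ⟨k / 2, by omega⟩
      have e2 : l + 1 = p * (w + 1) := by omega
      have h1 := FRa_nu_inv l
      have h2 := FRa_nu_inv w
      have e3 : (l : ℚ) + 1 = p * (w + 1) := by exact_mod_cast e2
      rw [e2, e3] at h1
      have e : p * nu (2 * l + 1) - nu (2 * w + 1) = p * nu (2 * l + 1) * nu (2 * w + 1) *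
          ((w + 1 : ℕ) : ℚ) * -(cc (p * (w + 1)) - cc (w + 1)) := by
        push_cast
        linear_combination nu (2 * w + 1) * h1 - p * nu (2 * l + 1) * h2
      rw [e]
      refine FRa_sm_mul (FRa_mul (FRa_mul (FRa_pnu hp (by omega)) (FRa_nu0 hp hu)) (pn_nat _)) ?_
      rw [pn_neg]; exact FRa_cc0 hp _
  | one =>
    intro k _ hk
    rw [Ep_coeff_odd p (by norm_num), Int.cast_zero, zero_mul, sub_zero]
    have hd : ¬ p ∣ k + 1 := fun h => by
      have := (Nat.dvd_add_right h).1 (hk ▸ dvd_mul_right p (u + 1))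
      exact absurd (Nat.le_of_dvd one_pos this) (by omega)
    refine FRa_cancel (pn_nat_of_not_dvd hd) ?_
    have e3 : (k : ℚ) + 2 = p * (u + 1) := by exact_mod_cast hk
    have e : ((k + 1 : ℕ) : ℚ) * (p * nu k) = p * (((u + 1 : ℕ) : ℚ) * (p * nu (k + 2))) := by
      push_cast
      linear_combination p * nu (k + 2) * e3 - p * FRa_nu_succ k
    rw [e]
    refine FRa_p_mul ?_
    rcases lt_or_eq_of_le (show k + 2 ≤ p ^ 2 by omega) with h | h
    · exact FRa_mul (pn_nat _) (FRa_pnu hp h)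
    · have e4 : u + 1 = p := Nat.eq_of_mul_eq_mul_left (by omega : 0 < p) (by rw [← sq]; omega)
      have h1 := pn_nu hp (le_refl (k + 2))
      rw [h, Nat.log_pow (by omega)] at h1
      rw [e4, h]
      refine FRa_p_le ?_
      have := FRa_ppos (p := p)
      rw [pn_mul, pn_p, one_div, inv_mul_le_iff₀ this, ← sq]
      exact h1
  | more d ih _ =>
    intro k hd hk
    have h1 := FRa_rec ho d
    have e3 : (k : ℚ) + (d + 2) + 1 = p * (u + 1) := by exact_mod_cast hk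
    refine FRa_cancel (FRa_unit (k := d + 2) (by omega) hd) ?_
    have e : ((d + 2 : ℕ) : ℚ) * (p * nu k - ((Ep p).coeff (d + 2) : ℚ) * nu u) =
        ((d + 1 : ℕ) : ℚ) * (p * nu (k + 2) - ((Ep p).coeff d : ℚ) * nu u) +
        p * (((u + 1 : ℕ) : ℚ) * (p * nu k - p * nu (k + 2)) + ((Ep p).coeff d : ℚ) * nu u) := by
      push_cast
      linear_combination p * (nu k - nu (k + 2)) * e3 + p * FRa_nu_succ k - nu u * h1
    rw [e]
    exact pn_add_le (FRa_sm_mul (pn_nat _) (ih _ (by omega) (by omega))) (FRa_p_mul (pn_add_le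
      (FRa_mul (pn_nat _) (pn_sub_le (FRa_pnu hp (by omega)) (FRa_pnu hp (by omega))))
      (FRa_mul (pn_int _) (FRa_nu0 hp hu))))

theorem fr_nu (hp : p ≠ 2) {k : ℕ} (hk : k < p ^ 2) :
    pn p (p * nu k - ((Ep p).coeff (p - 1 - k % p) : ℚ) * nu (k / p)) ≤ 1 / p := by
  have h2 := FRa_two_le (p := p)
  have h1 := Nat.mod_lt k (by omega : 0 < p)
  have h3 := Nat.div_add_mod k p
  refine FRa_nu hp (Nat.div_lt_of_lt_mul (by rwa [← sq])) _ k (by omega) ?_
  rw [mul_add]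
  omega

end Vale.Agent.P030
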