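import Vale.Agent.P030.FRa

namespace Vale.Agent.P030

open Polynomial Finset

theorem FRb_rec (i : ℕ) : ((i : ℚ) + 1) * mcol (i + 2) = i * mcol i + nu i + nu (i + 1) := by
  rw [CF_mcol_succ]; field_simp

theorem FRb_odd (l : ℕ) : mcol (2 * l + 1) = 1 / 2 * (cc l * ∑ k ∈ range (2 * l + 1), nu k ^ 2) := by
  rw [mcol_odd, sum_range_succ, nu_even, FRa_sum_two, ← sum_div]
  simp only [nu_even]
  simp
  ring

variable {p : ℕ} [Fact p.Prime]

theorem FRb_lt {u j : ℕ} (hu : u < p) (hj : j < p) : p * u + j < p ^ 2 := by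
  have : p * (u + 1) ≤ p * p := Nat.mul_le_mul_left _ hu
  rw [sq]; rw [mul_add] at this; omega

theorem FRb_unit (hp : p ≠ 2) (v : ℕ) {j : ℕ} (hj : j < p) (hh : j ≠ (p - 1) / 2) :
    pn p (2 * ((p * v + j : ℕ) : ℚ) + 1) = 1 := by
  have ho := FRa_odd hp
  have : ¬ p ∣ 2 * (p * v + j) + 1 := fun h => by
    rw [show 2 * (p * v + j) + 1 = p * (2 * v) + (2 * j + 1) by ring] at h
    obtain ⟨c, hc⟩ := (Nat.dvd_add_right (dvd_mul_right _ _)).1 h
    rcases c with _ | _ | c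
    · omega
    · omega
    · rw [mul_add, mul_add] at hc; omega
  simpa using pn_nat_of_not_dvd this

theorem FRb_x (hp : p ≠ 2) {i : ℕ} (hi : i < p ^ 2) : pn p ((p : ℚ) ^ 2 * mcol i) ≤ 1 := by
  rw [← M0_zero_right]; exact FRa_pM hp hi (by omega)

theorem FRb_m (hp : p ≠ 2) {u : ℕ} (hu : u < p) : pn p (mcol u) ≤ 1 := by
  rw [← M0_zero_right]; exact FRa_M0 hp hu (by omega)

theorem FRb_sq (hp : p ≠ 2) {u : ℕ} (hu : u < p) :
    pn p ((p : ℚ) ^ 2 * ∑ k ∈ range (p * u), nu k ^ 2 -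
      (-1) ^ ((p - 1) / 2) * ∑ v ∈ range u, nu v ^ 2) ≤ 1 / p := by
  rw [mul_sum, mul_sum]
  refine FRa_block _ _ u fun v hv => ?_
  have hv0 := FRa_nu0 hp (hv.trans hu)
  have e : ∑ j ∈ range p, (p : ℚ) ^ 2 * nu (p * v + j) ^ 2 - (-1) ^ ((p - 1) / 2) * nu v ^ 2 =
      ∑ j ∈ range p, (p * nu (p * v + j) * (p * nu (p * v + j)) -
        ((Ep p).coeff (p - 1 - j) : ℚ) * nu v * (((Ep p).coeff (p - 1 - j) : ℚ) * nu v)) +
      ((∑ d ∈ range p, (Ep p).coeff d ^ 2 - (-1) ^ ((p - 1) / 2) : ℤ) : ℚ) * (nu v * nu v) := by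
    rw [← sum_range_reflect (fun d => (Ep p).coeff d ^ 2) p, sum_sub_distrib]
    push_cast
    rw [sub_mul, sum_mul]
    simp only [sq, mul_mul_mul_comm (p : ℚ) p, mul_mul_mul_comm _ (nu v) _ (nu v)]
    ring
  rw [e]
  refine pn_add_le (pn_sum_le _ _ FRa_inv_nonneg fun j hj => ?_)
    (FRa_mul_sm (pn_int_of_dvd (Ep_sum_sq hp)) (FRa_mul hv0 hv0))
  have hj := mem_range.1 hj
  have h := FRa_nu hp (hv.trans hu) (p - 1 - j) (p * v + j) (by omega) (by rw [mul_add]; omega)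
  exact FRa_cg_mul h h (FRa_mul (pn_int _) hv0) (FRa_mul (pn_int _) hv0)

theorem FRb_harm (hp : p ≠ 2) (u : ℕ) :
    pn p (p * ∑ k ∈ range (p * u), 1 / (2 * (k : ℚ) + 1) -
      ∑ v ∈ range u, 1 / (2 * (v : ℚ) + 1)) ≤ 1 / p := by
  have ho := FRa_odd hp
  rw [mul_sum]
  refine FRa_block _ _ u fun v _ => FRa_single _ (j0 := (p - 1) / 2) (by omega) ?_
    fun j hj hh => FRa_p_mul (FRa_inv (FRb_unit hp v hj hh))
  have e : 2 * (p * v + (p - 1) / 2) + 1 = p * (2 * v + 1) := by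
    rw [mul_add p, mul_left_comm p]; omega
  have e' : 2 * ((p * v + (p - 1) / 2 : ℕ) : ℚ) + 1 = p * (2 * v + 1) := by exact_mod_cast e
  have := FRa_pne (p := p)
  rw [e', show (p : ℚ) * (1 / (p * (2 * v + 1))) - 1 / (2 * v + 1) = 0 by field_simp; ring]
  exact FRa_sm_zero

theorem FRb_zero (hp : p ≠ 2) {u : ℕ} (hu : u < p) :
    pn p ((p : ℚ) ^ 2 * mcol (p * u) - mcol u) ≤ 1 / p := by
  have ho := FRa_odd hp
  rcases Nat.even_or_odd' u with ⟨w, rfl | rfl⟩
  · rcases w with _ | w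
    · simpa [mcol] using FRa_sm_zero
    have e1 : p * (2 * (w + 1)) = 2 * (p * (w + 1)) := by ring
    obtain ⟨l, hl⟩ : ∃ l, p * (w + 1) = l + 1 :=
      ⟨p * (w + 1) - 1, (Nat.sub_add_cancel (Nat.mul_pos (by omega) (by omega))).symm⟩
    have h1 := FRa_nu hp (u := 2 * w + 1) (by omega) 0 (2 * l + 1) (by omega) (by
      rw [show 2 * w + 1 + 1 = 2 * (w + 1) by ring]; omega)
    rw [Ep_coeff_zero, Int.cast_one, one_mul] at h1
    have h2 := FRb_harm hp (w + 1)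
    rw [e1, hl, mul_add 2 l, mul_add 2 w, mul_one, mcol_even, mcol_even, sq, mul_mul_mul_comm]
    rw [hl] at h2
    refine FRa_cg_mul h1 h2 (FRa_nu0 hp (by omega)) (pn_sum_le _ _ zero_le_one fun v hv => ?_)
    have := mem_range.1 hv
    simpa using FRa_inv0 (p := p) (k := 2 * v + 1) (by omega)
  · have e : p * (2 * w + 1) = 2 * (p * w + (p - 1) / 2) + 1 := by
      rw [mul_add p, mul_left_comm p]; omega
    have h1 := fr_cc hp (u := w) (l := (p - 1) / 2) (by omega)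
    rw [show 2 * ((p - 1) / 2) = p - 1 by omega, FRa_last ho] at h1
    have h2 := FRb_sq hp hu
    have h3 := FRa_cg_mul h1 h2 (FRa_mul (pn_cc hp _) (pn_int _)) (FRa_mul (FRa_sign _)
      (pn_sum_le _ _ zero_le_one fun v hv => by
        have := FRa_nu0 hp ((mem_range.1 hv).trans hu)
        rw [sq]; exact FRa_mul this this))
    have h4 := FRa_sm_mul (FRa_inv (FRa_two hp)) h3
    rw [FRb_odd w]
    rw [e] at h4 ⊢
    rw [FRb_odd]
    convert h4 using 2
    have : ((-1 : ℚ) ^ ((p - 1) / 2)) * (-1) ^ ((p - 1) / 2) = 1 := by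
      rw [← mul_pow]; simp
    push_cast
    linear_combination (1 / 2 * cc w * ∑ v ∈ range (2 * w + 1), nu v ^ 2) * this

theorem FRb_core (hp : p ≠ 2) {u : ℕ} (hu : u < p) (d : ℕ) : ∀ i, d < p → i + d = p * u →
    pn p ((p : ℚ) ^ 2 * mcol i - ((Ep p).coeff d : ℚ) * mcol u) ≤ 1 / p := by
  have ho := FRa_odd hp
  have h2 := FRa_two_le (p := p)
  have hb := FRb_lt hu (j := 1) (by omega)
  induction d using Nat.twoStepInduction with
  | zero =>
    intro i _ hi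
    rw [Ep_coeff_zero, Int.cast_one, one_mul, show i = p * u by omega]
    exact FRb_zero hp hu
  | one =>
    intro i _ hi
    rw [Ep_coeff_odd p (by norm_num), Int.cast_zero, zero_mul, sub_zero]
    have hd : ¬ p ∣ i := fun h => by
      have := (Nat.dvd_add_right h).1 (hi ▸ dvd_mul_right p u)
      exact absurd (Nat.le_of_dvd one_pos this) (by omega)
    refine FRa_cancel (pn_nat_of_not_dvd hd) ?_
    have e3 : (i : ℚ) + 1 = p * u := by exact_mod_cast hi
    have e : (i : ℚ) * ((p : ℚ) ^ 2 * mcol i) =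
        p * (u * ((p : ℚ) ^ 2 * mcol (i + 2)) - (p * nu i + p * nu (i + 1))) := by
      linear_combination (p : ℚ) ^ 2 * mcol (i + 2) * e3 - (p : ℚ) ^ 2 * FRb_rec i
    rw [e]
    exact FRa_p_mul (pn_sub_le (FRa_mul (pn_nat _) (FRb_x hp (by omega)))
      (pn_add_le (FRa_pnu hp (by omega)) (FRa_pnu hp (by omega))))
  | more d ih _ =>
    intro i hd hi
    have h1 := FRa_rec ho d
    have e3 : (i : ℚ) + (d + 2) = p * u := by exact_mod_cast hi
    refine FRa_cancel (FRa_unit (k := d + 2) (by omega) hd) ?_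
    have e : ((d + 2 : ℕ) : ℚ) * ((p : ℚ) ^ 2 * mcol i - ((Ep p).coeff (d + 2) : ℚ) * mcol u) =
        ((d + 1 : ℕ) : ℚ) * ((p : ℚ) ^ 2 * mcol (i + 2) - ((Ep p).coeff d : ℚ) * mcol u) +
        p * (u * ((p : ℚ) ^ 2 * mcol i - (p : ℚ) ^ 2 * mcol (i + 2)) +
          (p * nu i + p * nu (i + 1)) + ((Ep p).coeff d : ℚ) * mcol u) := by
      push_cast
      linear_combination (p : ℚ) ^ 2 * (mcol i - mcol (i + 2)) * e3 +
        (p : ℚ) ^ 2 * FRb_rec i - mcol u * h1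
    rw [e]
    exact pn_add_le (FRa_sm_mul (pn_nat _) (ih _ (by omega) (by omega))) (FRa_p_mul (pn_add_le
      (pn_add_le (FRa_mul (pn_nat _) (pn_sub_le (FRb_x hp (by omega)) (FRb_x hp (by omega))))
        (pn_add_le (FRa_pnu hp (by omega)) (FRa_pnu hp (by omega))))
      (FRa_mul (pn_int _) (FRb_m hp hu))))

theorem fr_mcol (hp : p ≠ 2) {U i : ℕ} (hU : U < p) (hi : i ≤ p * U) :
    pn p ((p : ℚ) ^ 2 * mcol i - ∑ u ∈ range (U + 1), (aE p (p * u) i : ℚ) * mcol u) ≤ 1 / p := by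
  have h2 := FRa_two_le (p := p)
  obtain ⟨u, hu⟩ : ∃ u, i ≤ p * u ∧ p * u < i + p := by
    have h1 := Nat.mod_lt (i + p - 1) (by omega : 0 < p)
    have h3 := Nat.div_add_mod (i + p - 1) p
    exact ⟨(i + p - 1) / p, by omega, by omega⟩
  have huU : u < U + 1 := Nat.lt_of_mul_lt_mul_left (a := p) (by rw [mul_add]; omega)
  rw [sum_eq_single_of_mem u (mem_range.2 huU), aE, if_pos hu.1]
  · exact FRb_core hp (by omega) _ i (by omega) (by omega)
  intro v _ hv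
  rw [aE]
  split_ifs with h
  · have : u + 1 ≤ v := by
      by_contra k
      have := Nat.mul_le_mul_left p (show v + 1 ≤ u by omega)
      rw [mul_add] at this; omega
    have := Nat.mul_le_mul_left p this
    rw [mul_add] at this
    rw [Ep_coeff_high (by omega) (by omega)]; simp
  · simp

end Vale.Agent.P030
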