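import Vale.Agent.P030.FRb

namespace Vale.Agent.P030

open Polynomial Finset

theorem FRc_rec (j : ℕ) :
    ((j : ℚ) + 2) * mrow (j + 2) = (j + 1) * mrow j + 2 * (1 / ((j + 2 : ℕ) : ℚ)) := by
  rw [CF_mrow_succ]; push_cast; field_simp

theorem FRc_even (m : ℕ) :
    mrow (2 * m) = cc m * ∑ k ∈ range (2 * m), nu k * (1 / ((k + 1 : ℕ) : ℚ)) := by
  rw [mrow_even, FRa_sum_two]
  congr 1
  refine sum_congr rfl fun i _ => ?_
  rw [nu_even]; push_cast; ring

variable {p : ℕ} [Fact p.Prime]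

theorem FRc_y (hp : p ≠ 2) {j : ℕ} (hj : j < p ^ 2) : pn p ((p : ℚ) ^ 2 * mrow j) ≤ 1 := by
  rw [← M0_zero_left]; exact FRa_pM hp (by omega) hj

theorem FRc_m (hp : p ≠ 2) {u : ℕ} (hu : u < p) : pn p (mrow u) ≤ 1 := by
  rw [← M0_zero_left]; exact FRa_M0 hp (by omega) hu

theorem FRc_unit (v : ℕ) {j : ℕ} (h0 : 0 < j) (hj : j < p) : pn p ((p * v + j : ℕ) : ℚ) = 1 :=
  pn_nat_of_not_dvd fun h =>
    Nat.not_dvd_of_pos_of_lt h0 hj ((Nat.dvd_add_right (dvd_mul_right _ _)).1 h)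

theorem FRc_sum (hp : p ≠ 2) {u : ℕ} (hu : u < p) :
    pn p ((p : ℚ) ^ 2 * ∑ k ∈ range (p * u), nu k * (1 / ((k + 1 : ℕ) : ℚ)) -
      ∑ v ∈ range u, nu v * (1 / ((v + 1 : ℕ) : ℚ))) ≤ 1 / p := by
  have h2 := FRa_two_le (p := p)
  rw [mul_sum]
  refine FRa_block _ _ u fun v hv => FRa_single _ (j0 := p - 1) (by omega) ?_ fun j hj hh => ?_
  · have e : p * v + (p - 1) + 1 = p * (v + 1) := by rw [mul_add]; omega
    have h1 := FRa_nu hp (hv.trans hu) 0 (p * v + (p - 1)) (by omega) e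
    rw [Ep_coeff_zero, Int.cast_one, one_mul] at h1
    have h3 := FRa_mul_sm h1 (FRa_inv0 (k := v + 1) (by omega))
    have := FRa_pne (p := p)
    rw [e]
    convert h3 using 2
    push_cast
    field_simp
  · rw [sq, mul_assoc, ← mul_assoc _ (nu _), add_assoc]
    exact FRa_p_mul (FRa_mul (FRa_pnu hp (FRb_lt (hv.trans hu) hj))
      (FRa_inv (FRc_unit v (by omega) (by omega))))

theorem FRc_term (hp : p ≠ 2) (v n : ℕ) (h1 : (p - 1) / 2 < n) (h2 : n ≤ p) :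
    pn p (∑ j ∈ range n, p * (cc (p * v + j) / (2 * ((p * v + j : ℕ) : ℚ) + 1)) -
      (-1) ^ ((p - 1) / 2) * (cc v / (2 * (v : ℚ) + 1))) * pn p (2 * (v : ℚ) + 1) ≤ 1 / p := by
  have ho := FRa_odd hp
  have hv : pn p (2 * (v : ℚ) + 1) ≤ 1 := by simpa using pn_nat (p := p) (2 * v + 1)
  rw [← pn_mul, sub_mul, sum_mul]
  refine FRa_single _ h1 ?_ fun j hj hh => FRa_mul_sm (FRa_p_mul ?_) hv
  · have e : 2 * (p * v + (p - 1) / 2) + 1 = p * (2 * v + 1) := by
      rw [mul_add p, mul_left_comm p]; omega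
    have e' : 2 * ((p * v + (p - 1) / 2 : ℕ) : ℚ) + 1 = p * (2 * v + 1) := by exact_mod_cast e
    have := FRa_pne (p := p)
    have h3 := fr_cc hp (u := v) (l := (p - 1) / 2) (by omega)
    rw [show 2 * ((p - 1) / 2) = p - 1 by omega, FRa_last ho] at h3
    rw [e']
    convert h3 using 2
    push_cast
    field_simp
  · rw [div_eq_mul_one_div]
    exact FRa_mul (pn_cc hp _) (FRa_inv (FRb_unit hp v (by omega) hh))

theorem FRc_zero (hp : p ≠ 2) {u : ℕ} (hu : u < p) :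
    pn p ((p : ℚ) ^ 2 * mrow (p * u) - mrow u) ≤ 1 / p := by
  have ho := FRa_odd hp
  have h2 := FRa_two_le (p := p)
  rcases Nat.even_or_odd' u with ⟨w, rfl | rfl⟩
  · have h1 := FRc_sum hp hu
    rw [mul_left_comm p] at h1 ⊢
    rw [FRc_even, FRc_even, mul_left_comm]
    exact FRa_cg_mul (FRa_cc0 hp w) h1 (pn_cc hp _) (pn_sum_le _ _ zero_le_one fun v hv =>
      have := mem_range.1 hv
      FRa_mul (FRa_nu0 hp (by omega)) (FRa_inv0 (by omega)))
  · have e : p * (2 * w + 1) = 2 * (p * w + (p - 1) / 2) + 1 := by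
      rw [mul_add p, mul_left_comm p]; omega
    have h1 := FRa_nu hp hu (p - 1) (p * (2 * w + 1)) (by omega) (by rw [mul_add p (2 * w + 1) 1]; omega)
    rw [FRa_last ho] at h1
    have ht : ∀ v ≤ w, ∀ n, (p - 1) / 2 < n → n ≤ p →
        pn p (∑ j ∈ range n, p * (cc (p * v + j) / (2 * ((p * v + j : ℕ) : ℚ) + 1)) -
          (-1) ^ ((p - 1) / 2) * (cc v / (2 * (v : ℚ) + 1))) ≤ 1 / p := fun v hv n a b => by
      have := FRc_term hp v n a b
      have k : pn p (2 * (v : ℚ) + 1) = 1 := by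
        simpa using FRa_unit (p := p) (k := 2 * v + 1) (by omega) (by omega)
      rwa [k, mul_one] at this
    have h3 := pn_add_le (FRa_block (fun l => p * (cc l / (2 * (l : ℚ) + 1))) _ w fun v hv =>
      ht v hv.le p (by omega) le_rfl) (ht w le_rfl ((p - 1) / 2 + 1) (by omega) (by omega))
    rw [← add_sub_add_comm, ← sum_range_add (fun l => p * (cc l / (2 * (l : ℚ) + 1))),
      ← sum_range_succ (fun v => (-1 : ℚ) ^ ((p - 1) / 2) * (cc v / (2 * (v : ℚ) + 1))),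
      ← mul_sum, ← mul_sum, ← add_assoc] at h3
    have h4 := FRa_cg_mul h1 h3 (FRa_mul (pn_int _) (FRa_nu0 hp hu)) (FRa_mul (FRa_sign _)
      (pn_sum_le _ _ zero_le_one fun v hv => by
        have := mem_range.1 hv
        rw [div_eq_mul_one_div]
        exact FRa_mul (pn_cc hp _) (by simpa using FRa_inv0 (p := p) (k := 2 * v + 1) (by omega))))
    rw [mrow_odd w]
    rw [e] at h4 ⊢
    rw [mrow_odd]
    convert h4 using 2
    have : ((-1 : ℚ) ^ ((p - 1) / 2)) * (-1) ^ ((p - 1) / 2) = 1 := by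
      rw [← mul_pow]; simp
    push_cast
    linear_combination
      (nu (2 * w + 1) * ∑ v ∈ range (w + 1), cc v / (2 * (v : ℚ) + 1)) * this

theorem FRc_core (hp : p ≠ 2) {u : ℕ} (hu : u < p) (d : ℕ) (hd : d < p) :
    pn p ((p : ℚ) ^ 2 * mrow (p * u + d) - ((Ep p).coeff d : ℚ) * mrow u) ≤ 1 / p := by
  have ho := FRa_odd hp
  have h2 := FRa_two_le (p := p)
  induction d using Nat.twoStepInduction with
  | zero =>
    rw [Ep_coeff_zero, Int.cast_one, one_mul, add_zero]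
    exact FRc_zero hp hu
  | one =>
    rw [Ep_coeff_odd p (by norm_num), Int.cast_zero, zero_mul, sub_zero]
    have hb := FRb_lt hu hd
    rcases Nat.eq_zero_or_pos (p * u) with h | h
    · rw [h, sq, mul_assoc]
      exact FRa_p_mul (FRa_mul (pn_nat _) (FRc_m hp (by omega)))
    obtain ⟨j, hj⟩ : ∃ j, p * u = j + 1 := ⟨p * u - 1, by omega⟩
    have hn := FRc_unit u one_pos hd
    have e3 : (p : ℚ) * u = j + 1 := by exact_mod_cast hj
    rw [hj, add_assoc, one_add_one_eq_two] at hn ⊢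
    refine FRa_cancel hn ?_
    have e : ((j + 2 : ℕ) : ℚ) * ((p : ℚ) ^ 2 * mrow (j + 2)) =
        p * (u * ((p : ℚ) ^ 2 * mrow j) + 2 * (p * (1 / ((j + 2 : ℕ) : ℚ)))) := by
      rw [Nat.cast_add j 2]
      have := FRc_rec j
      rw [Nat.cast_add j 2] at this
      push_cast at this ⊢
      linear_combination (p : ℚ) ^ 2 * this - (p : ℚ) ^ 2 * mrow j * e3
    rw [e]
    exact FRa_p_mul (pn_add_le (FRa_mul (pn_nat _) (FRc_y hp (by omega)))
      (FRa_mul (FRa_two hp).le (FRa_pinv (by omega))))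
  | more d ih _ =>
    have hb := FRb_lt hu hd
    have h1 := FRa_rec ho d
    have h3 := FRc_rec (p * u + d)
    refine FRa_cancel (FRa_unit (k := d + 2) (by omega) hd) ?_
    have e : ((d + 2 : ℕ) : ℚ) *
        ((p : ℚ) ^ 2 * mrow (p * u + (d + 2)) - ((Ep p).coeff (d + 2) : ℚ) * mrow u) =
        ((d + 1 : ℕ) : ℚ) * ((p : ℚ) ^ 2 * mrow (p * u + d) - ((Ep p).coeff d : ℚ) * mrow u) +
        p * (u * ((p : ℚ) ^ 2 * mrow (p * u + d) - (p : ℚ) ^ 2 * mrow (p * u + d + 2)) +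
          2 * (p * (1 / ((p * u + d + 2 : ℕ) : ℚ))) + ((Ep p).coeff d : ℚ) * mrow u) := by
      rw [← add_assoc]
      push_cast at h3 ⊢
      linear_combination (p : ℚ) ^ 2 * h3 - mrow u * h1
    rw [e]
    exact pn_add_le (FRa_sm_mul (pn_nat _) (ih (by omega))) (FRa_p_mul (pn_add_le
      (pn_add_le (FRa_mul (pn_nat _) (pn_sub_le (FRc_y hp (by omega)) (FRc_y hp (by omega))))
        (FRa_mul (FRa_two hp).le (FRa_pinv (by omega))))
      (FRa_mul (pn_int _) (FRc_m hp hu))))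

theorem fr_mrow (hp : p ≠ 2) {j : ℕ} (hj : j < p ^ 2) :
    pn p ((p : ℚ) ^ 2 * mrow j - ((Ep p).coeff (j % p) : ℚ) * mrow (j / p)) ≤ 1 / p := by
  have h := FRc_core hp (u := j / p) (Nat.div_lt_of_lt_mul (by rwa [← sq])) (j % p)
    (Nat.mod_lt j (Fact.out : p.Prime).pos)
  rwa [Nat.div_add_mod] at h

end Vale.Agent.P030
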