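import Vale.Agent.P030.FRb
import Vale.Agent.P030.FRc

namespace Vale.Agent.P030

open Polynomial Finset

theorem frd_succ (p x i : ℕ) : aE p (x + 1) (i + 1) = aE p x i := by
  simp [aE]

theorem frd_high {p x i : ℕ} (hp : 1 ≤ p) (h : i + p ≤ x) : aE p x i = 0 := by
  rw [aE, if_pos (by omega), Ep_coeff_high hp (by omega)]

variable {p : ℕ} [Fact p.Prime]

theorem frd_inv {k : ℕ} (h : ¬ p ∣ k) : pn p (1 / (k : ℚ)) = 1 := by
  rw [pn_div, pn_one, pn_nat_of_not_dvd h, div_one]

theorem frd_pnu (hp : p ≠ 2) {k : ℕ} (hk : k < p ^ 2) : pn p (p * nu k) ≤ 1 := by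
  have h0 : (1 : ℝ) < p := by exact_mod_cast (Fact.out : p.Prime).one_lt
  have h1 : Nat.log p k ≤ 1 := Nat.lt_succ_iff.1 (Nat.log_lt_of_lt_pow' two_ne_zero hk)
  have h2 := (pn_nu hp (le_refl k)).trans (pow_le_pow_right₀ h0.le h1)
  rw [pn_mul, pn_p, one_div, inv_mul_le_iff₀ (by linarith)]
  simpa using h2

theorem frd_pM0 (hp : p ≠ 2) {i j : ℕ} (hi : i < p) (hj : j < p) : pn p (p * M0 i j) ≤ 1 / p := by
  have h := pn_M0 hp (T := p - 1) (i := i) (j := j) (by omega) (by omega)
  rw [Nat.log_of_lt (by omega), mul_zero, pow_zero] at h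
  simpa using pn_mul_le pn_p.le h

theorem fr_M0 (hp : p ≠ 2) {U i j : ℕ} (hU : U < p) (hi : i ≤ p * U) (hj : j ≤ p * U) :
    pn p ((p : ℚ) ^ 2 * M0 i j
      - ∑ u ∈ range (U + 1), (aE p (p * u + j % p) i : ℚ) * M0 u (j / p)) ≤ 1 / p := by
  have p0 : 0 < p := by omega
  have hlt : p * U < p ^ 2 := by rw [sq]; exact Nat.mul_lt_mul_of_pos_left hU p0
  induction j generalizing i with
  | zero => simpa only [Nat.zero_mod, Nat.zero_div, add_zero, M0_zero_right] using fr_mcol hp hU hi
  | succ j ih =>
    cases i with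
    | zero =>
      rw [sum_eq_single 0 (fun u _ hu => by
        rw [frd_high p0 (by have := Nat.mul_le_mul_left p (Nat.pos_of_ne_zero hu); omega)]
        simp) (by simp), M0_zero_left, M0_zero_left]
      simpa [aE] using fr_mrow hp (hj.trans_lt hlt)
    | succ i =>
      have h1 := ih (i := i) (by omega) (by omega)
      by_cases hd : p ∣ j + 1
      · obtain ⟨v, hv⟩ := hd
        obtain ⟨v, rfl⟩ : ∃ w, v = w + 1 := ⟨v - 1, by cases v <;> simp_all⟩
        have hv1 : v + 1 ≤ U := Nat.le_of_mul_le_mul_left (hv ▸ hj) p0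
        have e0 : j = p - 1 + p * v := by rw [mul_add] at hv; omega
        have e1 : j % p = p - 1 := by
          rw [e0, Nat.add_mul_mod_self_left, Nat.mod_eq_of_lt (by omega)]
        have e2 : j / p = v := by
          rw [e0, Nat.add_mul_div_left _ _ p0, Nat.div_eq_of_lt (by omega), zero_add]
        have e3 : ((j : ℚ) + 1) = p * (v + 1) := by exact_mod_cast hv
        have e4 : ∀ u, aE p (p * (u + 1) + 0) (i + 1) = aE p (p * u + (p - 1)) i := fun u => by
          rw [← frd_succ (i := i)]; congr 1; rw [mul_add]; omega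
        have e5 : ∑ u ∈ range U, (aE p (p * u + (p - 1)) i : ℚ) * nu u =
            ((Ep p).coeff (p - 1 - i % p) : ℚ) * nu (i / p) := by
          have a1 := Nat.div_add_mod i p
          have a2 := Nat.mod_lt i p0
          rw [sum_eq_single (i / p) (fun u _ hu => ?_) fun h => ?_]
          · rw [aE, if_pos (by omega)]; congr 3; omega
          · rcases lt_or_gt_of_ne hu with h | h
            · have := Nat.mul_le_mul_left p (Nat.succ_le_of_lt h)
              rw [aE, if_neg (by rw [Nat.mul_succ] at this; omega)]; simp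
            · have := Nat.mul_le_mul_left p (Nat.succ_le_of_lt h)
              rw [frd_high p0 (by rw [Nat.mul_succ] at this; omega)]; simp
          · exact absurd (mem_range.2 (Nat.div_lt_of_lt_mul (by omega))) h
        rw [e1, e2, sum_range_succ, frd_high p0 (by omega)] at h1
        rw [hv, Nat.mul_mod_right, Nat.mul_div_cancel_left _ p0, ← hv, sum_range_succ', M0_succ, e3]
        simp only [e4, M0_succ, mul_sub, sum_sub_distrib, ← mul_div_assoc, ← sum_div, e5]
        have h2 := pn_mul_le (fr_nu hp (k := i) (by omega)) (frd_inv (p := p) (k := v + 1)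
          (Nat.not_dvd_of_pos_of_lt (by omega) (by omega))).le
        rw [mul_one] at h2
        convert pn_sub_le h1 h2 using 2
        have : (p : ℚ) ≠ 0 := by positivity
        simp [aE]
        field_simp
        ring
      · have e1 : (j + 1) % p = j % p + 1 := by
          have a1 := Nat.mod_lt j p0
          rw [Nat.add_mod, Nat.mod_eq_of_lt (Fact.out : p.Prime).one_lt]
          refine Nat.mod_eq_of_lt (lt_of_le_of_ne a1 fun e => hd ?_)
          rw [← Nat.div_add_mod j p, add_assoc, e]
          exact dvd_add (dvd_mul_right _ _) dvd_rfl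
        rw [e1, Nat.succ_div_of_not_dvd hd, M0_succ]
        simp only [← add_assoc, frd_succ]
        have h2 := pn_mul_le (pn_mul_le pn_p.le (frd_pnu hp (k := i) (by omega))) (frd_inv hd).le
        rw [mul_one, mul_one] at h2
        convert pn_sub_le h1 h2 using 2
        push_cast
        ring

theorem frd_one (hp : 3 < p) {i j : ℕ} (hj : j < p) (hi : i < p + j) :
    pn p ((p : ℚ) * M0 i j
      - ∑ l ∈ range j, (2 * aE p (2 * p + l) i : ℚ) / ((l : ℚ) - j)) ≤ 1 / p := by
  induction j generalizing i with
  | zero => simpa using frd_pM0 (p := p) (by omega) hi hj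
  | succ j ih =>
    cases i with
    | zero =>
      rw [sum_eq_zero fun l _ => by rw [frd_high (by omega) (by omega)]; simp, sub_zero]
      exact frd_pM0 (by omega) (by omega) hj
    | succ i =>
      have h1 := ih (i := i) (by omega) (by omega)
      have h2 := fr_nu (p := p) (by omega) (k := i) (by nlinarith)
      have e : ((Ep p).coeff (p - 1 - i % p) : ℚ) * nu (i / p) = 2 * aE p (2 * p + 0) (i + 1) := by
        rcases lt_or_ge i p with h | h
        · rw [Nat.div_eq_of_lt h, frd_high (by omega) (by omega)]; simp [nu]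
        · rw [Nat.div_eq_of_lt_le (k := 1) (by omega) (by omega), Nat.mod_eq_sub_mod h,
            Nat.mod_eq_of_lt (by omega), aE, if_pos (by omega), nu, mul_comm]
          congr 3; omega
      have h3 := pn_mul_le h2 (frd_inv (p := p) (k := j + 1)
        (Nat.not_dvd_of_pos_of_lt (by omega) hj)).le
      rw [mul_one, e] at h3
      rw [sum_range_succ', M0_succ]
      simp only [← add_assoc, frd_succ]
      convert pn_sub_le h1 h3 using 2
      push_cast
      simp only [add_sub_add_right_eq_sub, zero_sub, div_neg]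
      ring

theorem fr_M0_one (hp : 3 < p) {R i j : ℕ} (hR : R ≤ j) (hj : j < p) (hi : i < p + R) :
    pn p ((p : ℚ) * M0 i j
      - ∑ l ∈ range R, (2 * aE p (2 * p + l) i : ℚ) / ((l : ℚ) - j)) ≤ 1 / p := by
  rw [sum_subset (range_subset_range.2 hR) fun l _ hl => by
    rw [frd_high (by omega) (by have := mem_range.not.1 hl; omega)]; simp]
  exact frd_one hp hj (by omega)

end Vale.Agent.P030
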