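import Vale.Agent.P030.Defs

namespace Vale.Agent.P030

open Polynomial Finset

theorem Gen_tele {𝕜 : Type*} [NormedField 𝕜] {b : ℕ → 𝕜} {S : 𝕜}
    (hb : Filter.Tendsto b Filter.atTop (nhds 0)) (h : HasSum (fun m => b m - b (m + 2)) S) :
    S = b 0 + b 1 := by
  have h1 := h.tendsto_sum_nat
  have h2 : ∀ n, ∑ m ∈ range n, (b m - b (m + 2)) = b 0 + b 1 - b n - b (n + 1) := by
    intro n
    induction n with
    | zero => simp
    | succ n ih => rw [sum_range_succ, ih]; ring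
  simp only [h2] at h1
  have h3 : Filter.Tendsto (fun n => b 0 + b 1 - b n - b (n + 1)) Filter.atTop
      (nhds (b 0 + b 1 - 0 - 0)) :=
    (tendsto_const_nhds.sub hb).sub ((Filter.tendsto_add_atTop_iff_nat 1).2 hb)
  simpa using tendsto_nhds_unique h1 h3

theorem Gen_nu {𝕜 : Type*} [NormedField 𝕜] [CharZero 𝕜] (k : ℕ) :
    ((nu (k + 2) : ℚ) : 𝕜) = ((nu k : ℚ) : 𝕜) * (k + 1) / (k + 2) := by
  rw [nu]; push_cast; rfl

theorem Gen_cZ_rec (d : ℕ) : ((d : ℚ) + 2) * cZ 0 (d + 2) = (d + 1) * cZ 0 d := by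
  unfold cZ
  rcases Nat.even_or_odd' d with ⟨l, rfl | rfl⟩
  · rw [if_pos (by omega), if_pos (by omega), show (2 * l + 2 - 0) / 2 = l + 1 by omega,
      show (2 * l - 0) / 2 = l by omega, cc]
    push_cast; field_simp
  · rw [if_neg (by omega), if_neg (by omega)]; simp

theorem Gen_cG_rec (d : ℕ) : ((d : ℚ) + 1) * cG (d + 2) 0 = d * cG d 0 := by
  unfold cG
  rcases Nat.even_or_odd' d with ⟨l, rfl | rfl⟩
  · rw [if_neg (by omega), if_neg (by omega)]; simp
  · rw [if_pos (by omega), if_pos (by omega), show (2 * l + 1 + 2 - 0) / 2 = l + 1 by omega,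
      show (2 * l + 1 - 0) / 2 = l by omega, cc]
    push_cast; field_simp; ring

theorem gen_decomp {𝕜 : Type*} [NormedField 𝕜] [CharZero 𝕜] (F : ℕ → ℕ → 𝕜)
    (hF : ∀ i j : ℕ, HasSum (fun m : ℕ => ((nu (i + m) : ℚ) : 𝕜) / ((j : 𝕜) + m + 1)) (F i j))
    (h0 : Filter.Tendsto (fun k : ℕ => ((nu k : ℚ) : 𝕜)) Filter.atTop (nhds 0)) (i j : ℕ) :
    F i j = ((M0 i j : ℚ) : 𝕜) + F 1 0 * ((cG i j : ℚ) : 𝕜) + F 0 0 * ((cZ i j : ℚ) : 𝕜) := by
  have hne : ∀ a : ℕ, (a : 𝕜) + 1 ≠ 0 := fun a => by exact_mod_cast Nat.succ_ne_zero a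
  have hne2 : ∀ a : ℕ, (a : 𝕜) + 2 ≠ 0 := fun a => by exact_mod_cast Nat.succ_ne_zero (a + 1)
  have hdiag : ∀ i j : ℕ, F (i + 1) (j + 1) = F i j - ((nu i : ℚ) : 𝕜) / (j + 1) := by
    intro i j
    have h1 := (hasSum_nat_add_iff' 1).2 (hF i j)
    have h2 := hF (i + 1) (j + 1)
    simp only [range_one, sum_singleton, add_zero, Nat.cast_zero] at h1
    refine h2.unique (h1.congr_fun ?_)
    intro m
    rw [show i + 1 + m = i + (m + 1) by ring]; push_cast; ring_nf
  have hcol : ∀ i : ℕ, ((i : 𝕜) + 1) * F (i + 2) 0 =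
      i * F i 0 + ((nu i : ℚ) : 𝕜) + ((nu (i + 1) : ℚ) : 𝕜) := by
    intro i
    have h1 := ((hF (i + 2) 0).mul_left ((i : 𝕜) + 1)).sub ((hF i 0).mul_left (i : 𝕜))
    have h2 := Gen_tele (b := fun m => ((nu (i + m) : ℚ) : 𝕜))
      (by simpa only [add_comm i] using (Filter.tendsto_add_atTop_iff_nat i).2 h0)
      (h1.congr_fun (fun m => by
        rw [show i + 2 + m = i + m + 2 by ring, ← add_assoc, Gen_nu]
        have a := hne m
        have b := hne2 (i + m)
        push_cast at a b ⊢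
        simp only [zero_add]
        field_simp
        ring))
    simp only [add_zero] at h2
    linear_combination h2
  have hrow : ∀ j : ℕ, ((j : 𝕜) + 2) * F 0 (j + 2) = (j + 1) * F 0 j + 2 / (j + 2) := by
    intro j
    have h1 := ((hF 0 (j + 2)).mul_left ((j : 𝕜) + 2)).sub ((hF 0 j).mul_left ((j : 𝕜) + 1))
    have h3 := (hF 0 j).summable.tendsto_atTop_zero
    simp only [zero_add] at h1 h3
    have h2 := Gen_tele
      (b := fun m => ((nu m : ℚ) : 𝕜) - (j + 1) * (((nu m : ℚ) : 𝕜) / ((j : 𝕜) + m + 1)))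
      (by simpa using h0.sub (h3.const_mul ((j : 𝕜) + 1)))
      (h1.congr_fun (fun m => by
        rw [Gen_nu]
        have a := hne (j + m)
        have b := hne2 m
        have c := hne (j + m + 2)
        push_cast at a b c ⊢
        rw [show (j : 𝕜) + (m + 2) + 1 = j + m + 2 + 1 by ring,
          show (j : 𝕜) + 2 + m + 1 = j + m + 2 + 1 by ring]
        field_simp
        ring))
    have a := hne2 j
    simp only [nu, Rat.cast_zero, Rat.cast_ofNat, Nat.cast_one] at h2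
    rw [show (j : 𝕜) + 1 + 1 = j + 2 by ring] at h2
    have e : (2 : 𝕜) - (j + 1) * (2 / (j + 2)) = 2 / (j + 2) := by field_simp; ring
    linear_combination h2 + e
  have hrow1 : F 0 1 = 2 := by
    have h2 := Gen_tele (b := fun m => ((nu m : ℚ) : 𝕜)) h0 ((hF 0 1).congr_fun (fun m => by
      rw [Gen_nu]
      have b := hne2 m
      simp only [zero_add, Nat.cast_one]
      rw [show (1 : 𝕜) + m + 1 = m + 2 by ring]
      field_simp
      ring))
    simpa [nu] using h2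
  have hC : ∀ i : ℕ, F i 0 = ((mcol i : ℚ) : 𝕜) + F 1 0 * ((cG i 0 : ℚ) : 𝕜) +
      F 0 0 * ((cZ i 0 : ℚ) : 𝕜) := by
    intro i
    induction i using Nat.twoStepInduction with
    | zero => simp [mcol, cG, cZ, cc]
    | one => simp [mcol, cG, cZ, cc]
    | more i h1 _ =>
      apply mul_left_cancel₀ (hne i)
      have e1 : ((i : 𝕜) + 1) * ((cG (i + 2) 0 : ℚ) : 𝕜) = i * ((cG i 0 : ℚ) : 𝕜) := by
        exact_mod_cast congrArg (fun x : ℚ => (x : 𝕜)) (Gen_cG_rec i)
      have e2 : cZ (i + 2) 0 = 0 := by simp [cZ]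
      have e3 : (i : 𝕜) * ((cZ i 0 : ℚ) : 𝕜) = 0 := by
        rcases i with _ | i <;> simp [cZ]
      have e4 : ((i : 𝕜) + 1) * ((mcol (i + 2) : ℚ) : 𝕜) =
          i * ((mcol i : ℚ) : 𝕜) + ((nu i : ℚ) : 𝕜) + ((nu (i + 1) : ℚ) : 𝕜) := by
        have a := hne i
        rw [mcol]; push_cast; field_simp
      rw [hcol, h1, e2]
      linear_combination F 0 0 * e3 - F 1 0 * e1 - e4
  have hR : ∀ j : ℕ, F 0 j = ((mrow j : ℚ) : 𝕜) + F 0 0 * ((cZ 0 j : ℚ) : 𝕜) := by
    intro j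
    induction j using Nat.twoStepInduction with
    | zero => simp [mrow, cZ, cc]
    | one => simp [mrow, cZ, hrow1]
    | more j h1 _ =>
      apply mul_left_cancel₀ (hne2 j)
      have e1 : ((j : 𝕜) + 2) * ((cZ 0 (j + 2) : ℚ) : 𝕜) = (j + 1) * ((cZ 0 j : ℚ) : 𝕜) := by
        exact_mod_cast congrArg (fun x : ℚ => (x : 𝕜)) (Gen_cZ_rec j)
      have e4 : ((j : 𝕜) + 2) * ((mrow (j + 2) : ℚ) : 𝕜) =
          (j + 1) * ((mrow j : ℚ) : 𝕜) + 2 / (j + 2) := by
        have a := hne2 j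
        rw [mrow]; push_cast; field_simp
      rw [hrow, h1]
      linear_combination -F 0 0 * e1 - e4
  induction i generalizing j with
  | zero =>
    have e : M0 0 j = mrow j := by rcases j with _ | j <;> simp [M0, mcol, mrow]
    rw [e, show cG 0 j = 0 by simp [cG]]
    simpa using hR j
  | succ i ih =>
    rcases j with _ | j
    · rw [show M0 (i + 1) 0 = mcol (i + 1) by rw [M0]]; exact hC _
    · have e1 : cG (i + 1) (j + 1) = cG i j := by simp [cG]
      have e2 : cZ (i + 1) (j + 1) = cZ i j := by simp [cZ]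
      rw [hdiag, ih, e1, e2, M0]
      push_cast; ring

end Vale.Agent.P030
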