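import Vale.Agent.P030.Defs

namespace Vale.Agent.P030

open Polynomial Finset

variable {K : Type*} [NormedField K] [IsUltrametricDist K]

theorem LA_sum_le {ι : Type*} (s : Finset ι) (f : ι → K) {c : ℝ} (hc : 0 ≤ c)
    (h : ∀ i ∈ s, ‖f i‖ ≤ c) : ‖∑ i ∈ s, f i‖ ≤ c := by
  classical
  induction s using Finset.induction_on with
  | empty => simpa using hc
  | insert a s ha ih =>
    rw [Finset.sum_insert ha]
    exact (IsUltrametricDist.norm_add_le_max _ _).trans
      (max_le (h a (mem_insert_self _ _)) (ih fun i hi => h i (mem_insert_of_mem hi)))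

theorem la_det_le {n : Type*} [Fintype n] [DecidableEq n] (A : Matrix n n K) (u v : n → ℝ)
    (hu : ∀ r, 0 ≤ u r) (hv : ∀ k, 0 ≤ v k) (h : ∀ r k, ‖A r k‖ ≤ u r * v k) :
    ‖A.det‖ ≤ (∏ r, u r) * ∏ k, v k := by
  rw [Matrix.det_apply']
  refine LA_sum_le _ _ (mul_nonneg (prod_nonneg fun r _ => hu r) (prod_nonneg fun r _ => hv r))
    fun σ _ => ?_
  have h1 : ‖((Equiv.Perm.sign σ : ℤ) : K)‖ = 1 := by
    rcases Int.units_eq_one_or (Equiv.Perm.sign σ) with e | e <;> simp [e]
  rw [norm_mul, h1, one_mul, norm_prod, ← Equiv.prod_comp σ u, ← prod_mul_distrib]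
  exact prod_le_prod (fun i _ => norm_nonneg _) fun i _ => h _ _

theorem LA_expand {R n J : Type*} [CommRing R] [Fintype n] [DecidableEq n] [Fintype J]
    [DecidableEq J] (A : Matrix n J R) (B : Matrix J n R) :
    (A * B).det = ∑ f : n → J, (A.submatrix id f).det * ∏ k, B (f k) k := by
  simp only [Matrix.det_apply', Matrix.mul_apply, prod_univ_sum, mul_sum, Fintype.piFinset_univ,
    Matrix.submatrix_apply, id]
  rw [Finset.sum_comm]
  refine Finset.sum_congr rfl fun f _ => ?_
  rw [Finset.sum_mul]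
  refine Finset.sum_congr rfl fun σ _ => ?_
  rw [prod_mul_distrib, mul_assoc]

theorem la_cb {n J : Type*} [Fintype n] [DecidableEq n] [Fintype J] [DecidableEq J]
    (A : Matrix n J K) (B : Matrix J n K) (c : ℝ) (hc : 0 ≤ c)
    (h : ∀ f : n → J, Function.Injective f →
      ‖(A.submatrix id f).det‖ * ∏ k, ‖B (f k) k‖ ≤ c) : ‖(A * B).det‖ ≤ c := by
  rw [LA_expand]
  refine LA_sum_le _ _ hc fun f _ => ?_
  by_cases hf : Function.Injective f
  · rw [norm_mul, norm_prod]
    exact h f hf
  · obtain ⟨i, j, hij, hne⟩ := Function.not_injective_iff.mp hf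
    rw [Matrix.det_zero_of_column_eq hne (fun k => by simp [hij])]
    simpa using hc

theorem la_cb' {n J : Type*} [Fintype n] [DecidableEq n] [Fintype J] [DecidableEq J]
    (A : Matrix n J K) (B : Matrix J n K) (c : ℝ) (hc : 0 ≤ c)
    (h : ∀ f : n → J, Function.Injective f →
      (∏ r, ‖A r (f r)‖) * ‖(B.submatrix f id).det‖ ≤ c) : ‖(A * B).det‖ ≤ c := by
  rw [← Matrix.det_transpose, Matrix.transpose_mul]
  refine la_cb _ _ c hc fun f hf => ?_
  have e : (B.transpose.submatrix id f).det = (B.submatrix f id).det := by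
    rw [← Matrix.det_transpose]
    rfl
  rw [e, mul_comm]
  exact h f hf

theorem la_rank {n ι : Type*} [Fintype n] [DecidableEq n] [Fintype ι] [DecidableEq ι]
    (M : Matrix n n K) (U : Matrix n ι K) (V : Matrix ι n K) (x : K) (hx : 1 ≤ ‖x‖)
    (hM : ∀ r k, ‖M r k‖ ≤ 1) (hU : ∀ r l, ‖U r l‖ ≤ 1) (hV : ∀ l k, ‖V l k‖ ≤ 1) :
    ‖(M + x • (U * V)).det‖ ≤ ‖x‖ ^ Fintype.card ι := by
  have e : M + x • (U * V) =
      Matrix.fromCols M U * Matrix.fromRows (1 : Matrix n n K) (x • V) := by
    rw [Matrix.fromCols_mul_fromRows, Matrix.mul_one, Matrix.mul_smul]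
  rw [e]
  refine la_cb _ _ _ (by positivity) fun f hf => ?_
  have h1 : ‖((Matrix.fromCols M U).submatrix id f).det‖ ≤ 1 := by
    have := la_det_le ((Matrix.fromCols M U).submatrix id f) (fun _ => 1) (fun _ => 1)
      (fun _ => zero_le_one) (fun _ => zero_le_one) fun r k => by
        simp only [Matrix.submatrix_apply, id, mul_one]
        rcases f k with a | a
        · simpa using hM r a
        · simpa using hU r a
    simpa using this
  let w : n ⊕ ι → ℝ := Sum.elim (fun _ => 1) fun _ => ‖x‖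
  have hw : ∀ j, 1 ≤ w j := fun j => by
    rcases j with a | a
    · simp [w]
    · simpa [w] using hx
  have h2 : ∏ k, ‖(Matrix.fromRows (1 : Matrix n n K) (x • V)) (f k) k‖ ≤ ∏ k, w (f k) := by
    refine prod_le_prod (fun _ _ => norm_nonneg _) fun k _ => ?_
    rcases f k with a | a
    · simp only [Matrix.fromRows_apply_inl, w, Sum.elim_inl, Matrix.one_apply]
      split_ifs <;> simp
    · simp only [Matrix.fromRows_apply_inr, w, Sum.elim_inr, Matrix.smul_apply, smul_eq_mul,
        norm_mul]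
      exact mul_le_of_le_one_right (norm_nonneg _) (hV _ _)
  have h3 : ∏ k, w (f k) ≤ ∏ j, w j := by
    rw [← Finset.prod_image (s := univ) (g := f) (f := w) fun a _ b _ hab => hf hab]
    exact Finset.prod_le_prod_of_subset_of_one_le (subset_univ _)
      (fun j _ => zero_le_one.trans (hw j)) fun j _ _ => hw j
  have h4 : ∏ j, w j = ‖x‖ ^ Fintype.card ι := by
    rw [Fintype.prod_sum_type]
    simp [w]
  calc _ ≤ 1 * ∏ k, w (f k) :=
        mul_le_mul h1 h2 (prod_nonneg fun _ _ => norm_nonneg _) zero_le_one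
    _ ≤ _ := by rw [one_mul, ← h4]; exact h3

end Vale.Agent.P030
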