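import Vale.Agent.P030.Rows

namespace Vale.Agent.P030

open Polynomial Finset

section Quad

variable {S Q : Type*} [CommRing S] [CommRing Q]

/-- `t^c * ((1 - f) / t)^m` written without division. -/
noncomputable def NVa_W (t f : Q) (c : ℕ) (m : ℤ) : Q := aeval t (al c m) - f * aeval t (de c m)

theorem NVa_W_nat {t f : Q} (h : f ^ 2 = 1 - t ^ 2) (c n : ℕ) :
    NVa_W t f c n = t ^ (c - n) * (1 - f) ^ n := by
  rw [← tau_ups_eval t f h]
  unfold NVa_W al de
  cases n with
  | zero => simp [ups]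
  | succ n =>
    rw [Int.sign_natCast_of_ne_zero (Nat.succ_ne_zero n), Int.natAbs_natCast]
    simp only [map_mul, map_pow, aeval_X, map_one]
    ring

theorem NVa_W_neg {t f : Q} (h : f ^ 2 = 1 - t ^ 2) (c n : ℕ) :
    NVa_W t f c (-n) = t ^ (c - n) * (1 + f) ^ n := by
  have h' : (-f) ^ 2 = 1 - t ^ 2 := by rw [neg_sq, h]
  rw [← sub_neg_eq_add, ← tau_ups_eval t (-f) h']
  unfold NVa_W al de
  cases n with
  | zero => simp [ups]
  | succ n =>
    rw [Int.sign_neg, Int.sign_natCast_of_ne_zero (Nat.succ_ne_zero n), Int.natAbs_neg,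
      Int.natAbs_natCast]
    simp only [map_mul, map_pow, aeval_X, map_one, map_neg]
    ring

theorem NVa_W_step {t f : Q} (h : f ^ 2 = 1 - t ^ 2) (c : ℕ) (m : ℤ) (h1 : -(c : ℤ) ≤ m)
    (h2 : m + 1 ≤ c) : t * NVa_W t f c (m + 1) = NVa_W t f c m * (1 - f) := by
  rcases le_or_gt 0 m with hm | hm
  · obtain ⟨n, rfl⟩ := Int.eq_ofNat_of_zero_le hm
    obtain ⟨k, rfl⟩ : ∃ k, c = n + 1 + k := ⟨c - (n + 1), by omega⟩
    rw [show (n : ℤ) + 1 = ((n + 1 : ℕ) : ℤ) by push_cast; ring, NVa_W_nat h, NVa_W_nat h,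
      show n + 1 + k - (n + 1) = k by omega, show n + 1 + k - n = k + 1 by omega]
    ring
  · obtain ⟨n, rfl⟩ : ∃ n : ℕ, m = -((n + 1 : ℕ) : ℤ) := ⟨(-m - 1).toNat, by push_cast; omega⟩
    obtain ⟨k, rfl⟩ : ∃ k, c = n + 1 + k := ⟨c - (n + 1), by omega⟩
    rw [show -((n + 1 : ℕ) : ℤ) + 1 = -(n : ℤ) by push_cast; ring, NVa_W_neg h, NVa_W_neg h,
      show n + 1 + k - (n + 1) = k by omega, show n + 1 + k - n = k + 1 by omega]
    linear_combination (t ^ k * (1 + f) ^ n) * h

theorem NVa_W_iter {t f : Q} (h : f ^ 2 = 1 - t ^ 2) (c : ℕ) (m : ℤ) (h1 : -(c : ℤ) ≤ m)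
    (r : ℕ) (h2 : m + r ≤ c) : t ^ r * NVa_W t f c (m + r) = NVa_W t f c m * (1 - f) ^ r := by
  induction r with
  | zero => simp
  | succ r ih =>
    push_cast at h2 ⊢
    rw [← add_assoc, pow_succ, mul_assoc, NVa_W_step h c (m + r) (by omega) (by omega),
      ← mul_assoc, ih (by omega)]
    ring

theorem NVa_W_frob {t f : Q} (h : f ^ 2 = 1 - t ^ 2) (c p : ℕ) (m : ℤ) :
    NVa_W t f (c * p) (p * m) = NVa_W t f c m ^ p := by
  obtain ⟨n, rfl | rfl⟩ := Int.eq_nat_or_neg m
  · rw [show (p : ℤ) * n = ((n * p : ℕ) : ℤ) by push_cast; ring, NVa_W_nat h, NVa_W_nat h,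
      ← Nat.sub_mul, mul_pow, pow_mul, pow_mul]
  · rw [show (p : ℤ) * -n = -((n * p : ℕ) : ℤ) by push_cast; ring, NVa_W_neg h, NVa_W_neg h,
      ← Nat.sub_mul, mul_pow, pow_mul, pow_mul]

theorem NVa_inj {d : S} {x y x' y' : S}
    (h : algebraMap S (QuadraticAlgebra S d 0) x - QuadraticAlgebra.omega * algebraMap S _ y
      = algebraMap S (QuadraticAlgebra S d 0) x' - QuadraticAlgebra.omega * algebraMap S _ y') :
    x = x' ∧ y = y' := by
  have h1 := congrArg QuadraticAlgebra.re h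
  have h2 := congrArg QuadraticAlgebra.im h
  simp at h1 h2
  exact ⟨h1, h2⟩

theorem NVa_aeval {F : Type*} [CommRing F] (g : F[X] →+* Q) (q : ℤ[X]) :
    aeval (g X) q = g (q.map (Int.castRingHom F)) := by
  induction q using Polynomial.induction_on' with
  | add a b ha hb => simp [ha, hb]
  | monomial n a => simp [← C_mul_X_pow_eq_monomial]

end Quad

theorem NVa_core (p : ℕ) [Fact p.Prime] (hp : p ≠ 2) (r0 : ℕ) (hr : r0 < p) (m : ℤ)
    (h1 : -47 ≤ m) (h2 : m + 1 ≤ 47) (a : (ZMod p)[X])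
    (ha : (1 - X ^ 2) ^ ((p - 1) / 2) * (tau r0).map (Int.castRingHom (ZMod p))
      - (ups r0).map (Int.castRingHom (ZMod p)) = X ^ r0 * a) :
    (1 - X ^ 2) ^ ((p - 1) / 2) * (al (47 * p) (p * m + r0)).map (Int.castRingHom (ZMod p))
      = a * (al 47 m).map (Int.castRingHom (ZMod p)) ^ p
        + X ^ (p - r0) * (ups r0).map (Int.castRingHom (ZMod p))
          * (al 47 (m + 1)).map (Int.castRingHom (ZMod p)) ^ p ∧
    (de (47 * p) (p * m + r0)).map (Int.castRingHom (ZMod p))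
      = a * (de 47 m).map (Int.castRingHom (ZMod p)) ^ p
        + X ^ (p - r0) * (ups r0).map (Int.castRingHom (ZMod p))
          * (de 47 (m + 1)).map (Int.castRingHom (ZMod p)) ^ p := by
  have hodd : p = 2 * ((p - 1) / 2) + 1 := by
    have := (Fact.out : p.Prime).eq_two_or_odd
    omega
  let Q := QuadraticAlgebra (ZMod p)[X] (1 - X ^ 2) 0
  let g : (ZMod p)[X] →+* Q := algebraMap _ _
  let f : Q := QuadraticAlgebra.omega
  haveI : CharP Q p := charP_of_injective_algebraMap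
    (QuadraticAlgebra.algebraMap_injective (R := (ZMod p)[X]) (a := 1 - X ^ 2) (b := 0)) p
  have hf : f ^ 2 = 1 - g X ^ 2 := by
    rw [sq, QuadraticAlgebra.omega_mul_omega_eq_mk, ← map_pow, ← map_one g, ← map_sub]
    rfl
  set E : (ZMod p)[X] := (1 - X ^ 2) ^ ((p - 1) / 2) with hE
  have hE0 : E ≠ 0 := by
    refine pow_ne_zero _ fun h => ?_
    have := congrArg (fun q => q.coeff 0) h
    simp at this
  have hfp : f ^ p = f * g E := by
    rw [hE, map_pow, map_sub, map_one, map_pow, ← hf, ← pow_mul, ← pow_succ', ← hodd]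
  have hW : ∀ c k, NVa_W (g X) f c k = g ((al c k).map (Int.castRingHom (ZMod p)))
      - f * g ((de c k).map (Int.castRingHom (ZMod p))) := fun c k => by
    rw [NVa_W, NVa_aeval, NVa_aeval]
  have e1 := NVa_W_iter hf (47 * p) (p * m) (by push_cast; nlinarith) r0
    (by push_cast; nlinarith)
  have e2 := congrArg (· ^ p) (NVa_W_step hf 47 m (by omega) (by omega))
  have e3 := tau_ups_eval (g X) f hf r0
  rw [NVa_W_frob hf] at e1
  simp only [mul_pow] at e2
  rw [sub_pow_char 1 f, one_pow, hfp] at e2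
  rw [NVa_aeval, NVa_aeval] at e3
  rw [← e3] at e1
  have e4 := congrArg g ha
  have e5 : g X ^ p = g X ^ r0 * g X ^ (p - r0) := by rw [← pow_add]; congr 1; omega
  rw [hW, hW, sub_pow_char, mul_pow, hfp] at e1
  rw [hW, hW, sub_pow_char, sub_pow_char, mul_pow, mul_pow, hfp, e5] at e2
  simp only [map_sub, map_mul, map_pow] at e4
  have key := @NVa_inj (ZMod p)[X] _ (1 - X ^ 2)
    (X ^ r0 * (E * (al (47 * p) (p * m + r0)).map (Int.castRingHom (ZMod p))))
    (X ^ r0 * (E * (de (47 * p) (p * m + r0)).map (Int.castRingHom (ZMod p))))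
    (X ^ r0 * (a * (al 47 m).map (Int.castRingHom (ZMod p)) ^ p
        + X ^ (p - r0) * (ups r0).map (Int.castRingHom (ZMod p))
          * (al 47 (m + 1)).map (Int.castRingHom (ZMod p)) ^ p))
    (X ^ r0 * (E * (a * (de 47 m).map (Int.castRingHom (ZMod p)) ^ p
        + X ^ (p - r0) * (ups r0).map (Int.castRingHom (ZMod p))
          * (de 47 (m + 1)).map (Int.castRingHom (ZMod p)) ^ p))) (by
      change g _ - f * g _ = g _ - f * g _
      simp only [map_mul, map_add, map_pow]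
      linear_combination g E * e1 - g ((ups r0).map (Int.castRingHom (ZMod p))) * e2
        + (g ((al 47 m).map (Int.castRingHom (ZMod p))) ^ p
          - f * g E * g ((de 47 m).map (Int.castRingHom (ZMod p))) ^ p) * e4)
  have hX : (X : (ZMod p)[X]) ^ r0 ≠ 0 := pow_ne_zero _ X_ne_zero
  exact ⟨mul_left_cancel₀ hX key.1, mul_left_cancel₀ hE0 (mul_left_cancel₀ hX key.2)⟩

theorem NVa_dvd (p : ℕ) [Fact p.Prime] (hp : p ≠ 2) (r0 : ℕ) (hr : r0 < p) :
    (X : (ZMod p)[X]) ^ r0 ∣ (1 - X ^ 2) ^ ((p - 1) / 2) * (tau r0).map (Int.castRingHom (ZMod p))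
      - (ups r0).map (Int.castRingHom (ZMod p)) := by
  have hodd : p = 2 * ((p - 1) / 2) + 1 := by
    have := (Fact.out : p.Prime).eq_two_or_odd
    omega
  cases r0 with
  | zero => simp
  | succ r =>
    set E : (ZMod p)[X] := (1 - X ^ 2) ^ ((p - 1) / 2) with hE
    set T := (tau (r + 1)).map (Int.castRingHom (ZMod p)) with hT
    set U := (ups (r + 1)).map (Int.castRingHom (ZMod p)) with hU
    have h1 : T ^ 2 - (1 - X ^ 2) * U ^ 2 = X ^ (2 * (r + 1)) := by
      have := congrArg (Polynomial.map (Int.castRingHom (ZMod p))) (tau_sq (r + 1))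
      simpa using this
    have h2 : E ^ 2 * (1 - X ^ 2) = 1 - X ^ (2 * p) := by
      rw [hE, ← pow_mul, ← pow_succ, mul_comm _ 2, ← hodd, sub_pow_char, one_pow, ← pow_mul]
    have h3 : (X : (ZMod p)[X]) ^ (r + 1) ∣ (E * T - U) * ((E * T + U) * (1 - X ^ 2)) := by
      have : (E * T - U) * ((E * T + U) * (1 - X ^ 2))
          = X ^ (2 * (r + 1)) - X ^ (2 * p) * T ^ 2 := by
        linear_combination h1 + T ^ 2 * h2
      rw [this]
      exact dvd_sub (pow_dvd_pow _ (by omega)) ((pow_dvd_pow _ (by omega)).mul_right _)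
    refine IsCoprime.dvd_of_dvd_mul_right (IsCoprime.pow_left ?_) h3
    rw [prime_X.coprime_iff_not_dvd, X_dvd_iff]
    have h2' : (2 : ZMod p) ≠ 0 := by
      have : ((2 : ℕ) : ZMod p) ≠ 0 := by
        rw [Ne, ZMod.natCast_eq_zero_iff]
        exact fun h => hp ((Nat.prime_dvd_prime_iff_eq (Fact.out : p.Prime) Nat.prime_two).mp h)
      exact_mod_cast this
    have hE0 : E.coeff 0 = 1 := by
      rw [hE, coeff_zero_eq_eval_zero]
      simp
    have : ((E * T + U) * (1 - X ^ 2)).coeff 0 = 2 ^ (r + 1) := by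
      simp only [mul_coeff_zero, coeff_add, hE0, hT, hU, coeff_map, tau_coeff_zero, ups_coeff_zero]
      simp
      ring
    rw [this]
    exact pow_ne_zero _ h2'

/-- Frobenius splitting of the rows and columns at `N = p`. -/
theorem nv_rows (p : ℕ) [Fact p.Prime] (hp : p ≠ 2) : ∃ a b : ℕ → (ZMod p)[X],
    (∀ r0, r0 < p → (a r0).natDegree < p ∧ (b r0).natDegree < p) ∧
    a 0 = (1 - X ^ 2) ^ ((p - 1) / 2) ∧ b 0 = 0 ∧
    (∀ r0, 1 ≤ r0 → r0 < p → X ^ (p - r0) ∣ b r0 ∧ (b r0).coeff (p - r0) ≠ 0) ∧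
    (∀ r0, r0 < p → (1 - X) ^ ((p - 1) / 2) ∣ a r0 + b r0 ∧ (1 + X) ^ ((p - 1) / 2) ∣ a r0 - b r0) ∧
    (∀ r0 r1, r0 < p → r1 < 36 →
      (Ep p * rowA p (p * r1 + r0)).map (Int.castRingHom (ZMod p))
        = a r0 * expand (ZMod p) p ((rowA 1 r1).map (Int.castRingHom (ZMod p)))
          + b r0 * expand (ZMod p) p ((rowA 1 (r1 + 1)).map (Int.castRingHom (ZMod p))) ∧
      (rowD p (p * r1 + r0)).map (Int.castRingHom (ZMod p))
        = a r0 * expand (ZMod p) p ((rowD 1 r1).map (Int.castRingHom (ZMod p)))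
          + b r0 * expand (ZMod p) p ((rowD 1 (r1 + 1)).map (Int.castRingHom (ZMod p)))) := by
  have hodd : p = 2 * ((p - 1) / 2) + 1 := by
    have := (Fact.out : p.Prime).eq_two_or_odd
    omega
  have h2' : (2 : ZMod p) ≠ 0 := by
    have : ((2 : ℕ) : ZMod p) ≠ 0 := by
      rw [Ne, ZMod.natCast_eq_zero_iff]
      exact fun h => hp ((Nat.prime_dvd_prime_iff_eq (Fact.out : p.Prime) Nat.prime_two).mp h)
    exact_mod_cast this
  have hex : ∀ r0 : ℕ, ∃ a : (ZMod p)[X], r0 < p →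
      (1 - X ^ 2) ^ ((p - 1) / 2) * (tau r0).map (Int.castRingHom (ZMod p))
        - (ups r0).map (Int.castRingHom (ZMod p)) = X ^ r0 * a := fun r0 => by
    by_cases hr : r0 < p
    · obtain ⟨a, ha⟩ := NVa_dvd p hp r0 hr
      exact ⟨a, fun _ => ha⟩
    · exact ⟨0, fun h => absurd h hr⟩
  choose a ha using hex
  have hT : ∀ r, ((tau r).map (Int.castRingHom (ZMod p))).natDegree ≤ r := fun r =>
    natDegree_le_iff_coeff_eq_zero.mpr fun i hi => by simp [tau_coeff_eq_zero hi]
  have hU : ∀ r, ((ups r).map (Int.castRingHom (ZMod p))).natDegree ≤ r - 1 := fun r =>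
    natDegree_le_iff_coeff_eq_zero.mpr fun i hi => by
      simp [ups_coeff_eq_zero (show r ≤ i by omega)]
  have hE : ((1 - X ^ 2 : (ZMod p)[X]) ^ ((p - 1) / 2)).natDegree ≤ p - 1 := by
    have h1 : (1 - X ^ 2 : (ZMod p)[X]).natDegree ≤ 2 := by compute_degree
    refine natDegree_pow_le.trans ((Nat.mul_le_mul_left _ h1).trans ?_)
    omega
  refine ⟨a, fun r0 => X ^ (p - r0) * (ups r0).map (Int.castRingHom (ZMod p)), ?_, ?_, ?_, ?_,
    ?_, ?_⟩
  · intro r0 hr
    constructor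
    · have h1 : (X ^ r0 * a r0).natDegree ≤ p - 1 + r0 := by
        rw [← ha r0 hr]
        refine (natDegree_sub_le _ _).trans (max_le ?_ ((hU r0).trans (by omega)))
        exact natDegree_mul_le.trans (add_le_add hE (hT r0))
      by_cases h0 : a r0 = 0
      · rw [h0, natDegree_zero]; omega
      · rw [natDegree_X_pow_mul _ h0] at h1
        omega
    · cases r0 with
      | zero => simp [ups]; omega
      | succ r =>
        have := hU (r + 1)
        refine lt_of_le_of_lt (natDegree_mul_le.trans (add_le_add (natDegree_X_pow_le _) this)) ?_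
        omega
  · have := ha 0 (by omega)
    simpa [tau, ups] using this.symm
  · simp [ups]
  · intro r0 h1 hr
    refine ⟨dvd_mul_right _ _, ?_⟩
    obtain ⟨r, rfl⟩ : ∃ r, r0 = r + 1 := ⟨r0 - 1, by omega⟩
    have := coeff_X_pow_mul ((ups (r + 1)).map (Int.castRingHom (ZMod p))) (p - (r + 1)) 0
    rw [zero_add] at this
    simp only [this, coeff_map, ups_coeff_zero]
    simpa using fun h => absurd h h2'
  · intro r0 hr
    have e5 : (X : (ZMod p)[X]) ^ p = X ^ r0 * X ^ (p - r0) := by rw [← pow_add]; congr 1; omega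
    have hh : (p - 1) / 2 ≤ p := by omega
    have hsplit : ((1 - X ^ 2 : (ZMod p)[X]) ^ ((p - 1) / 2))
        = (1 - X) ^ ((p - 1) / 2) * (1 + X) ^ ((p - 1) / 2) := by
      rw [← mul_pow]; congr 1; ring
    constructor
    · have hc : IsCoprime ((1 - X : (ZMod p)[X]) ^ ((p - 1) / 2)) (X ^ r0) :=
        IsCoprime.pow ⟨1, 1, by ring⟩
      refine hc.dvd_of_dvd_mul_left ?_
      have : X ^ r0 * (a r0 + X ^ (p - r0) * (ups r0).map (Int.castRingHom (ZMod p)))
          = (1 - X ^ 2) ^ ((p - 1) / 2) * (tau r0).map (Int.castRingHom (ZMod p))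
            - (1 - X) ^ p * (ups r0).map (Int.castRingHom (ZMod p)) := by
        rw [sub_pow_char 1 X, one_pow, e5]
        linear_combination (-1) * ha r0 hr
      rw [this, hsplit, mul_assoc]
      exact dvd_sub (dvd_mul_right _ _) ((pow_dvd_pow _ hh).mul_right _)
    · have hc : IsCoprime ((1 + X : (ZMod p)[X]) ^ ((p - 1) / 2)) (X ^ r0) :=
        IsCoprime.pow ⟨1, -1, by ring⟩
      refine hc.dvd_of_dvd_mul_left ?_
      have : X ^ r0 * (a r0 - X ^ (p - r0) * (ups r0).map (Int.castRingHom (ZMod p)))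
          = (1 - X ^ 2) ^ ((p - 1) / 2) * (tau r0).map (Int.castRingHom (ZMod p))
            - (1 + X) ^ p * (ups r0).map (Int.castRingHom (ZMod p)) := by
        rw [add_pow_char 1 X, one_pow, e5]
        linear_combination (-1) * ha r0 hr
      rw [this, hsplit, mul_comm ((1 - X) ^ _), mul_assoc]
      exact dvd_sub (dvd_mul_right _ _) ((pow_dvd_pow _ hh).mul_right _)
  · intro r0 r1 hr hr1
    obtain ⟨c1, c2⟩ := NVa_core p hp r0 hr ((r1 : ℤ) - 3) (by omega) (by omega) (a r0) (ha r0 hr)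
    have i1 : ((p * r1 + r0 : ℕ) : ℤ) - 3 * p = p * ((r1 : ℤ) - 3) + r0 := by push_cast; ring
    have i2 : ((r1 + 1 : ℕ) : ℤ) - 3 * (1 : ℕ) = (r1 : ℤ) - 3 + 1 := by push_cast; ring
    have i3 : (r1 : ℤ) - 3 * (1 : ℕ) = (r1 : ℤ) - 3 := by push_cast; ring
    simp only [ZMod.expand_card, rowA, rowD, Ep, i1, i2, i3, mul_one, Polynomial.map_mul,
      Polynomial.map_pow, Polynomial.map_sub, Polynomial.map_one, Polynomial.map_X, mul_pow,
      ← pow_mul]
    constructor
    · linear_combination (1 - X) ^ (2 * p) * c1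
    · linear_combination (1 - X) ^ (2 * p) * c2

theorem nv_col (p : ℕ) [Fact p.Prime] (k1 l : ℕ) :
    (col p (p * k1 + l)).map (Int.castRingHom (ZMod p))
      = X ^ l * expand (ZMod p) p ((col 1 k1).map (Int.castRingHom (ZMod p))) := by
  simp only [ZMod.expand_card, col, mul_one, Polynomial.map_mul,
    Polynomial.map_pow, Polynomial.map_sub, Polynomial.map_one, Polynomial.map_X, mul_pow,
    ← pow_mul]
  ring

theorem nv_coeff {R : Type*} [CommRing R] {p : ℕ} (hp : 0 < p) (a q : R[X]) (ha : a.natDegree < p)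
    {l : ℕ} (hl : l < p) (u : ℕ) :
    (a * expand R p q).coeff (p * u + l) = a.coeff l * q.coeff u := by
  rw [coeff_mul, Finset.sum_eq_single (l, p * u)]
  · simp only
    rw [mul_comm p u, coeff_expand_mul hp]
  · rintro ⟨i, j⟩ hij hne
    have hs : i + j = p * u + l := mem_antidiagonal.mp hij
    simp only
    by_cases hi : i < p
    · rw [coeff_expand hp, if_neg, mul_zero]
      rintro ⟨w, rfl⟩
      apply hne
      have h1 : (i + p * w) % p = (p * u + l) % p := by rw [hs]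
      rw [Nat.add_mul_mod_self_left, Nat.mul_add_mod, Nat.mod_eq_of_lt hi,
        Nat.mod_eq_of_lt hl] at h1
      subst h1
      congr 1
      omega
    · rw [coeff_eq_zero_of_natDegree_lt (by omega), zero_mul]
  · intro h
    exact absurd (by simp [add_comm]) h

end Vale.Agent.P030
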