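import Vale.Agent.P030.Defs

namespace Vale.Agent.P030

open Polynomial Finset

theorem NVb_sum_mul {M : Type*} [AddCommMonoid M] (f : ℕ → M) (n p : ℕ) :
    ∑ r ∈ range (n * p), f r = ∑ u ∈ range n, ∑ l ∈ range p, f (p * u + l) := by
  induction n with
  | zero => simp
  | succ n ih => rw [Nat.succ_mul, sum_range_add, ih, sum_range_succ, mul_comm n p]

theorem NVb_dvd {F : Type*} [Field F] {n : ℕ} (M : ℕ → ℕ → F)
    (hM : (Matrix.of fun r k : Fin n => M r k).det ≠ 0) (d : F[X]) (q : ℕ → F[X])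
    (h : ∀ k, k < n → d ∣ ∑ r ∈ range n, q r * C (M r k)) (r : ℕ) (hr : r < n) : d ∣ q r := by
  set A : Matrix (Fin n) (Fin n) F := Matrix.of fun r k : Fin n => M r k with hA
  have h1 : A * A⁻¹ = 1 := Matrix.mul_nonsing_inv A (IsUnit.mk0 _ hM)
  have h2 : q r = ∑ k : Fin n, (∑ s ∈ range n, q s * C (M s k)) * C (A⁻¹ k ⟨r, hr⟩) := by
    simp only [← Fin.sum_univ_eq_sum_range (fun s => q s * C (M s _)) n, Finset.sum_mul]
    rw [Finset.sum_comm]
    have : ∀ s : Fin n, ∑ k : Fin n, q s * C (M s k) * C (A⁻¹ k ⟨r, hr⟩)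
        = q s * C ((A * A⁻¹) s ⟨r, hr⟩) := fun s => by
      rw [Matrix.mul_apply, map_sum, Finset.mul_sum]
      refine Finset.sum_congr rfl fun k _ => ?_
      rw [map_mul, mul_assoc]
      rfl
    simp only [this, h1]
    rw [Finset.sum_eq_single ⟨r, hr⟩]
    · simp
    · intro s _ hs
      simp [Matrix.one_apply_ne hs]
    · simp
  rw [h2]
  exact Finset.dvd_sum fun k _ => (h k k.2).mul_right _

theorem NVb_tri {F : Type*} [Field F] {p : ℕ} (b : ℕ → F[X]) (hb0 : b 0 = 0)
    (hb : ∀ r0, 1 ≤ r0 → r0 < p → X ^ (p - r0) ∣ b r0 ∧ (b r0).coeff (p - r0) ≠ 0)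
    (c : ℕ → F) (h : ∑ r ∈ range p, C (c r) * b r = 0) (j : ℕ) :
    ∀ r, 1 ≤ r → r < p → p - r ≤ j → c r = 0 := by
  induction j with
  | zero => intro r _ h1 h2; omega
  | succ j ih =>
    intro r h1 h2 h3
    have h4 := congrArg (fun q => q.coeff (p - r)) h
    simp only [finset_sum_coeff, coeff_C_mul, coeff_zero] at h4
    rw [Finset.sum_eq_single r] at h4
    · exact (mul_eq_zero.mp h4).resolve_right (hb r h1 h2).2
    · intro s hs hsr
      have hs' := mem_range.mp hs
      rcases lt_or_gt_of_ne hsr with hlt | hlt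
      · rcases Nat.eq_zero_or_pos s with rfl | hs0
        · simp [hb0]
        · rw [X_pow_dvd_iff.mp (hb s hs0 hs').1 (p - r) (by omega), mul_zero]
      · rw [ih s (by omega) hs' (by omega), zero_mul]
    · intro hr
      exact absurd (mem_range.mpr h2) hr

theorem nv_kernel {F : Type*} [Field F] (h2 : (2 : F) ≠ 0) {p n : ℕ} (hp : p % 2 = 1)
    (a b : ℕ → F[X]) (B : ℕ → ℕ → F)
    (hdeg : ∀ r0, r0 < p → (a r0).natDegree < p ∧ (b r0).natDegree < p)
    (ha0 : a 0 = (1 - X ^ 2) ^ ((p - 1) / 2)) (hb0 : b 0 = 0)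
    (hb : ∀ r0, 1 ≤ r0 → r0 < p → X ^ (p - r0) ∣ b r0 ∧ (b r0).coeff (p - r0) ≠ 0)
    (hdvd : ∀ r0, r0 < p →
      (1 - X) ^ ((p - 1) / 2) ∣ a r0 + b r0 ∧ (1 + X) ^ ((p - 1) / 2) ∣ a r0 - b r0)
    (hB0 : (Matrix.of fun r k : Fin n => B r k).det ≠ 0)
    (hBp : (Matrix.of fun r k : Fin n => B (r + 1) k - B r k).det ≠ 0)
    (hBm : (Matrix.of fun r k : Fin n => B (r + 1) k + B r k).det ≠ 0) :
    (Matrix.of fun r k : Fin (n * p) =>
      (a (r % p)).coeff (k % p) * B (r / p) (k / p)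
        + (b (r % p)).coeff (k % p) * B (r / p + 1) (k / p)).det ≠ 0 := by
  intro hdet
  have hp0 : 0 < p := by omega
  obtain ⟨v, hv0, hv⟩ := Matrix.exists_vecMul_eq_zero_iff.mpr hdet
  let c : ℕ → F := fun r => if h : r < n * p then v ⟨r, h⟩ else 0
  let A : ℕ → F[X] := fun u => ∑ l ∈ range p, C (c (p * u + l)) * a l
  let D : ℕ → F[X] := fun u => ∑ l ∈ range p, C (c (p * u + l)) * b l
  have hdegs : ∀ (g : ℕ → F[X]), (∀ l, l < p → (g l).natDegree < p) → ∀ u,
      (∑ l ∈ range p, C (c (p * u + l)) * g l).natDegree < p := fun g hg u => by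
    refine lt_of_le_of_lt (natDegree_sum_le_of_forall_le _ _ (n := p - 1) fun l hl => ?_) (by omega)
    have := hg l (mem_range.mp hl)
    exact (natDegree_C_mul_le _ _).trans (by omega)
  have hA : ∀ u, (A u).natDegree < p := hdegs a fun l hl => (hdeg l hl).1
  have hD : ∀ u, (D u).natDegree < p := hdegs b fun l hl => (hdeg l hl).2
  have hlt : ∀ k l, k < n → l < p → p * k + l < n * p := fun k l hk hl => by
    have : p * (k + 1) ≤ p * n := Nat.mul_le_mul_left _ hk
    rw [mul_comm n p]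
    rw [mul_add, mul_one] at this
    omega
  have hdm : ∀ k l, l < p → (p * k + l) % p = l ∧ (p * k + l) / p = k := fun k l hl =>
    ⟨by rw [Nat.mul_add_mod, Nat.mod_eq_of_lt hl],
      by rw [Nat.mul_add_div hp0, Nat.div_eq_of_lt hl, add_zero]⟩
  have key : ∀ k, k < n → ∑ u ∈ range n, (A u * C (B u k) + D u * C (B (u + 1) k)) = 0 := by
    intro k hk
    ext l
    simp only [finset_sum_coeff, coeff_add, coeff_mul_C, coeff_zero]
    by_cases hl : l < p
    · have h1 := congrFun hv ⟨p * k + l, hlt k l hk hl⟩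
      simp only [Matrix.vecMul, dotProduct, Matrix.of_apply, Pi.zero_apply, (hdm k l hl).1,
        (hdm k l hl).2] at h1
      have h3 : ∀ r : Fin (n * p), v r = c r := fun r => by simp [c]
      simp only [h3] at h1
      rw [Fin.sum_univ_eq_sum_range (fun r => c r * ((a (r % p)).coeff l * B (r / p) k
        + (b (r % p)).coeff l * B (r / p + 1) k)) (n * p), NVb_sum_mul] at h1
      rw [← h1]
      refine Finset.sum_congr rfl fun u _ => ?_
      simp only [A, D, finset_sum_coeff, coeff_C_mul, Finset.sum_mul, ← Finset.sum_add_distrib]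
      refine Finset.sum_congr rfl fun s hs => ?_
      rw [(hdm u s (mem_range.mp hs)).1, (hdm u s (mem_range.mp hs)).2]
      ring
    · refine Finset.sum_eq_zero fun u _ => ?_
      rw [coeff_eq_zero_of_natDegree_lt (lt_of_lt_of_le (hA u) (by omega)),
        coeff_eq_zero_of_natDegree_lt (lt_of_lt_of_le (hD u) (by omega))]
      simp
  have hplus : ∀ u, (1 - X) ^ ((p - 1) / 2) ∣ A u + D u := fun u => by
    simp only [A, D, ← Finset.sum_add_distrib, ← mul_add]
    exact Finset.dvd_sum fun l hl => (hdvd l (mem_range.mp hl)).1.mul_left _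
  have hminus : ∀ u, (1 + X) ^ ((p - 1) / 2) ∣ A u - D u := fun u => by
    simp only [A, D, ← Finset.sum_sub_distrib, ← mul_sub]
    exact Finset.dvd_sum fun l hl => (hdvd l (mem_range.mp hl)).2.mul_left _
  have d1 : ∀ u, u < n → (1 - X) ^ ((p - 1) / 2) ∣ D u := by
    refine NVb_dvd (fun r k => B (r + 1) k - B r k) hBp _ D fun k hk => ?_
    have : ∑ r ∈ range n, D r * C (B (r + 1) k - B r k)
        = ∑ u ∈ range n, (A u * C (B u k) + D u * C (B (u + 1) k))
          - ∑ u ∈ range n, (A u + D u) * C (B u k) := by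
      rw [← Finset.sum_sub_distrib]
      refine Finset.sum_congr rfl fun u _ => ?_
      rw [map_sub]
      ring
    rw [this, key k hk, zero_sub, dvd_neg]
    exact Finset.dvd_sum fun u _ => (hplus u).mul_right _
  have d2 : ∀ u, u < n → (1 + X) ^ ((p - 1) / 2) ∣ D u := by
    refine NVb_dvd (fun r k => B (r + 1) k + B r k) hBm _ D fun k hk => ?_
    have : ∑ r ∈ range n, D r * C (B (r + 1) k + B r k)
        = ∑ u ∈ range n, (A u * C (B u k) + D u * C (B (u + 1) k))
          - ∑ u ∈ range n, (A u - D u) * C (B u k) := by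
      rw [← Finset.sum_sub_distrib]
      refine Finset.sum_congr rfl fun u _ => ?_
      rw [map_add]
      ring
    rw [this, key k hk, zero_sub, dvd_neg]
    exact Finset.dvd_sum fun u _ => (hminus u).mul_right _
  have d3 : ∀ u, (X : F[X]) ∣ D u := fun u => by
    refine Finset.dvd_sum fun l hl => Dvd.dvd.mul_left ?_ _
    have hl' := mem_range.mp hl
    rcases Nat.eq_zero_or_pos l with rfl | hl0
    · simp [hb0]
    · exact (dvd_pow_self X (by omega)).trans (hb l hl0 hl').1
  have hD0 : ∀ u, u < n → D u = 0 := fun u hu => by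
    have c1 : IsCoprime ((1 - X : F[X]) ^ ((p - 1) / 2)) ((1 + X) ^ ((p - 1) / 2)) := by
      refine IsCoprime.pow ⟨C 2⁻¹, C 2⁻¹, ?_⟩
      have : (C 2⁻¹ : F[X]) * 2 = 1 := by
        rw [show (2 : F[X]) = C 2 from rfl, ← map_mul, inv_mul_cancel₀ h2, map_one]
      linear_combination this
    have c2 : IsCoprime (X : F[X]) ((1 - X : F[X]) ^ ((p - 1) / 2) * (1 + X) ^ ((p - 1) / 2)) :=
      IsCoprime.mul_right (IsCoprime.pow_right ⟨1, 1, by ring⟩)
        (IsCoprime.pow_right ⟨-1, 1, by ring⟩)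
    have c3 := c2.mul_dvd (d3 u) (c1.mul_dvd (d1 u hu) (d2 u hu))
    refine eq_zero_of_dvd_of_natDegree_lt c3 ?_
    have n1 : (1 - X : F[X]).natDegree = 1 := by
      rw [← natDegree_neg, neg_sub, ← C_1, natDegree_X_sub_C]
    have n2 : (1 + X : F[X]).natDegree = 1 := by
      rw [add_comm, ← C_1, natDegree_X_add_C]
    have z1 : (1 - X : F[X]) ≠ 0 := fun h => by simp [h] at n1
    have z2 : (1 + X : F[X]) ≠ 0 := fun h => by simp [h] at n2
    rw [natDegree_mul X_ne_zero (mul_ne_zero (pow_ne_zero _ z1) (pow_ne_zero _ z2)),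
      natDegree_mul (pow_ne_zero _ z1) (pow_ne_zero _ z2), natDegree_pow, natDegree_pow, n1, n2,
      natDegree_X]
    have := hD u
    omega
  have hA0 : ∀ u, u < n → A u = 0 := fun u hu => by
    refine zero_dvd_iff.mp (NVb_dvd B hB0 0 A (fun k hk => ?_) u hu)
    rw [zero_dvd_iff, ← key k hk]
    refine Finset.sum_congr rfl fun s hs => ?_
    rw [hD0 s (mem_range.mp hs), zero_mul, add_zero]
  have hc : ∀ u l, u < n → l < p → c (p * u + l) = 0 := fun u l hu hl => by
    have t1 := NVb_tri b hb0 hb (fun l => c (p * u + l)) (hD0 u hu) p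
    rcases Nat.eq_zero_or_pos l with rfl | hl0
    · have t2 := congrArg (fun q => q.coeff 0) (hA0 u hu)
      simp only [A, finset_sum_coeff, coeff_C_mul, coeff_zero] at t2
      rw [Finset.sum_eq_single 0] at t2
      · rw [ha0, coeff_zero_eq_eval_zero] at t2
        simpa using t2
      · intro s hs hs0
        rw [t1 s (by omega) (mem_range.mp hs) (by omega), zero_mul]
      · intro h
        exact absurd (mem_range.mpr hp0) h
    · exact t1 l hl0 hl (by omega)
  apply hv0
  funext r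
  have := hc (r / p) (r % p) (Nat.div_lt_of_lt_mul (r.2.trans_eq (mul_comm n p)))
    (Nat.mod_lt _ hp0)
  rw [Nat.div_add_mod] at this
  simpa [c] using this

end Vale.Agent.P030
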