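import Vale.Agent.P030.Red
import Vale.Agent.P030.CF
import Vale.Agent.P030.Rows
import Vale.Agent.P030.NVcx

namespace Vale.Agent.P030

open Polynomial Finset

namespace NVc

theorem f101 : Fact (Nat.Prime 101) := ⟨by norm_num⟩

attribute [local instance] f101

/-- `x` is integral at 101 with residue `t` -/
def R (x : ℚ) (t : ZMod 101) : Prop := pn 101 x ≤ 1 ∧ (x : ZMod 101) = t

theorem R.add {x y : ℚ} {s t : ZMod 101} (h : R x s) (h' : R y t) : R (x + y) (s + t) :=
  ⟨pn_add_le h.1 h'.1, by rw [red_add h.1 h'.1, h.2, h'.2]⟩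
theorem R.sub {x y : ℚ} {s t : ZMod 101} (h : R x s) (h' : R y t) : R (x - y) (s - t) :=
  ⟨pn_sub_le h.1 h'.1, by rw [red_sub h.1 h'.1, h.2, h'.2]⟩
theorem R.mul {x y : ℚ} {s t : ZMod 101} (h : R x s) (h' : R y t) : R (x * y) (s * t) :=
  ⟨by simpa using pn_mul_le h.1 h'.1, by rw [red_mul h.1 h'.1, h.2, h'.2]⟩
theorem R.neg {x : ℚ} {s : ZMod 101} (h : R x s) : R (-x) (-s) :=
  ⟨by rw [pn_neg]; exact h.1, by rw [Rat.cast_neg, h.2]⟩
theorem R.int (z : ℤ) : R z z := ⟨pn_int z, Rat.cast_intCast z⟩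
theorem R.nat (z : ℕ) : R z z := ⟨pn_nat z, Rat.cast_natCast z⟩
theorem R.zero : R 0 0 := by simpa using R.nat 0
theorem R.one : R 1 1 := by simpa using R.nat 1
theorem R.two : R 2 2 := by simpa using R.nat 2
theorem R.of {x y : ℚ} {s t : ZMod 101} (h : R x s) (h1 : y = x) (h2 : s = t) : R y t := by
  rw [h1, ← h2]; exact h
theorem R.sum {ι : Type*} (s : Finset ι) {f : ι → ℚ} {g : ι → ZMod 101}
    (h : ∀ i ∈ s, R (f i) (g i)) : R (∑ i ∈ s, f i) (∑ i ∈ s, g i) :=
  ⟨pn_sum_le s f zero_le_one fun i hi => (h i hi).1, by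
    rw [red_sum s f fun i hi => (h i hi).1]
    exact sum_congr rfl fun i hi => (h i hi).2⟩

theorem R.inv {k : ℕ} (h0 : 0 < k) (hk : k < 52) : R (k : ℚ)⁻¹ (tb nI 0 0 k) := by
  obtain ⟨k, rfl⟩ := Nat.exists_eq_succ_of_ne_zero h0.ne'
  have h1 : pn 101 ((k + 1 : ℕ) : ℚ) = 1 :=
    pn_nat_of_not_dvd (Nat.not_dvd_of_pos_of_lt h0 (by omega))
  have h2 : pn 101 ((k + 1 : ℕ) : ℚ)⁻¹ ≤ 1 := by
    rw [← one_div, pn_div, h1, pn_one, div_one]
  refine ⟨h2, ?_⟩
  have h3 := red_mul (p := 101) h2 (pn_nat (k + 1))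
  rw [inv_mul_cancel₀ (by positivity), Rat.cast_one, Rat.cast_natCast] at h3
  have h4 := ckI k (by omega)
  calc ((((k + 1 : ℕ) : ℚ)⁻¹ : ℚ) : ZMod 101)
      = ((((k + 1 : ℕ) : ℚ)⁻¹ : ℚ) : ZMod 101) * (((k + 1 : ℕ) : ZMod 101) * tb nI 0 0 (k + 1)) := by
        rw [h4, mul_one]
    _ = tb nI 0 0 (k + 1) := by rw [← mul_assoc, ← h3, one_mul]

theorem R_nu (k : ℕ) : k < 52 → R (nu k) (tb nN 0 0 k) := by
  induction k using Nat.twoStepInduction with
  | zero => exact fun _ => R.zero.of rfl ckb.1.symm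
  | one => exact fun _ => R.two.of rfl ckb.2.1.symm
  | more k ih _ =>
    intro hk
    refine (((ih (by omega)).mul ((R.nat k).add R.one)).mul (R.inv (k := k + 2) (by omega) hk)).of
      ?_ (ckN k (by omega))
    rw [nu]; push_cast; ring

theorem R_mcol (i : ℕ) : i < 50 → R (mcol i) (tb nM 44 i 0) := by
  induction i using Nat.twoStepInduction with
  | zero => exact fun _ => R.zero.of rfl ckb.2.2.1.symm
  | one => exact fun _ => R.zero.of rfl ckb.2.2.2.1.symm
  | more i ih _ =>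
    intro hi
    refine (((((R.nat i).mul (ih (by omega))).add (R_nu i (by omega))).add
      (R_nu (i + 1) (by omega))).mul (R.inv (k := i + 1) (by omega) (by omega))).of
      ?_ (ckC i (by omega))
    rw [mcol]; push_cast; ring

theorem R_mrow (j : ℕ) : j < 44 → R (mrow j) (tb nM 44 0 j) := by
  induction j using Nat.twoStepInduction with
  | zero => exact fun _ => R.zero.of rfl ckb.2.2.1.symm
  | one => exact fun _ => R.two.of rfl ckb.2.2.2.2.1.symm
  | more j ih _ =>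
    intro hj
    have h1 := R.inv (k := j + 2) (by omega) (by omega)
    refine (((((R.nat j).add R.one).mul (ih (by omega))).add (R.two.mul h1)).mul h1).of
      ?_ (ckR j (by omega))
    rw [mrow]; push_cast; ring

theorem R_M0 (i : ℕ) : ∀ j, i < 50 → j < 44 → R (M0 i j) (tb nM 44 i j) := by
  induction i with
  | zero => intro j _ hj; rw [M0_zero_left]; exact R_mrow j hj
  | succ i ih =>
    intro j hi hj
    rcases j with _ | j
    · rw [M0_zero_right]; exact R_mcol _ hi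
    · refine ((ih j (by omega) (by omega)).sub ((R_nu i (by omega)).mul
        (R.inv (k := j + 1) (by omega) (by omega)))).of ?_ (ckM i (by omega) j (by omega))
      rw [M0_succ]; push_cast; ring

theorem R_H (n : ℕ) : n < 51 → R (harmonic n) (tb nH 0 0 n) := by
  induction n with
  | zero => exact fun _ => R.zero.of rfl ckb.2.2.2.2.2.1.symm
  | succ n ih =>
    intro hn
    exact ((ih (by omega)).add (R.inv (k := n + 1) (by omega) (by omega))).of
      (harmonic_succ n) (ckH n (by omega))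

theorem R_S (n : ℕ) : n < 51 → R (∑ k ∈ range n, 1 / ((k : ℚ) + 1) ^ 2) (tb nS 0 0 n) := by
  induction n with
  | zero => exact fun _ => R.zero.of rfl ckb.2.2.2.2.2.2.symm
  | succ n ih =>
    intro hn
    have h1 := R.inv (k := n + 1) (by omega) (by omega)
    refine ((ih (by omega)).add (h1.mul h1)).of ?_ (ckS n (by omega))
    rw [sum_range_succ]; push_cast; rw [one_div, sq, mul_inv]

theorem R_Z0 {i j : ℕ} (hi : i < 50) (hj : j < 44) : R (Z0 i j) (tb nZ 44 i j) := by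
  rw [← ckZ i hi j hj, Z0]
  split_ifs with h1 h2
  · exact (R_S i (by omega)).neg
  · refine (((R_H i (by omega)).sub (R_H j (by omega))).mul
      (R.inv (k := i - j) (by omega) (by omega))).of ?_ rfl
    rw [Nat.cast_sub h2.le, div_eq_mul_inv]
  · refine (((R_H j (by omega)).sub (R_H i (by omega))).mul
      (R.inv (k := j - i) (by omega) (by omega))).of ?_ rfl
    rw [Nat.cast_sub (by omega), ← neg_div_neg_eq, neg_sub, neg_sub, div_eq_mul_inv]

theorem sq_coeff (n i : ℕ) : ((((1 - X) ^ 2 * X ^ n : ℤ[X]).coeff i : ℤ) : ZMod 101) =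
    (if i = n then 1 else 0) - 2 * (if i = n + 1 then 1 else 0) + (if i = n + 2 then 1 else 0) := by
  have : ((1 - X) ^ 2 * X ^ n : ℤ[X]) = X ^ n - C 2 * X ^ (n + 1) + X ^ (n + 2) := by
    rw [map_ofNat]; ring
  rw [this, coeff_add, coeff_sub, coeff_C_mul, coeff_X_pow, coeff_X_pow, coeff_X_pow]
  push_cast
  rfl

theorem tab_rec (t : ℕ → ℤ[X]) (ht : ∀ d, t (d + 2) = 2 * t (d + 1) - X ^ 2 * t d) (n : ℕ)
    (h50 : ∀ d < 34, ((1 - X) ^ 2 * X ^ (47 - d) * t d).coeff 50 = 0 ∧ tb n 52 d 50 = 0)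
    (h0 : ∀ i < 51, ((((1 - X) ^ 2 * X ^ 47 * t 0).coeff i : ℤ) : ZMod 101) = tb n 52 0 i)
    (h1 : ∀ i < 51, ((((1 - X) ^ 2 * X ^ 46 * t 1).coeff i : ℤ) : ZMod 101) = tb n 52 1 i)
    (hs : ∀ d < 32, ∀ i < 50, 2 * tb n 52 (d + 1) (i + 1) - tb n 52 d i = tb n 52 (d + 2) i)
    (d : ℕ) : d < 34 → ∀ i < 51,
      ((((1 - X) ^ 2 * X ^ (47 - d) * t d).coeff i : ℤ) : ZMod 101) = tb n 52 d i := by
  induction d using Nat.twoStepInduction with
  | zero => exact fun _ => h0
  | one => exact fun _ => h1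
  | more d ih ih' =>
    intro hd i hi
    rcases Nat.lt_succ_iff_lt_or_eq.1 hi with h | rfl
    · rw [← hs d (by omega) i h, ← ih (by omega) i hi, ← ih' (by omega) (i + 1) (by omega)]
      have e1 : 47 - (d + 1) = 47 - (d + 2) + 1 := by omega
      have e2 : 47 - d = 47 - (d + 2) + 2 := by omega
      have e3 : ((1 - X) ^ 2 * X ^ (47 - (d + 1)) * t (d + 1) : ℤ[X])
          = X * ((1 - X) ^ 2 * X ^ (47 - (d + 2)) * t (d + 1)) := by rw [e1]; ring
      have e4 : ((1 - X) ^ 2 * X ^ (47 - (d + 2)) * t (d + 2) : ℤ[X])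
          = C 2 * ((1 - X) ^ 2 * X ^ (47 - (d + 2)) * t (d + 1))
            - (1 - X) ^ 2 * X ^ (47 - d) * t d := by rw [ht, e2, map_ofNat]; ring
      rw [e3, e4, coeff_X_mul, coeff_sub, coeff_C_mul]
      push_cast
      rfl
    · rw [(h50 _ hd).1, (h50 _ hd).2, Int.cast_zero]

theorem iA_eq (r : ℕ) : ((r : ℤ) - 3 * (1 : ℕ)).natAbs = iA r := by
  unfold iA; split_ifs <;> omega

theorem rowA_eq (r : ℕ) : rowA 1 r = (1 - X) ^ 2 * X ^ (47 - iA r) * tau (iA r) := by
  rw [rowA, al, iA_eq, mul_assoc]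

theorem rowD_eq (r : ℕ) : rowD 1 r =
    C (if r < 3 then -1 else 1) * ((1 - X) ^ 2 * X ^ (47 - iA r) * ups (iA r)) := by
  rw [rowD, de, iA_eq]
  rcases lt_trichotomy r 3 with h | rfl | h
  · rw [if_pos h, Int.sign_eq_neg_one_of_neg (by omega)]; ring
  · simp [iA, ups]
  · rw [if_neg (by omega), Int.sign_eq_one_of_pos (by omega)]; ring

theorem iA_add (d : ℕ) : iA (d + 3) = d := by simp [iA]

theorem tabP (d : ℕ) : d < 34 → ∀ i < 51,
    ((((1 - X) ^ 2 * X ^ (47 - d) * tau d).coeff i : ℤ) : ZMod 101) = tb nP 52 d i := by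
  refine tab_rec tau (fun d => by rw [tau]) nP (fun d hd => ⟨?_, (ckPQ d hd).1⟩) (fun i hi => ?_)
    (fun i hi => ?_) ckP d
  · have := rowA_high (N := 1) (r := d + 3) (i := 50) (by omega) (by omega)
    rwa [rowA_eq, iA_add] at this
  · rw [tau, mul_one, sq_coeff]; exact (ckB i hi).1
  · rw [tau, mul_one, sq_coeff]; exact (ckB i hi).2.1

theorem tabQ (d : ℕ) : d < 34 → ∀ i < 51,
    ((((1 - X) ^ 2 * X ^ (47 - d) * ups d).coeff i : ℤ) : ZMod 101) = tb nQ 52 d i := by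
  refine tab_rec ups (fun d => by rw [ups]) nQ (fun d hd => ⟨?_, (ckPQ d hd).2⟩) (fun i hi => ?_)
    (fun i hi => ?_) ckQ d
  · have := rowD_high (N := 1) (r := d + 3) (i := 50) (by omega) (by omega)
    rwa [rowD_eq, iA_add, if_neg (by omega), map_one, one_mul] at this
  · rw [ups, mul_zero, coeff_zero, Int.cast_zero]; exact (ckB i hi).2.2.1
  · rw [ups, mul_one, sq_coeff]; exact (ckB i hi).2.2.2

theorem R_ent {r j : ℕ} (hr : r < 37) (hj : j < 44) : R (ent 0 1 r j) (tb nE 44 r j) := by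
  have hA : iA r < 34 := by unfold iA; split_ifs <;> omega
  have h32 : R (3 / 2) 52 :=
    ((R.nat 3).mul (R.inv (k := 2) (by omega) (by omega))).of (by norm_num) (by decide +kernel)
  have h1 : R (∑ i ∈ range 50, ((rowA 1 r).coeff i : ℚ) * M0 i j)
      (∑ i ∈ range 50, tb nP 52 (iA r) i * tb nM 44 i j) :=
    R.sum _ fun i hi => ((R.int _).of rfl (by
      rw [rowA_eq]; exact tabP _ hA i (by have := mem_range.1 hi; omega))).mul
      (R_M0 i j (mem_range.1 hi) hj)
  have h2 : R (∑ i ∈ range 50, ((rowD 1 r).coeff i : ℚ) * Z0 i j)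
      (∑ i ∈ range 50, (if r < 3 then -1 else 1) * tb nQ 52 (iA r) i * tb nZ 44 i j) :=
    R.sum _ fun i hi => ((R.int _).of rfl (by
      rw [rowD_eq, coeff_C_mul, Int.cast_mul, tabQ _ hA i (by have := mem_range.1 hi; omega)]
      split_ifs <;> simp)).mul (R_Z0 (mem_range.1 hi) hj)
  refine (h1.sub (h32.mul h2)).of (by simp [ent]) ?_
  rw [← ckE hr hj]
  simp only [mul_assoc, ← mul_sum]
  rw [← mul_assoc, sub_eq_add_neg, ← neg_mul]
  congr 2
  unfold sD
  split_ifs <;> decide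

theorem R_mat {r k : ℕ} (hr : r < 37) (hk : k < 36) : R (mat 0 1 r k) (tb nT 36 r k) := by
  refine (((R_ent hr (j := 6 + k) (by omega)).sub (R.two.mul (R_ent hr (j := 6 + k + 1)
    (by omega)))).add (R_ent hr (j := 6 + k + 2) (by omega))).of ?_ (ckT r hr k hk)
  have : col 1 k = X ^ (6 + k) - C 2 * X ^ (6 + k + 1) + X ^ (6 + k + 2) := by
    rw [col, map_ofNat]; ring
  rw [mat, this]
  simp only [coeff_add, coeff_sub, coeff_C_mul, coeff_X_pow]
  push_cast
  simp only [add_mul, sub_mul, sum_add_distrib, sum_sub_distrib, mul_assoc, ← mul_sum, ite_mul,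
    one_mul, zero_mul, sum_ite_eq', mem_range]
  rw [if_pos (by omega), if_pos (by omega), if_pos (by omega)]

theorem fin {A : Matrix (Fin 36) (Fin 36) ℚ} {a b nJ : ℕ} (h : ckInv a b nJ = true)
    (hA : ∀ r k : Fin 36, R (A r k) ((a : ZMod 101) * tb nT 36 (r + 1) k + b * tb nT 36 r k)) :
    A.det ≠ 0 := by
  intro h0
  have h1 := red_det (p := 101) A fun r k => (hA r k).1
  rw [h0, Rat.cast_zero] at h1
  have h2 : (A.map fun x : ℚ => (x : ZMod 101)) = Matrix.of fun r k : Fin 36 =>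
      (a : ZMod 101) * tb nT 36 (r + 1) k + b * tb nT 36 r k :=
    Matrix.ext fun r k => (hA r k).2
  rw [h2] at h1
  exact ckInv_spec h h1.symm

end NVc

open NVc

theorem nv_base0 : (Matrix.of fun r k : Fin 36 => mat 0 1 r k).det ≠ 0 :=
  fin ck0 fun r k => (R_mat (r := r) (by omega) k.2).of rfl (by simp)
theorem nv_basep : (Matrix.of fun r k : Fin 36 => mat 0 1 (r + 1) k - mat 0 1 r k).det ≠ 0 :=
  fin ckp fun r k => ((R_mat (r := r + 1) (by omega) k.2).sub (R_mat (r := r) (by omega) k.2)).of rfl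
    (by rw [show ((100 : ℕ) : ZMod 101) = -1 by decide]; simp [sub_eq_add_neg])
theorem nv_basem : (Matrix.of fun r k : Fin 36 => mat 0 1 (r + 1) k + mat 0 1 r k).det ≠ 0 :=
  fin ckm fun r k => ((R_mat (r := r + 1) (by omega) k.2).add (R_mat (r := r) (by omega) k.2)).of rfl
    (by simp)

end Vale.Agent.P030
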