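import Vale.Agent.P030.PN

namespace Vale.Agent.P030

open Polynomial Finset

variable {p : ℕ} [Fact p.Prime]

theorem Red_one_lt : (1 : ℝ) < p := by exact_mod_cast (Fact.out : p.Prime).one_lt

theorem Red_num_eq (x : ℚ) : pn p (x.num : ℚ) = pn p x * pn p (x.den : ℚ) := by
  rw [← pn_mul, Rat.mul_den_eq_num]

theorem Red_not_dvd_den {x : ℚ} (hx : pn p x ≤ 1) : ¬ p ∣ x.den := by
  intro hd
  have hnum : ¬ (p : ℤ) ∣ x.num := by
    intro hn
    have h1 : p ∣ x.num.natAbs := Int.natCast_dvd.mp hn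
    have := Nat.dvd_gcd h1 hd
    rw [x.reduced] at this
    exact (Fact.out : p.Prime).one_lt.ne' (Nat.dvd_one.mp this)
  have h1 := pn_int_of_not_dvd (p := p) hnum
  have h2 : pn p ((x.den : ℤ) : ℚ) ≤ 1 / p := pn_int_of_dvd (by exact_mod_cast hd)
  have h3 := Red_num_eq (p := p) x
  have h4 : (1 : ℝ) / p < 1 := by
    rw [div_lt_one (by linarith [Red_one_lt (p := p)])]; exact Red_one_lt
  push_cast at h2
  have h5 : pn p x * pn p (x.den : ℚ) ≤ 1 * (1 / p) := mul_le_mul hx h2 (pn_nonneg _) zero_le_one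
  linarith

theorem Red_den_ne {x : ℚ} (hx : pn p x ≤ 1) : (x.den : ZMod p) ≠ 0 := by
  rw [Ne, ZMod.natCast_eq_zero_iff]
  exact Red_not_dvd_den hx

theorem red_add {x y : ℚ} (hx : pn p x ≤ 1) (hy : pn p y ≤ 1) :
    ((x + y : ℚ) : ZMod p) = (x : ZMod p) + (y : ZMod p) :=
  Rat.cast_add_of_ne_zero (Red_den_ne hx) (Red_den_ne hy)
theorem red_sub {x y : ℚ} (hx : pn p x ≤ 1) (hy : pn p y ≤ 1) :
    ((x - y : ℚ) : ZMod p) = (x : ZMod p) - (y : ZMod p) := by
  rw [sub_eq_add_neg, red_add hx (by rwa [pn_neg]), Rat.cast_neg, sub_eq_add_neg]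
theorem red_mul {x y : ℚ} (hx : pn p x ≤ 1) (hy : pn p y ≤ 1) :
    ((x * y : ℚ) : ZMod p) = (x : ZMod p) * (y : ZMod p) :=
  Rat.cast_mul_of_ne_zero (Red_den_ne hx) (Red_den_ne hy)
theorem red_sum {ι : Type*} (s : Finset ι) (f : ι → ℚ) (h : ∀ i ∈ s, pn p (f i) ≤ 1) :
    ((∑ i ∈ s, f i : ℚ) : ZMod p) = ∑ i ∈ s, (f i : ZMod p) := by
  classical
  induction s using Finset.induction_on with
  | empty => simp
  | insert a s ha ih =>
    rw [Finset.sum_insert ha, Finset.sum_insert ha,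
      red_add (h a (mem_insert_self _ _))
        (pn_sum_le s f zero_le_one fun i hi => h i (mem_insert_of_mem hi)),
      ih fun i hi => h i (mem_insert_of_mem hi)]

theorem Red_zero {x : ℚ} (h : pn p x ≤ 1 / p) : (x : ZMod p) = 0 := by
  have h4 : (1 : ℝ) / p < 1 := by
    rw [div_lt_one (by linarith [Red_one_lt (p := p)])]; exact Red_one_lt
  have hn : (p : ℤ) ∣ x.num := by
    by_contra hn
    have h1 := pn_int_of_not_dvd (p := p) hn
    have h3 := Red_num_eq (p := p) x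
    have h5 : pn p x * pn p (x.den : ℚ) ≤ (1 / p) * 1 :=
      mul_le_mul h (pn_nat _) (pn_nonneg _) (by positivity)
    linarith
  rw [Rat.cast_def, (ZMod.intCast_zmod_eq_zero_iff_dvd _ _).mpr hn, zero_div]

theorem red_congr {x y : ℚ} (h : pn p (x - y) ≤ 1 / p) (hy : pn p y ≤ 1) :
    (x : ZMod p) = (y : ZMod p) := by
  have h4 : (1 : ℝ) / p < 1 := by
    rw [div_lt_one (by linarith [Red_one_lt (p := p)])]; exact Red_one_lt
  have e : x = (x - y) + y := by ring
  rw [e, red_add (h.trans h4.le) hy, Red_zero h, zero_add]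
theorem red_ne_zero {x : ℚ} (h : pn p x = 1) : (x : ZMod p) ≠ 0 := by
  have hd := Red_not_dvd_den h.le
  have h1 := Red_num_eq (p := p) x
  rw [h, pn_nat_of_not_dvd hd, one_mul] at h1
  have h4 : (1 : ℝ) / p < 1 := by
    rw [div_lt_one (by linarith [Red_one_lt (p := p)])]; exact Red_one_lt
  have hn : ¬ (p : ℤ) ∣ x.num := fun hn => by
    have := pn_int_of_dvd (p := p) hn
    linarith
  rw [Rat.cast_def]
  refine div_ne_zero ?_ (Red_den_ne h.le)
  rwa [Ne, ZMod.intCast_zmod_eq_zero_iff_dvd]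

theorem Red_prod {ι : Type*} (s : Finset ι) (f : ι → ℚ) (h : ∀ i ∈ s, pn p (f i) ≤ 1) :
    pn p (∏ i ∈ s, f i) ≤ 1 ∧ ((∏ i ∈ s, f i : ℚ) : ZMod p) = ∏ i ∈ s, (f i : ZMod p) := by
  classical
  induction s using Finset.induction_on with
  | empty => simp [pn_one]
  | insert a s ha ih =>
    obtain ⟨h1, h2⟩ := ih fun i hi => h i (mem_insert_of_mem hi)
    have h3 := h a (mem_insert_self _ _)
    rw [Finset.prod_insert ha, Finset.prod_insert ha, red_mul h3 h1, h2]
    exact ⟨by simpa using pn_mul_le h3 h1, rfl⟩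

theorem red_det {n : Type*} [Fintype n] [DecidableEq n] (A : Matrix n n ℚ)
    (h : ∀ r k, pn p (A r k) ≤ 1) :
    ((A.det : ℚ) : ZMod p) = (A.map fun x : ℚ => (x : ZMod p)).det := by
  rw [Matrix.det_apply', Matrix.det_apply', red_sum]
  · refine Finset.sum_congr rfl fun σ _ => ?_
    obtain ⟨h1, h2⟩ := Red_prod (p := p) univ (fun i => A (σ i) i) fun i _ => h _ _
    rw [red_mul (pn_int _) h1, h2]
    simp
  · intro σ _
    obtain ⟨h1, -⟩ := Red_prod (p := p) univ (fun i => A (σ i) i) fun i _ => h _ _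
    simpa using pn_mul_le (pn_int (p := p) (Equiv.Perm.sign σ : ℤ)) h1
/-- a nonzero rational is a unit at all large primes. -/
theorem red_eventually {x : ℚ} (hx : x ≠ 0) :
    ∃ P : ℕ, ∀ (q : ℕ) [Fact q.Prime], P < q → pn q x = 1 := by
  refine ⟨x.num.natAbs + x.den, fun q _ hq => ?_⟩
  have hn : x.num.natAbs ≠ 0 := by simpa using hx
  have h1 : ¬ q ∣ x.den := fun h => by
    have := Nat.le_of_dvd x.den_pos h
    omega
  have h2 : ¬ (q : ℤ) ∣ x.num := fun h => by
    have := Nat.le_of_dvd (Nat.pos_of_ne_zero hn) (Int.natCast_dvd.mp h)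
    omega
  have h3 := Red_num_eq (p := q) x
  rw [pn_int_of_not_dvd h2, pn_nat_of_not_dvd h1, mul_one] at h3
  exact h3.symm

end Vale.Agent.P030
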