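import Vale.Agent.P030.NVa
import Vale.Agent.P030.Red
import Vale.Agent.P030.Ent

namespace Vale.Agent.P030

open Polynomial Finset

variable {p : ℕ} [Fact p.Prime]

omit [Fact p.Prime] in
theorem nve_A {N r : ℕ} (hr : r ≤ 36 * N) (x : ℕ) :
    ∑ i ∈ range (49 * N + 1), (rowA N r).coeff i * aE p x i = (Ep p * rowA N r).coeff x := by
  rw [mul_comm (Ep p), coeff_mul, Finset.Nat.sum_antidiagonal_eq_sum_range_succ_mk]
  have h1 : ∑ i ∈ range (49 * N + 1), (rowA N r).coeff i * aE p x i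
      = ∑ i ∈ range (49 * N + 1 + x + 1), (rowA N r).coeff i * aE p x i := by
    refine sum_subset (range_subset_range.2 (by omega)) fun i _ hi => ?_
    rw [rowA_high hr (by have := mem_range.not.1 hi; omega), zero_mul]
  rw [h1]
  symm
  refine sum_subset_zero_on_sdiff (range_subset_range.2 (by omega)) (fun i hi => ?_) (fun i hi => ?_)
  · have : ¬ i ≤ x := by
      have := mem_range.not.1 (mem_sdiff.1 hi).2
      omega
    simp [aE, this]
  · have : i ≤ x := by have := mem_range.1 hi; omega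
    simp [aE, this]

omit [Fact p.Prime] in
theorem nve_D {r l : ℕ} (hr : r ≤ 36 * p) (hl : l < p) (f : ℕ → ℚ) :
    ∑ i ∈ range (49 * p + 1), ((rowD p r).coeff i : ℚ) * (if i % p = l then f (i / p) else 0)
      = ∑ u ∈ range 50, ((rowD p r).coeff (p * u + l) : ℚ) * f u := by
  have hp : 0 < p := by omega
  have h1 : ∑ i ∈ range (49 * p + 1), ((rowD p r).coeff i : ℚ) * (if i % p = l then f (i / p) else 0)
      = ∑ i ∈ range (50 * p), ((rowD p r).coeff i : ℚ) * (if i % p = l then f (i / p) else 0) := by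
    refine sum_subset (range_subset_range.2 (by omega)) fun i _ hi => ?_
    rw [rowD_high hr (by have := mem_range.not.1 hi; omega)]; simp
  rw [h1]
  simp only [mul_ite, mul_zero]
  rw [← sum_filter]
  symm
  refine sum_bij (fun u _ => p * u + l) (fun u hu => ?_) (fun u _ v _ h => ?_) (fun i hi => ?_)
    (fun u _ => ?_)
  · rw [mem_filter, mem_range, Nat.mul_add_mod, Nat.mod_eq_of_lt hl]
    have := mem_range.1 hu
    exact ⟨by nlinarith, rfl⟩
  · exact Nat.eq_of_mul_eq_mul_left hp (by omega)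
  · rw [mem_filter, mem_range] at hi
    refine ⟨i / p, mem_range.2 ((Nat.div_lt_iff_lt_mul hp).2 hi.1), ?_⟩
    rw [← hi.2, Nat.div_add_mod]
  · rw [Nat.mul_add_div hp, Nat.div_eq_of_lt hl, add_zero]

theorem nv_ent (hp : 50 < p) {G : ℚ} (hG : pn p G ≤ 1) {r l v : ℕ} (hr : r < 36 * p) (hl : l < p)
    (hv : v < 44) : (((p : ℚ) ^ 2 * ent G p r (p * v + l) : ℚ) : ZMod p)
      = ∑ u ∈ range 50, (((Ep p * rowA p r).coeff (p * u + l) : ℤ) : ZMod p) * ((M0 u v : ℚ) : ZMod p)
        - ((3 / 2 : ℚ) : ZMod p) * ∑ u ∈ range 50,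
          (((rowD p r).coeff (p * u + l) : ℤ) : ZMod p) * ((Z0 u v : ℚ) : ZMod p) := by
  have hp2 : p ≠ 2 := by omega
  have hp0 : 0 < p := by omega
  have hm : (p * v + l) % p = l := by rw [Nat.mul_add_mod, Nat.mod_eq_of_lt hl]
  have hd : (p * v + l) / p = v := by rw [Nat.mul_add_div hp0, Nat.div_eq_of_lt hl, add_zero]
  have hj : p * v + l ≤ p * 49 := by nlinarith
  have hsq : p * 49 < p ^ 2 := by nlinarith
  have key := ent_cong hp2 hG (N := p) (r := r) (j := p * v + l) ent_pn_p2 _ _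
    (fun i hi => fr_M0 hp2 (U := 49) (by omega) (by omega) hj)
    (fun i hi => fr_Z0 (by omega) (by omega))
  rw [hm, hd, nve_D hr.le hl (fun u => Z0 u v)] at key
  have hA : ∑ i ∈ range (49 * p + 1), ((rowA p r).coeff i : ℚ) *
      ∑ u ∈ range (49 + 1), (aE p (p * u + l) i : ℚ) * M0 u v
      = ∑ u ∈ range 50, (((Ep p * rowA p r).coeff (p * u + l) : ℤ) : ℚ) * M0 u v := by
    simp only [mul_sum]
    rw [sum_comm]
    refine sum_congr rfl fun u _ => ?_
    rw [← nve_A hr.le]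
    push_cast
    rw [sum_mul]
    simp only [mul_assoc]
  rw [hA] at key
  have hlog : Nat.log p 50 = 0 := Nat.log_of_lt hp
  have hM : ∀ u ∈ range 50, pn p (M0 u v) ≤ 1 := fun u hu => by
    have := pn_M0 (p := p) hp2 (i := u) (j := v) (T := 50) (mem_range.1 hu).le (by omega)
    rwa [hlog, mul_zero, pow_zero] at this
  have hZ : ∀ u ∈ range 50, pn p (Z0 u v) ≤ 1 := fun u hu => by
    have := pn_Z0 (p := p) (i := u) (j := v) (T := 50) (mem_range.1 hu).le (by omega)
    rwa [hlog, mul_zero, pow_zero] at this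
  have s1 : pn p (∑ u ∈ range 50, (((Ep p * rowA p r).coeff (p * u + l) : ℤ) : ℚ) * M0 u v) ≤ 1 :=
    pn_sum_le _ _ zero_le_one fun u hu => ent_mul1 (pn_int _) (hM u hu)
  have s2 : pn p (∑ u ∈ range 50, ((rowD p r).coeff (p * u + l) : ℚ) * Z0 u v) ≤ 1 :=
    pn_sum_le _ _ zero_le_one fun u hu => ent_mul1 (pn_int _) (hZ u hu)
  have s3 := ent_mul1 (ent_pn32 hp2) s2
  rw [red_congr key (pn_sub_le s1 s3), red_sub s1 s3, red_mul (ent_pn32 hp2) s2,
    red_sum _ _ fun u hu => ent_mul1 (pn_int _) (hM u hu),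
    red_sum _ _ fun u hu => ent_mul1 (pn_int _) (hZ u hu)]
  congr 1
  · refine sum_congr rfl fun u hu => ?_
    rw [red_mul (pn_int _) (hM u hu), Rat.cast_intCast]
  · congr 1
    refine sum_congr rfl fun u hu => ?_
    rw [red_mul (pn_int _) (hZ u hu), Rat.cast_intCast]

end Vale.Agent.P030
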