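import Vale.Agent.P030.NVb
import Vale.Agent.P030.NVc
import Vale.Agent.P030.NVe

namespace Vale.Agent.P030

open Polynomial Finset

section

variable {p : ℕ} [Fact p.Prime]

theorem NVd_M0 (hp : 50 < p) {u v : ℕ} (hu : u < 50) (hv : v < 44) : pn p (M0 u v) ≤ 1 := by
  have := pn_M0 (p := p) (by omega) (T := 50) hu.le (by omega : v ≤ 50)
  rwa [Nat.log_of_lt hp, mul_zero, pow_zero] at this

theorem NVd_Z0 (hp : 50 < p) {u v : ℕ} (hu : u < 50) (hv : v < 44) : pn p (Z0 u v) ≤ 1 := by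
  have := pn_Z0 (p := p) (T := 50) hu.le (by omega : v ≤ 50)
  rwa [Nat.log_of_lt hp, mul_zero, pow_zero] at this

theorem NVd_half (hp : 50 < p) : pn p (3 / 2) ≤ 1 := by
  rw [pn_div, CF_pn_two (by omega), div_one]
  exact_mod_cast pn_nat (p := p) 3

theorem NVd_int_mul (z : ℤ) {x : ℚ} (hx : pn p x ≤ 1) :
    pn p (z * x) ≤ 1 ∧ (((z : ℚ) * x : ℚ) : ZMod p) = (z : ZMod p) * (x : ZMod p) :=
  ⟨by simpa using pn_mul_le (pn_int z) hx, by rw [red_mul (pn_int z) hx, Rat.cast_intCast]⟩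

theorem NVd_sum (n : ℕ) (z : ℕ → ℤ) (x : ℕ → ℚ) (hx : ∀ i, i < n → pn p (x i) ≤ 1) :
    pn p (∑ i ∈ range n, z i * x i) ≤ 1 ∧
      ((∑ i ∈ range n, (z i : ℚ) * x i : ℚ) : ZMod p)
        = ∑ i ∈ range n, (z i : ZMod p) * (x i : ZMod p) := by
  have h : ∀ i ∈ range n, pn p (z i * x i) ≤ 1 :=
    fun i hi => (NVd_int_mul (z i) (hx i (mem_range.mp hi))).1
  refine ⟨pn_sum_le _ _ zero_le_one h, ?_⟩
  rw [red_sum _ _ h]
  exact Finset.sum_congr rfl fun i hi => (NVd_int_mul (z i) (hx i (mem_range.mp hi))).2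

theorem NVd_ent (hp : 50 < p) (r : ℕ) {v : ℕ} (hv : v < 44) :
    pn p (ent 0 1 r v) ≤ 1 ∧ ((ent 0 1 r v : ℚ) : ZMod p)
      = ∑ u ∈ range 50, (((rowA 1 r).coeff u : ℤ) : ZMod p) * ((M0 u v : ℚ) : ZMod p)
        - ((3 / 2 : ℚ) : ZMod p) * ∑ u ∈ range 50,
          (((rowD 1 r).coeff u : ℤ) : ZMod p) * ((Z0 u v : ℚ) : ZMod p) := by
  obtain ⟨h1, h2⟩ := NVd_sum (p := p) 50 (fun u => (rowA 1 r).coeff u) (fun u => M0 u v)
    fun u hu => NVd_M0 hp hu hv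
  obtain ⟨h3, h4⟩ := NVd_sum (p := p) 50 (fun u => (rowD 1 r).coeff u) (fun u => Z0 u v)
    fun u hu => NVd_Z0 hp hu hv
  have e : ent 0 1 r v = ∑ u ∈ range 50, ((rowA 1 r).coeff u : ℚ) * M0 u v
      - 3 / 2 * ∑ u ∈ range 50, ((rowD 1 r).coeff u : ℚ) * Z0 u v := by
    simp only [ent, mul_zero, zero_mul, add_zero]
  have h5 : pn p (3 / 2 * ∑ u ∈ range 50, ((rowD 1 r).coeff u : ℚ) * Z0 u v) ≤ 1 := by
    simpa using pn_mul_le (NVd_half hp) h3
  rw [e]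
  exact ⟨pn_sub_le h1 h5, by rw [red_sub h1 h5, red_mul (NVd_half hp) h3, h2, h4]⟩

theorem NVd_mat (hp : 50 < p) (r k : ℕ) :
    pn p (mat 0 1 r k) ≤ 1 ∧ ((mat 0 1 r k : ℚ) : ZMod p)
      = ∑ v ∈ range 44, (((col 1 k).coeff v : ℤ) : ZMod p) * ((ent 0 1 r v : ℚ) : ZMod p) :=
  NVd_sum (p := p) 44 (fun v => (col 1 k).coeff v) (fun v => ent 0 1 r v)
    fun _ hv => (NVd_ent hp r hv).1

theorem NVd_ent_int (hp : 50 < p) {G : ℚ} (hG : pn p G ≤ 1) (r : ℕ) {j : ℕ} (hj : j < 44 * p) :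
    pn p ((p : ℚ) ^ 2 * ent G p r j) ≤ 1 := by
  have h := ent_e0 (p := p) (by omega) hG (N := p) (r := r) (by nlinarith) hj
  have hp0 : (0 : ℝ) < p := by exact_mod_cast (by omega : 0 < p)
  rw [pn_mul, pn_pow, pn_p, one_div_pow, one_div, inv_mul_le_iff₀ (by positivity), mul_one]
  exact h

theorem NVd_main (hp : 50 < p) {G : ℚ} (hG : pn p G ≤ 1) (a b : ℕ → (ZMod p)[X])
    (hdeg : ∀ r0, r0 < p → (a r0).natDegree < p ∧ (b r0).natDegree < p)
    (hab : ∀ r0 r1, r0 < p → r1 < 36 →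
      (Ep p * rowA p (p * r1 + r0)).map (Int.castRingHom (ZMod p))
        = a r0 * expand (ZMod p) p ((rowA 1 r1).map (Int.castRingHom (ZMod p)))
          + b r0 * expand (ZMod p) p ((rowA 1 (r1 + 1)).map (Int.castRingHom (ZMod p))) ∧
      (rowD p (p * r1 + r0)).map (Int.castRingHom (ZMod p))
        = a r0 * expand (ZMod p) p ((rowD 1 r1).map (Int.castRingHom (ZMod p)))
          + b r0 * expand (ZMod p) p ((rowD 1 (r1 + 1)).map (Int.castRingHom (ZMod p))))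
    {r0 r1 k1 l0 : ℕ} (hr0 : r0 < p) (hr1 : r1 < 36) (hl0 : l0 < p) :
    pn p ((p : ℚ) ^ 2 * mat G p (p * r1 + r0) (p * k1 + l0)) ≤ 1 ∧
    (((p : ℚ) ^ 2 * mat G p (p * r1 + r0) (p * k1 + l0) : ℚ) : ZMod p)
      = (a r0).coeff l0 * ((mat 0 1 r1 k1 : ℚ) : ZMod p)
        + (b r0).coeff l0 * ((mat 0 1 (r1 + 1) k1 : ℚ) : ZMod p) := by
  have hp0 : 0 < p := by omega
  obtain ⟨h1, h2⟩ := NVd_sum (p := p) (44 * p) (fun j => (col p (p * k1 + l0)).coeff j)
    (fun j => (p : ℚ) ^ 2 * ent G p (p * r1 + r0) j) fun j hj => NVd_ent_int hp hG _ hj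
  have e : (p : ℚ) ^ 2 * mat G p (p * r1 + r0) (p * k1 + l0)
      = ∑ j ∈ range (44 * p), ((col p (p * k1 + l0)).coeff j : ℚ)
        * ((p : ℚ) ^ 2 * ent G p (p * r1 + r0) j) := by
    rw [mat, Finset.mul_sum]
    exact Finset.sum_congr rfl fun j _ => by ring
  rw [e]
  refine ⟨h1, ?_⟩
  rw [h2, NVb_sum_mul, (NVd_mat hp r1 k1).2, (NVd_mat hp (r1 + 1) k1).2, Finset.mul_sum,
    Finset.mul_sum, ← Finset.sum_add_distrib]
  refine Finset.sum_congr rfl fun v hv => ?_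
  have hv' := mem_range.mp hv
  have hc : ∀ l, l < p → (((col p (p * k1 + l0)).coeff (p * v + l) : ℤ) : ZMod p)
      = (if l = l0 then 1 else 0) * (((col 1 k1).coeff v : ℤ) : ZMod p) := fun l hl => by
    have := congrArg (fun q => q.coeff (p * v + l)) (nv_col p k1 l0)
    simp only [coeff_map, eq_intCast] at this
    rw [this, nv_coeff hp0 _ _ (by rwa [natDegree_X_pow]) hl, coeff_X_pow, coeff_map, eq_intCast]
  rw [Finset.sum_eq_single l0]
  · have hr : p * r1 + r0 < 36 * p := by nlinarith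
    have hA : ∀ u, (((Ep p * rowA p (p * r1 + r0)).coeff (p * u + l0) : ℤ) : ZMod p)
        = (a r0).coeff l0 * (((rowA 1 r1).coeff u : ℤ) : ZMod p)
          + (b r0).coeff l0 * (((rowA 1 (r1 + 1)).coeff u : ℤ) : ZMod p) := fun u => by
      have := congrArg (fun q => q.coeff (p * u + l0)) (hab r0 r1 hr0 hr1).1
      simp only [coeff_map, eq_intCast, coeff_add] at this
      rw [this, nv_coeff hp0 _ _ (hdeg r0 hr0).1 hl0, nv_coeff hp0 _ _ (hdeg r0 hr0).2 hl0,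
        coeff_map, coeff_map, eq_intCast, eq_intCast]
    have hD : ∀ u, (((rowD p (p * r1 + r0)).coeff (p * u + l0) : ℤ) : ZMod p)
        = (a r0).coeff l0 * (((rowD 1 r1).coeff u : ℤ) : ZMod p)
          + (b r0).coeff l0 * (((rowD 1 (r1 + 1)).coeff u : ℤ) : ZMod p) := fun u => by
      have := congrArg (fun q => q.coeff (p * u + l0)) (hab r0 r1 hr0 hr1).2
      simp only [coeff_map, eq_intCast, coeff_add] at this
      rw [this, nv_coeff hp0 _ _ (hdeg r0 hr0).1 hl0, nv_coeff hp0 _ _ (hdeg r0 hr0).2 hl0,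
        coeff_map, coeff_map, eq_intCast, eq_intCast]
    rw [hc l0 hl0, if_pos rfl, one_mul, nv_ent hp hG hr hl0 hv', (NVd_ent hp r1 hv').2,
      (NVd_ent hp (r1 + 1) hv').2]
    simp only [hA, hD, add_mul, Finset.sum_add_distrib, mul_assoc, ← Finset.mul_sum]
    ring
  · intro l hl hne
    rw [hc l (mem_range.mp hl), if_neg hne, zero_mul, zero_mul]
  · intro h
    exact absurd (mem_range.mpr hl0) h

theorem NVd_base {n : ℕ} (A : Matrix (Fin n) (Fin n) ℚ) (B : Matrix (Fin n) (Fin n) (ZMod p))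
    (h : ∀ r k, pn p (A r k) ≤ 1 ∧ ((A r k : ℚ) : ZMod p) = B r k) :
    ((A.det : ℚ) : ZMod p) = B.det := by
  rw [red_det A fun r k => (h r k).1]
  congr 1
  ext r k
  exact (h r k).2

end

theorem nonvanish (G : ℚ) : ∃ P : ℕ, ∀ p : ℕ, p.Prime → P < p → Delta G p ≠ 0 := by
  obtain ⟨P0, h0⟩ := red_eventually nv_base0
  obtain ⟨P1, h1⟩ := red_eventually nv_basep
  obtain ⟨P2, h2⟩ := red_eventually nv_basem
  refine ⟨50 + G.den + P0 + P1 + P2, fun p hpp hp hD => ?_⟩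
  haveI := Fact.mk hpp
  have hp50 : 50 < p := by omega
  have hG : pn p G ≤ 1 := pn_le_one_of_not_dvd_den fun h => by
    have := Nat.le_of_dvd G.den_pos h
    omega
  obtain ⟨a, b, hdeg, ha0, hb0, hb, hdvd, hab⟩ := nv_rows p (by omega)
  have h2' : (2 : ZMod p) ≠ 0 := by
    have : ((2 : ℕ) : ZMod p) ≠ 0 := by
      rw [Ne, ZMod.natCast_eq_zero_iff]
      exact fun h => by
        have := Nat.le_of_dvd two_pos h
        omega
    exact_mod_cast this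
  have hodd : p % 2 = 1 := by
    have := hpp.eq_two_or_odd
    omega
  refine nv_kernel h2' (n := 36) hodd a b (fun r k => ((mat 0 1 r k : ℚ) : ZMod p)) hdeg ha0 hb0 hb
    hdvd ?_ ?_ ?_ ?_
  · rw [← NVd_base (Matrix.of fun r k : Fin 36 => mat 0 1 r k) _ fun r k => ?_]
    · exact red_ne_zero (h0 p (by omega))
    · exact ⟨(NVd_mat hp50 r k).1, rfl⟩
  · rw [← NVd_base (Matrix.of fun r k : Fin 36 => mat 0 1 (r + 1) k - mat 0 1 r k) _
      fun r k => ?_]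
    · exact red_ne_zero (h1 p (by omega))
    · exact ⟨pn_sub_le (NVd_mat hp50 _ k).1 (NVd_mat hp50 r k).1,
        red_sub (NVd_mat hp50 _ k).1 (NVd_mat hp50 r k).1⟩
  · rw [← NVd_base (Matrix.of fun r k : Fin 36 => mat 0 1 (r + 1) k + mat 0 1 r k) _
      fun r k => ?_]
    · exact red_ne_zero (h2 p (by omega))
    · exact ⟨pn_add_le (NVd_mat hp50 _ k).1 (NVd_mat hp50 r k).1,
        red_add (NVd_mat hp50 _ k).1 (NVd_mat hp50 r k).1⟩
  · rw [← NVd_base (((p : ℚ) ^ 2) • Matrix.of fun r k : Fin (36 * p) => mat G p r k) _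
      fun r k => ?_]
    · rw [Matrix.det_smul]
      unfold Delta at hD
      rw [hD, mul_zero, Rat.cast_zero]
    · have := NVd_main hp50 hG a b hdeg hab (r0 := r % p) (r1 := r / p) (k1 := k / p)
        (l0 := k % p) (Nat.mod_lt _ (by omega))
        (Nat.div_lt_of_lt_mul (r.2.trans_eq (mul_comm 36 p))) (Nat.mod_lt _ (by omega))
      rw [Nat.div_add_mod, Nat.div_add_mod] at this
      exact this

end Vale.Agent.P030
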