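import Vale.Agent.P030.Ent
import Vale.Agent.P030.LA

namespace Vale.Agent.P030

open Polynomial Finset

variable {p : ℕ} [Fact p.Prime]

theorem odda_const (G : ℚ) {N : ℕ} {c : ℝ} (hc : 0 ≤ c)
    (h : ∀ r, ∀ j < 44 * N, pn p (ent G N r j) ≤ c) : pn p (Delta G N) ≤ c ^ (36 * N) := by
  rw [Delta, pn_det]
  refine (la_det_le _ (fun _ => c) (fun _ => 1) (fun _ => hc) (fun _ => zero_le_one)
    fun r k => ?_).trans (by simp)
  change pn p (mat G N r k) ≤ _
  rw [mat]
  refine pn_sum_le (p := p) _ _ (by positivity) fun j hj => ?_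
  rw [mul_comm c]
  exact pn_mul_le (pn_int _) (h _ j (mem_range.1 hj))

theorem odd_crude (hp : p ≠ 2) (G : ℚ) {N : ℕ} (hN : 1 ≤ N) :
    pn p (Delta G N) ≤ ((49 * (N : ℝ)) ^ 2 * G.den) ^ (36 * N) :=
  odda_const G (by positivity) fun _ _ hj => ent_crude hp G hN hj
theorem odd_b0 (hp : p ≠ 2) {G : ℚ} (hG : pn p G ≤ 1) {N : ℕ} (hN : 49 * N < p ^ 2) :
    pn p (Delta G N) ≤ (p : ℝ) ^ (72 * N) := by
  rw [show 72 * N = 2 * (36 * N) by ring, pow_mul]
  exact odda_const G (by positivity) fun _ _ hj => ent_e0 hp hG hN hj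

theorem odda_of_sq {x : ℚ} (h : pn p ((p : ℚ) ^ 2 * x) ≤ 1 / p) : pn p ((p : ℚ) ^ 1 * x) ≤ 1 := by
  have h0 : (0 : ℝ) < p := by exact_mod_cast (Fact.out : p.Prime).pos
  rw [pow_succ', mul_assoc, pn_mul, pn_p] at h
  exact le_of_mul_le_mul_left (h.trans_eq (mul_one _).symm) (by positivity)

theorem odda_sq {x : ℚ} (h : pn p x ≤ (p : ℝ) ^ 2) : pn p ((p : ℚ) ^ 2 * x) ≤ 1 := by
  have h0 : (0 : ℝ) < p := by exact_mod_cast (Fact.out : p.Prime).pos
  rw [pn_mul, pn_pow, pn_p, one_div, inv_pow, inv_mul_le_iff₀ (by positivity), mul_one]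
  exact h

theorem odd_gen (G : ℚ) (N : ℕ) (T : Finset ℕ) (d : ℕ → ℕ) (U V : ℕ → ℕ → ℚ) (D : ℕ)
    (hU : ∀ r < 36 * N, ∀ l ∈ T, pn p (U r l) ≤ 1)
    (hV : ∀ l ∈ T, ∀ j ∈ Ico (6 * N) (44 * N), pn p (V l j) ≤ 1)
    (h : ∀ r < 36 * N, ∀ j ∈ Ico (6 * N) (44 * N),
      pn p ((p : ℚ) ^ d j * ent G N r j - (∑ l ∈ T, U r l * V l j) / p) ≤ 1)
    (hD : ∀ s ⊆ Ico (6 * N) (44 * N), #s = 36 * N → ∑ j ∈ s, d j ≤ D) :
    pn p (Delta G N) ≤ (p : ℝ) ^ (#T + D) := by
  have h0 : (1 : ℝ) < p := by exact_mod_cast (Fact.out : p.Prime).one_lt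
  have h1 : (p : ℚ) ≠ 0 := by exact_mod_cast (Fact.out : p.Prime).ne_zero
  have e : (Matrix.of fun r k : Fin (36 * N) => mat G N r k).map (fun x : ℚ => (x : ℚ_[p])) =
      (Matrix.of fun (r : Fin (36 * N)) (j : Ico (6 * N) (44 * N)) =>
        (((p : ℚ) ^ d j * ent G N r j : ℚ) : ℚ_[p])) *
      Matrix.of fun (j : Ico (6 * N) (44 * N)) (k : Fin (36 * N)) =>
        ((((col N k).coeff j : ℚ) / p ^ d j : ℚ) : ℚ_[p]) := by
    ext r k
    simp only [Matrix.map_apply, Matrix.of_apply, Matrix.mul_apply, ← Rat.cast_mul, ← Rat.cast_sum]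
    congr 1
    rw [mat, sum_coe_sort _ fun j => (p : ℚ) ^ d j * ent G N r j * (((col N k).coeff j : ℚ) / p ^ d j),
      ← sum_subset (s₁ := Ico (6 * N) (44 * N)) (fun j hj => mem_range.2 (mem_Ico.1 hj).2)
        fun j h2 h3 => by
          rw [col_low (by rw [mem_Ico] at h3; rw [mem_range] at h2; omega)]; simp]
    exact sum_congr rfl fun j _ => by field_simp
  rw [Delta, pn_det, e]
  refine la_cb _ _ _ (by positivity) fun f hf => ?_
  rw [pow_add]
  refine mul_le_mul ?_ ?_ (by positivity) (by positivity)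
  · have hx : ‖(((1 / p : ℚ)) : ℚ_[p])‖ = p := by
      change pn p _ = _
      rw [pn_div, pn_one, pn_p]; simp
    have := la_rank (K := ℚ_[p]) (n := Fin (36 * N)) (ι := T)
      (Matrix.of fun r k => (((p : ℚ) ^ d (f k) * ent G N r (f k) -
        (∑ l ∈ T, U r l * V l (f k)) / p : ℚ) : ℚ_[p]))
      (Matrix.of fun r l => ((U r l : ℚ) : ℚ_[p])) (Matrix.of fun l k => ((V l (f k) : ℚ) : ℚ_[p]))
      ((1 / p : ℚ) : ℚ_[p]) (hx.ge.trans' h0.le) (fun r k => h r r.2 _ (f k).2)
      (fun r l => hU r r.2 l l.2) fun l k => hV l l.2 _ (f k).2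
    rw [hx, Fintype.card_coe] at this
    refine le_of_eq_of_le ?_ this
    congr 2
    ext r k
    simp only [Matrix.submatrix_apply, Matrix.of_apply, Matrix.add_apply, Matrix.smul_apply,
      Matrix.mul_apply, ← Rat.cast_mul, ← Rat.cast_sum, smul_eq_mul, ← Rat.cast_add, id]
    rw [sum_coe_sort _ fun l => U r l * V l (f k)]
    congr 1; ring
  · calc _ ≤ ∏ k, (p : ℝ) ^ d (f k) := prod_le_prod (fun _ _ => norm_nonneg _) fun k _ => by
          change pn p _ ≤ _
          rw [pn_div, pn_pow, pn_p, one_div, inv_pow, div_inv_eq_mul]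
          exact mul_le_of_le_one_left (by positivity) (pn_int _)
      _ ≤ _ := by
          rw [prod_pow_eq_pow_sum]
          refine pow_le_pow_right₀ h0.le ?_
          have hi : Function.Injective fun k => (f k : ℕ) := Subtype.val_injective.comp hf
          rw [← sum_image (g := fun k => (f k : ℕ)) fun a _ b _ e => hi e]
          refine hD _ (fun j hj => ?_) (by rw [card_image_of_injective _ hi]; simp)
          obtain ⟨k, -, rfl⟩ := mem_image.1 hj
          exact (f k).2

theorem odd_b1 {G : ℚ} (hG : pn p G ≤ 1) {N : ℕ} (hN : 1 ≤ N) (h : 37 * N ≤ 2 * p) :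
    pn p (Delta G N) ≤ (p : ℝ) ^ (74 * N - (min p (44 * N) - max (6 * N) (49 * N + 1 - p))
      - (min (14 * N + 1) (44 * N - p) - max (6 * N) (49 * N + 1 - 2 * p))) := by
  have h1 : (p : ℚ) ≠ 0 := by exact_mod_cast (Fact.out : p.Prime).ne_zero
  have h2 : 49 * N < p ^ 2 := by nlinarith
  set A := Ico (max (6 * N) (49 * N + 1 - p)) (min p (44 * N)) with hA
  set B := Ico (p + max (6 * N) (49 * N + 1 - 2 * p)) (p + min (14 * N + 1) (44 * N - p)) with hB
  have key := odd_gen (p := p) G N (Ico (6 * N) (44 * N) \ (A ∪ B)) (fun _ => 1)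
    (fun r l => p ^ 2 * ent G N r l)
    (fun l j => if l = j then 1 else if j ∈ B ∧ l + p = j then -1 else 0) (36 * N)
    (fun r _ l hl => odda_sq (ent_e0 (by omega) hG h2 (mem_Ico.1 (mem_sdiff.1 hl).1).2))
    (fun l _ j _ => by split_ifs <;> simp [pn_neg, pn_one, pn_zero]) (fun r hr j hj => by
      by_cases b : j ∈ B
      · obtain ⟨l, rfl⟩ : ∃ l, j = p + l := ⟨j - p, by have := mem_Ico.1 b; omega⟩
        have b' := mem_Ico.1 b
        have a2 := ent_e2 (p := p) (by omega) hG hr (l := l) (by omega) (by omega) (by omega)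
        by_cases a : l ∈ A
        · rw [sum_eq_zero fun l' hl' => ?_, zero_div, sub_zero]
          · simpa using odda_of_sq (by simpa using (pn_sub_le a2
              (xi_small (by omega) hr (l := l) (by have := mem_Ico.1 a; omega))))
          · have := (mem_sdiff.1 hl').2
            rw [if_neg fun e : l' = p + l => this (e ▸ mem_union_right _ b),
              if_neg fun e : p + l ∈ B ∧ l' + p = p + l => this
              (mem_union_left _ ((show l = l' by have := e.2; omega) ▸ a)), mul_zero]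
        · rw [sum_eq_single l (fun l' hl' e => ?_) fun e => ?_, if_neg (by omega),
            if_pos ⟨b, add_comm _ _⟩]
          · have a1 := pn_add_le a2 (ent_e1 (p := p) (by omega) hG hr (l := l) (by omega) (by omega))
            convert odda_of_sq (x := ent G N r (p + l) + ent G N r l) (by
              convert a1 using 2; ring) using 2
            field_simp; ring
          · rw [if_neg fun e : l' = p + l => (mem_sdiff.1 hl').2 (e ▸ mem_union_right _ b),
              if_neg fun e : p + l ∈ B ∧ l' + p = p + l => by have := e.2; omega, mul_zero]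
          · refine absurd (mem_sdiff.2 ⟨mem_Ico.2 (by omega), fun e => ?_⟩) e
            rcases mem_union.1 e with e | e
            · exact a e
            · have := mem_Ico.1 e; omega
      · simp only [b, false_and, if_false, mul_ite, mul_one, mul_zero, sum_ite_eq']
        split_ifs with a
        · rw [show (p : ℚ) ^ 1 * ent G N r j - p ^ 2 * ent G N r j / p = 0 by field_simp; ring,
            pn_zero]
          exact zero_le_one
        · have a' : j ∈ A := by_contra fun e => a (mem_sdiff.2 ⟨hj, by simp [e, b]⟩)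
          have := mem_Ico.1 a'
          rw [zero_div, sub_zero]
          exact odda_of_sq (by simpa using (pn_add_le
            (ent_e1 (p := p) (by omega) hG hr (l := j) (by omega) (by omega))
            (xi_small (by omega) hr (l := j) (by omega))))) fun s _ hs => by simp [hs]
  refine key.trans_eq ?_
  congr 1
  rw [card_sdiff_of_subset (union_subset (Ico_subset_Ico (by omega) (by omega)) fun j hj => by
    have := mem_Ico.1 hj; exact mem_Ico.2 (by omega)), card_union_of_disjoint
    (disjoint_left.2 fun j h1 h2 => by have := mem_Ico.1 h1; have := mem_Ico.1 h2; omega)]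
  simp only [B, Nat.card_Ico]
  omega

end Vale.Agent.P030
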