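import Vale.Agent.P030.OddA

namespace Vale.Agent.P030

open Polynomial Finset

variable {p : ℕ} [Fact p.Prime]

theorem oddb_div {x y : ℚ} (h : pn p x ≤ 1 / p) (e : y = x / p) : pn p y ≤ 1 := by
  have h0 : (0 : ℝ) < p := by exact_mod_cast (Fact.out : p.Prime).pos
  rw [e, pn_div, pn_p, div_le_one (by positivity)]
  exact h

theorem oddb_cnt (a b : ℕ) (P : ℕ → Prop) [DecidablePred P] (c d : ℕ)
    (h : ∀ j, a ≤ j → j < b → (P j ↔ c ≤ j ∧ j < d)) (h1 : a ≤ c) (h2 : d ≤ b) :
    ∑ j ∈ Ico a b, (if P j then 1 else 0) = d - c := by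
  rw [← card_filter, ← Nat.card_Ico]
  congr 1
  ext j
  simp only [mem_filter, mem_Ico]
  constructor
  · exact fun e => (h j e.1.1 e.1.2).1 e.2
  · exact fun e => ⟨by omega, (h j (by omega) (by omega)).2 e⟩

theorem odd_b2 {G : ℚ} (hG : pn p G ≤ 1) {N : ℕ} (hN : 1 ≤ N) (h : 49 * N < 2 * p) :
    pn p (Delta G N) ≤ (p : ℝ) ^ ((49 * N + 1 - p)
      + (min (min (49 * N + 1 - p) p) (44 * N) - 6 * N) + (44 * N - p) + (30 * N - 1 - p)) := by
  have h1 : (p : ℚ) ≠ 0 := by exact_mod_cast (Fact.out : p.Prime).ne_zero
  have h2 : 49 * N < p ^ 2 := by nlinarith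
  obtain ⟨R, hR⟩ : ∃ R, R = 49 * N + 1 - p := ⟨_, rfl⟩
  have key := odd_gen (p := p) G N (range R)
    (fun j => (if j < R then 1 else 0) + (if p ≤ j then 1 else 0) + if p + 14 * N < j then 1 else 0)
    (fun r l => xi p N r l)
    (fun l j => if j < R then (if l = j then 1 else 0) else if j < p then 1 / ((l : ℚ) - j) else
      if j ≤ p + 14 * N then (if l = j - p then -1 else 0) else 0)
    ((min (min R p) (44 * N) - 6 * N) + (44 * N - p) + (30 * N - 1 - p))
    (fun r _ l _ => xi_le (by omega) N r l)
    (fun l hl j _ => by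
      have hl' := mem_range.1 hl
      split_ifs with a b c <;> try simp only [pn_neg, pn_one, pn_zero, le_refl, zero_le_one]
      rw [pn_div, pn_one, show (l : ℚ) - j = -((j - l : ℕ) : ℚ) by
        rw [Nat.cast_sub (by omega)]; ring, pn_neg,
        pn_nat_of_not_dvd fun e => by have := Nat.le_of_dvd (by omega) e; omega]
      simp)
    (fun r hr j hj => by
      have hj' := mem_Ico.1 hj
      by_cases a : j < R
      · simp only [a, if_true, if_neg (show ¬ p ≤ j by omega), if_neg (show ¬ p + 14 * N < j by omega),
          mul_ite, mul_one, mul_zero, sum_ite_eq', mem_range]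
        exact oddb_div (ent_e1 (by omega) hG hr (l := j) (by omega) (by omega)) (by field_simp; ring)
      by_cases b : j < p
      · simp only [a, b, if_true, if_false, if_neg (show ¬ p ≤ j by omega),
          if_neg (show ¬ p + 14 * N < j by omega), mul_one_div]
        exact oddb_div (ent_e3 (by omega) hG hr (R := R) (j := j) (by omega) b (by omega))
          (by field_simp; ring)
      by_cases c : j ≤ p + 14 * N
      · obtain ⟨l, rfl⟩ : ∃ l, j = p + l := ⟨j - p, by omega⟩
        have a2 := ent_e2 (p := p) (by omega) hG hr (l := l) (by omega) (by omega) (by omega)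
        simp only [a, b, c, if_true, if_false, if_pos (Nat.le_add_right p l),
          if_neg (show ¬ p + 14 * N < p + l by omega), mul_ite, mul_zero, sum_ite_eq', mem_range,
          Nat.add_sub_cancel_left]
        split_ifs with e
        · exact oddb_div a2 (by field_simp; ring)
        · exact oddb_div (pn_sub_le a2 (xi_small (by omega) hr (l := l) (by omega)))
            (by field_simp; ring)
      · simp only [a, b, c, if_false, if_pos (show p ≤ j by omega), if_pos (show p + 14 * N < j by omega),
          mul_zero, sum_const_zero, zero_div, sub_zero]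
        exact odda_sq (ent_e0 (by omega) hG h2 hj'.2))
    fun s hs _ => by
      refine (sum_le_sum_of_subset hs).trans_eq ?_
      rw [sum_add_distrib, sum_add_distrib,
        oddb_cnt _ _ _ (6 * N) (min (min R p) (44 * N)) (fun j _ _ => by omega) le_rfl (by omega),
        oddb_cnt _ _ _ p (44 * N) (fun j _ _ => by omega) (by omega) le_rfl,
        oddb_cnt _ _ _ (p + 14 * N + 1) (44 * N) (fun j _ _ => by omega) (by omega) le_rfl]
      omega
  rw [card_range, hR] at key
  simpa only [add_assoc] using key

end Vale.Agent.P030
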