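import Vale.Agent.P030.CD
import Vale.Agent.P030.PSI

namespace Vale.Agent.P030

open Finset

theorem pba_det {n : ℕ} (f : Fin n → Fin n → ℝ) {x : ℝ} (h : ∀ i j, |f i j| ≤ x) :
    |(Matrix.of f).det| ≤ (n.factorial : ℝ) * x ^ n := by
  have := Matrix.det_le (A := Matrix.of f) (abv := AbsoluteValue.abs) (x := x) h
  simpa using this

theorem pba_two_le (k : ℕ) : (2 : ℝ) ^ k ≤ Real.exp k := by
  rw [← Real.exp_one_pow]
  exact pow_le_pow_left₀ (by norm_num) (by linarith [Real.add_one_le_exp 1]) k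

theorem pba_fact (n : ℕ) : (n.factorial : ℝ) ≤ 2 ^ (n * n) := by
  have h1 : n.factorial ≤ n ^ n := Nat.factorial_le_pow n
  have h2 : n ^ n ≤ (2 ^ n) ^ n := Nat.pow_le_pow_left Nat.lt_two_pow_self.le n
  rw [← pow_mul] at h2
  exact_mod_cast h1.trans h2

theorem pba_vdm {n : ℕ} {x : Fin n → ℝ} (h0 : ∀ i, 0 < x i) (h1 : ∀ i, x i < 1) : |vdm x| ≤ 1 := by
  rw [vdm, Finset.abs_prod]
  refine Finset.prod_le_one (fun _ _ => abs_nonneg _) fun i _ => ?_
  rw [Finset.abs_prod]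
  refine Finset.prod_le_one (fun _ _ => abs_nonneg _) fun j _ => ?_
  rw [abs_le]
  constructor <;> linarith [h0 i, h0 j, h1 i, h1 j]

theorem pba_cos {a : ℝ} (h0 : 0 < a) (h1 : a < Real.pi) : -1 < Real.cos a ∧ Real.cos a < 1 := by
  have := Real.sin_pos_of_pos_of_lt_pi h0 h1
  have h2 := Real.sin_sq_add_cos_sq a
  constructor <;> nlinarith

theorem pba_fac {a : ℝ} (h0 : 0 < a) (h1 : a < Real.pi) (hc : Real.cos a ≠ 0) {N : ℕ} (hN : 1 ≤ N) :
    (1 - Real.cos a) ^ (2 * N) * |Real.cos a| ^ (47 * N) / |ww a| ^ (33 * N - 1)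
      ≤ (1 - Real.cos a) * 2 ^ (49 * N) := by
  obtain ⟨c1, c2⟩ := pba_cos h0 h1
  have w0 : 0 < |ww a| := abs_pos.2 (ww_ne_zero h0 h1 hc)
  have w1 := (ww_abs_lt h0 h1).le
  have e1 : |Real.cos a| ≤ 2 * |ww a| := by
    rw [cos_eq_ww h0 h1, abs_div, abs_mul, abs_two, abs_of_pos (by positivity : 0 < 1 + ww a ^ 2)]
    exact div_le_self (by positivity) (by nlinarith [sq_nonneg (ww a)])
  have e2 : |Real.cos a| ^ (47 * N) ≤ 2 ^ (47 * N) * |ww a| ^ (33 * N - 1) := by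
    refine (pow_le_pow_left₀ (abs_nonneg _) e1 _).trans ?_
    rw [mul_pow]
    exact mul_le_mul_of_nonneg_left (pow_le_pow_of_le_one w0.le w1 (by omega)) (by positivity)
  have e3 : (1 - Real.cos a) ^ (2 * N) ≤ (1 - Real.cos a) * 2 ^ (2 * N) := by
    obtain ⟨k, hk⟩ : ∃ k, 2 * N = k + 1 := ⟨2 * N - 1, by omega⟩
    rw [hk, pow_succ']
    refine mul_le_mul_of_nonneg_left ((pow_le_pow_left₀ (by linarith) (by linarith) k).trans
      (pow_le_pow_right₀ one_le_two (Nat.le_succ k))) (by linarith)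
  rw [div_le_iff₀ (by positivity)]
  calc _ ≤ ((1 - Real.cos a) * 2 ^ (2 * N)) * (2 ^ (47 * N) * |ww a| ^ (33 * N - 1)) :=
        mul_le_mul e3 e2 (by positivity) (mul_nonneg (by linarith) (by positivity))
    _ = _ := by ring
theorem pb_crude : ∃ δ : ℝ, 0 < δ ∧ ∀ᶠ N : ℕ in Filter.atTop, ∀ a b : Fin (36 * N) → ℝ,
    (∀ i, 0 < a i) → (∀ i, a i < Real.pi) → (∀ i, Real.cos (a i) ≠ 0) →
    (∀ i, 0 < b i) → (∀ i, b i < Real.pi) →
    eta * (36 * N) < ((univ.filter fun j => 1 - δ < zz (b j)).card : ℝ) →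
    Itg N a (fun j => ss (b j)) ≤ Real.exp (-2504.4 * (N : ℝ) ^ 2) := by
  refine ⟨Real.exp (-5000000), Real.exp_pos _, ?_⟩
  filter_upwards [Filter.eventually_ge_atTop 1] with N hN a b a0 a1 ac b0 b1 hcard
  have hc := fun i => pba_cos (a0 i) (a1 i)
  have hs := fun j => ss_mem (b0 j) (b1 j)
  have d1 := psi_det_le hN a a0 a1 ac
  have d2 := pba_det (fun r i : Fin (36 * N) => ww (a i) ^ (36 * N - 1 - r)
      + rho (ww (a i)) * ww (a i) ^ (30 * N - 1) * ww (a i) ^ (r : ℕ)) (x := 2 ^ 3) fun r i => by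
    have w1 := (ww_abs_lt (a0 i) (a1 i)).le
    have p : ∀ k : ℕ, |ww (a i) ^ k| ≤ 1 := fun k => by
      rw [abs_pow]; exact pow_le_one₀ (abs_nonneg _) w1
    have r5 : |rho (ww (a i))| ≤ 5 := by
      unfold rho
      split_ifs <;> norm_num
    refine (abs_add_le _ _).trans ?_
    rw [abs_mul, abs_mul]
    have q := mul_le_mul (mul_le_mul r5 (p (30 * N - 1)) (abs_nonneg _) (by norm_num)) (p r)
      (abs_nonneg _) (by norm_num)
    linarith [p (36 * N - 1 - r)]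
  have d3 : ∏ i, (1 - Real.cos (a i)) ^ (2 * N) * |Real.cos (a i)| ^ (47 * N) / |ww (a i)| ^ (33 * N - 1)
      ≤ (∏ i, (1 - Real.cos (a i))) * (2 ^ (49 * N)) ^ (36 * N) := by
    refine (Finset.prod_le_prod (fun i _ => ?_) fun i _ => pba_fac (a0 i) (a1 i) (ac i) hN).trans
      (le_of_eq ?_)
    · have := (hc i).2
      have : 0 ≤ 1 - Real.cos (a i) := by linarith
      positivity
    · rw [Finset.prod_mul_distrib]
      simp
  have p0 : 0 ≤ ∏ i, (1 - Real.cos (a i)) := Finset.prod_nonneg fun i _ => by linarith [(hc i).2]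
  have d4 : (∏ i, (1 - Real.cos (a i))) *
      |(Matrix.of fun i j : Fin (36 * N) => 1 / (1 - Real.cos (a i) * ss (b j))).det|
      ≤ ((36 * N).factorial : ℝ) * 2 ^ (36 * N) := by
    rw [← abs_of_nonneg p0, ← abs_mul, ← Matrix.det_mul_column]
    refine pba_det _ fun i j => ?_
    obtain ⟨c1, c2⟩ := hc i
    obtain ⟨s0, s1⟩ := hs j
    have q : 0 < 1 - Real.cos (a i) * ss (b j) := by nlinarith
    rw [Matrix.of_apply, mul_one_div, abs_of_nonneg (div_nonneg (by linarith) q.le), div_le_iff₀ q]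
    rcases le_total 0 (Real.cos (a i)) with h | h <;> nlinarith
  have d5 : |(Matrix.of fun k j : Fin (36 * N) => Polynomial.aeval (ss (b j)) (col N k)).det|
      ≤ Real.exp (-7200 * (N : ℝ) ^ 2) := by
    rw [col_det N fun j => ss (b j), abs_mul]
    refine (mul_le_of_le_one_right (abs_nonneg _) (pba_vdm (fun j => (hs j).1) fun j => (hs j).2)).trans ?_
    have nn : ∀ j, 0 ≤ ss (b j) ^ (6 * N) * (1 - ss (b j)) ^ (2 * N) := fun j =>
      mul_nonneg (pow_nonneg (hs j).1.le _) (pow_nonneg (by linarith [(hs j).2]) _)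
    rw [abs_of_nonneg (Finset.prod_nonneg fun j _ => nn j)]
    have e : ∀ j, ss (b j) ^ (6 * N) * (1 - ss (b j)) ^ (2 * N) ≤
        if 1 - Real.exp (-5000000) < zz (b j) then (Real.exp (-5000000) ^ 2) ^ (2 * N) else 1 := by
      intro j
      obtain ⟨s0, s1⟩ := hs j
      refine (mul_le_of_le_one_left (pow_nonneg (by linarith) _) (pow_le_one₀ s0.le s1.le)).trans ?_
      split_ifs with h
      · refine pow_le_pow_left₀ (by linarith) ?_ _
        obtain ⟨z0, z1⟩ := zz_mem (b0 j) (b1 j)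
        have e1 : 1 - ss (b j) = (1 - zz (b j)) ^ 2 / (1 + zz (b j) ^ 2) := by
          unfold ss
          field_simp
          ring
        rw [e1]
        refine (div_le_self (sq_nonneg _) (by nlinarith [sq_nonneg (zz (b j))])).trans ?_
        exact pow_le_pow_left₀ (by linarith) (by linarith) 2
      · exact pow_le_one₀ (by linarith) (by linarith)
    refine (Finset.prod_le_prod (fun j _ => nn j) fun j _ => e j).trans ?_
    rw [← Finset.prod_filter, Finset.prod_const, ← pow_mul, ← pow_mul, ← Real.exp_nat_mul]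
    refine Real.exp_le_exp.2 ?_
    unfold eta at hcard
    push_cast
    have : (0 : ℝ) ≤ N := Nat.cast_nonneg N
    nlinarith
  have f := pba_fact (36 * N)
  have tot : (2 ^ (49 * N)) ^ (36 * N) * (((36 * N).factorial : ℝ) * (2 ^ 3) ^ (36 * N)) *
      (((36 * N).factorial : ℝ) * 2 ^ (36 * N)) ≤ Real.exp (4500 * (N : ℝ) ^ 2) := by
    calc _ ≤ (2 ^ (49 * N)) ^ (36 * N) * ((2 : ℝ) ^ (36 * N * (36 * N)) * (2 ^ 3) ^ (36 * N)) *
        (2 ^ (36 * N * (36 * N)) * 2 ^ (36 * N)) := by gcongr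
      _ = 2 ^ (4356 * N ^ 2 + 144 * N) := by
        simp only [← pow_mul, ← pow_add]
        congr 1
        ring
      _ ≤ 2 ^ (4500 * N ^ 2) := pow_le_pow_right₀ one_le_two (by nlinarith)
      _ ≤ _ := (pba_two_le (4500 * N ^ 2)).trans_eq (by push_cast; rfl)
  unfold Itg
  calc _ ≤ ((∏ i, (1 - Real.cos (a i))) * (2 ^ (49 * N)) ^ (36 * N) *
        (((36 * N).factorial : ℝ) * (2 ^ 3) ^ (36 * N))) *
        |(Matrix.of fun i j : Fin (36 * N) => 1 / (1 - Real.cos (a i) * ss (b j))).det| *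
        Real.exp (-7200 * (N : ℝ) ^ 2) := by
        gcongr
        exact d1.trans (mul_le_mul d3 d2 (abs_nonneg _) (by positivity))
    _ = (2 ^ (49 * N)) ^ (36 * N) * (((36 * N).factorial : ℝ) * (2 ^ 3) ^ (36 * N)) *
        ((∏ i, (1 - Real.cos (a i))) *
        |(Matrix.of fun i j : Fin (36 * N) => 1 / (1 - Real.cos (a i) * ss (b j))).det|) *
        Real.exp (-7200 * (N : ℝ) ^ 2) := by ring
    _ ≤ (2 ^ (49 * N)) ^ (36 * N) * (((36 * N).factorial : ℝ) * (2 ^ 3) ^ (36 * N)) *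
        (((36 * N).factorial : ℝ) * 2 ^ (36 * N)) * Real.exp (-7200 * (N : ℝ) ^ 2) := by gcongr
    _ ≤ Real.exp (4500 * (N : ℝ) ^ 2) * Real.exp (-7200 * (N : ℝ) ^ 2) := by gcongr
    _ ≤ _ := by
      rw [← Real.exp_add]
      exact Real.exp_le_exp.2 (by nlinarith [sq_nonneg (N : ℝ)])

end Vale.Agent.P030
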