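import Vale.Agent.P030.ENa
import Vale.Agent.P030.ENb

namespace Vale.Agent.P030

open Finset

theorem PBc_r (K : ℕ) {δ : ℝ} (hδ : 0 < δ) : ∃ r : ℝ, 0 < r ∧ r < 1 ∧
    7 * K * (1 - r) - 2 * Real.log r + 2 * (1 - r) / δ ≤ 1 / 100000 := by
  have hc : ContinuousAt (fun r : ℝ => 7 * K * (1 - r) - 2 * Real.log r + 2 * (1 - r) / δ) 1 := by
    have : ContinuousAt Real.log 1 := Real.continuousAt_log one_ne_zero
    fun_prop (disch := exact hδ.ne')
  have h1 : ∀ᶠ r : ℝ in nhds 1, 7 * K * (1 - r) - 2 * Real.log r + 2 * (1 - r) / δ ≤ 1 / 100000 :=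
    hc.eventually (eventually_le_nhds (by simp))
  have h2 : ∀ᶠ r : ℝ in nhds 1, 0 < r := eventually_gt_nhds one_pos
  have h3 : ∀ᶠ r : ℝ in nhdsWithin 1 (Set.Iio 1), r < 1 := self_mem_nhdsWithin
  obtain ⟨r, ⟨g1, g2⟩, g3⟩ := (((h2.and h1).filter_mono nhdsWithin_le_nhds).and h3).exists
  exact ⟨r, g1, g3, g2⟩

theorem pb_core {th lam : ℝ} (hC : Cert th lam) {δ : ℝ} (hδ : 0 < δ) :
    ∀ᶠ N : ℕ in Filter.atTop, ∀ a b : Fin (36 * N) → ℝ,
    (∀ i, 0 < a i) → (∀ i, a i < Real.pi) → (∀ i, Real.cos (a i) ≠ 0) →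
    (∀ i, 0 < b i) → (∀ i, b i < Real.pi) → Function.Injective a → Function.Injective b →
    ((univ.filter fun j => 1 - δ < zz (b j)).card : ℝ) ≤ eta * (36 * N) →
    0 ≤ lam * ∑ i, (Real.sin (a i) - 29 / 36) →
    Lam a b + ∑ i, (47 * N * Real.log |Real.cos (a i)| + 2 * N * Real.log (1 - Real.cos (a i))
        - th * (36 * N) * Real.log |ww (a i)|)
      + ∑ j, (6 * N * Real.log (ss (b j)) + 2 * N * Real.log (1 - ss (b j)))
      ≤ -2504.5 * (N : ℝ) ^ 2 := by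
  obtain ⟨K, c, a', e, d, m1, m2, h1, h2, h3⟩ := hC
  obtain ⟨r, r0, r1, hr⟩ := PBc_r K hδ
  filter_upwards [(tendsto_natCast_atTop_atTop (R := ℝ)).eventually_ge_atTop
    (36 * (4 * Real.log 2 - 5 * Real.log (1 - r)) * 200)] with N hN a b ha0 ha1 hc hb0 hb1 ha hb
    hcard hlam
  have k1 := en_cmp r0 r1 hδ a b ha0 ha1 hb0 hb1 ha hb
  have k2 := en_sos r0 r1 a b K c a' e d
  have k3 := sum_le_sum (s := univ) fun i _ => h1 (a i) (ha0 i) (ha1 i) (hc i)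
  have k4 := sum_le_sum (s := univ) fun j _ => h2 (b j) (hb0 j) (hb1 j)
  have t1 : ∀ i, 0 < 1 - Real.cos (a i) := fun i => by
    have := Real.cos_lt_cos_of_nonneg_of_le_pi le_rfl (ha1 i).le (ha0 i)
    rw [Real.cos_zero] at this
    linarith
  have k5 : ((univ.filter fun j => 1 - δ < zz (b j)).card : ℝ)
      * ∑ i, Real.log (8 / (1 - Real.cos (a i)))
      ≤ eta * (36 * N) * ∑ i, (Real.log 8 - Real.log (1 - Real.cos (a i))) := by
    rw [← sum_congr rfl fun i _ => Real.log_div (by norm_num : (8 : ℝ) ≠ 0) (t1 i).ne']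
    refine mul_le_mul_of_nonneg_right hcard (sum_nonneg fun i _ => Real.log_nonneg ?_)
    rw [le_div_iff₀ (t1 i)]
    linarith [Real.neg_one_le_cos (a i)]
  have N0 : (0 : ℝ) ≤ N := Nat.cast_nonneg N
  have n0 : (0 : ℝ) ≤ 36 * N := by positivity
  have k6 := mul_le_mul_of_nonneg_left k3 n0
  have k7 := mul_le_mul_of_nonneg_left k4 n0
  have k8 := mul_nonneg n0 hlam
  have k9 := mul_le_mul_of_nonneg_left h3 (sq_nonneg (36 * N : ℝ))
  have k10 := mul_le_mul_of_nonneg_left hr (sq_nonneg (36 * N : ℝ))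
  have k11 := mul_le_mul_of_nonneg_left hN N0
  simp only [sum_add_distrib, sum_sub_distrib, ← mul_sum, sum_const, card_univ, Fintype.card_fin,
    nsmul_eq_mul, Nat.cast_mul, Nat.cast_ofNat] at k1 k2 k5 k6 k7 k8 ⊢
  nlinarith [sq_nonneg (N : ℝ)]

end Vale.Agent.P030
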