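import Vale.Agent.P030.Defs

namespace Vale.Agent.P030

open Finset Matrix
open scoped MatrixOrder

theorem slax_lt {u v : ℝ} (hu : |u| < 1) (hv : |v| < 1) : |u * v| < 1 := by
  rw [abs_mul]
  exact mul_lt_one_of_nonneg_of_lt_one_left (abs_nonneg _) hu hv.le

theorem slax_pos {u v : ℝ} (hu : |u| < 1) (hv : |v| < 1) : 0 < 1 - u * v := by
  have := slax_lt hu hv
  have := le_abs_self (u * v)
  linarith

theorem slax_nonneg {n : ℕ} (w : Fin n → ℝ) (h1 : ∀ i, |w i| < 1) (c : Fin n → ℝ) :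
    0 ≤ Qr w c := by
  have h : HasSum (fun k : ℕ => ∑ i, ∑ j, c i * c j * (w i * w j) ^ k) (Qr w c) := by
    refine hasSum_sum fun i _ => hasSum_sum fun j _ => ?_
    have := (hasSum_geometric_of_abs_lt_one (slax_lt (h1 i) (h1 j))).mul_left (c i * c j)
    rwa [← div_eq_mul_inv] at this
  refine h.nonneg fun k => ?_
  have : ∑ i, ∑ j, c i * c j * (w i * w j) ^ k = (∑ i, c i * w i ^ k) ^ 2 := by
    rw [sq, sum_mul_sum]
    exact sum_congr rfl fun i _ => sum_congr rfl fun j _ => by ring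
  rw [this]; positivity

theorem slax_Qr_eq {n : ℕ} (w c : Fin n → ℝ) :
    Qr w c = c ⬝ᵥ (Matrix.of fun i j => 1 / (1 - w i * w j)) *ᵥ c := by
  simp only [Qr, dotProduct, mulVec, of_apply, mul_sum]
  exact sum_congr rfl fun i _ => sum_congr rfl fun j _ => by ring

theorem slax_exists_B {n : ℕ} (w : Fin n → ℝ) (h1 : ∀ i, |w i| < 1) :
    ∃ B : Matrix (Fin n) (Fin n) ℝ, (Matrix.of fun i j => 1 / (1 - w i * w j)) = Bᵀ * B ∧
      ∀ c, Qr w c = ∑ i, (B *ᵥ c) i ^ 2 := by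
  have hG : (Matrix.of fun i j => 1 / (1 - w i * w j)).PosSemidef := by
    refine PosSemidef.of_dotProduct_mulVec_nonneg ?_ fun x => ?_
    · ext i j; simp [mul_comm]
    · have := slax_nonneg w h1 x
      rw [slax_Qr_eq] at this
      simpa using this
  obtain ⟨B, hB⟩ := CStarAlgebra.nonneg_iff_eq_star_mul_self.mp hG.nonneg
  have hB' : (Matrix.of fun i j => 1 / (1 - w i * w j)) = Bᵀ * B := by
    rw [hB, star_eq_conjTranspose, conjTranspose_eq_transpose_of_trivial]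
  refine ⟨B, hB', fun c => ?_⟩
  rw [slax_Qr_eq, hB', ← mulVec_mulVec, dotProduct_mulVec, vecMul_transpose]
  simp only [dotProduct, sq]

theorem slax_exists_L {n : ℕ} (w : Fin n → ℝ) (h1 : ∀ i, |w i| < 1) :
    ∃ L : (Fin n → ℝ) →L[ℝ] EuclideanSpace ℝ (Fin n), ∀ c, Qr w c = ‖L c‖ ^ 2 := by
  obtain ⟨B, -, hB⟩ := slax_exists_B w h1
  refine ⟨LinearMap.toContinuousLinearMap
    ((WithLp.linearEquiv 2 ℝ (Fin n → ℝ)).symm.toLinearMap ∘ₗ B.mulVecLin), fun c => ?_⟩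
  rw [hB, EuclideanSpace.real_norm_sq_eq]
  rfl

end Vale.Agent.P030
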