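import Vale.Agent.P030.Defs
import Vale.Agent.P030.SLax

namespace Vale.Agent.P030

open Finset

theorem sla_le {a b : ℝ} (hb : 0 ≤ b) (h : a ^ 2 ≤ b ^ 2) : a ≤ b :=
  le_of_pow_le_pow_left₀ two_ne_zero hb h

theorem sla_id {u v x y P : ℂ} (a1 : 1 - v * u ≠ 0) (a2 : x - v * y ≠ 0) (a3 : x - u * y ≠ 0) :
    (1 - (y - v * x) / (x - v * y) * ((u - v) / (1 - v * u)) * P) / (x - u * y) =
      1 / (x - v * y) * ((1 - v ^ 2) / (1 - v * u)) + (y - v * x) / (x - v * y) *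
        ((u - v) / (1 - v * u) * ((1 - P) / (x - u * y))) := by
  have e : (1 - v ^ 2) * (x - u * y) = (x - v * y) * (1 - v * u) - (y - v * x) * (u - v) := by ring
  generalize x - v * y = a at *
  generalize x - u * y = b at *
  generalize 1 - v * u = c at *
  generalize 1 - v ^ 2 = d at *
  field_simp
  linear_combination (-1 : ℂ) * e

section

variable {n : ℕ} {F : Type*} [NormedAddCommGroup F] [NormedSpace ℝ F]
  (L : (Fin n → ℝ) →L[ℝ] F)

/-- real multiplier bound. -/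
def SlaM (m : Fin n → ℝ) (K : ℝ) : Prop := ∀ c : Fin n → ℝ, ‖L fun i => m i * c i‖ ≤ K * ‖L c‖

/-- complex multiplier bound. -/
def SlaC (m : Fin n → ℂ) (K : ℝ) : Prop := ∀ β : ℂ, SlaM L (fun i => (β * m i).re) (‖β‖ * K)

variable {L}

theorem SlaM.mono {m : Fin n → ℝ} {K K' : ℝ} (h : SlaM L m K) (hK : K ≤ K') : SlaM L m K' :=
  fun c => (h c).trans (mul_le_mul_of_nonneg_right hK (norm_nonneg _))

theorem SlaM.add {m m' : Fin n → ℝ} {K K' : ℝ} (h : SlaM L m K) (h' : SlaM L m' K') :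
    SlaM L (fun i => m i + m' i) (K + K') := fun c => by
  have e : (fun i => (m i + m' i) * c i) = (fun i => m i * c i) + fun i => m' i * c i := by
    funext i; simp [add_mul]
  rw [e, map_add, add_mul]
  exact (norm_add_le _ _).trans (add_le_add (h c) (h' c))

theorem SlaM.mul {m m' : Fin n → ℝ} {K K' : ℝ} (h : SlaM L m K) (h' : SlaM L m' K')
    (hK : 0 ≤ K) : SlaM L (fun i => m i * m' i) (K * K') := fun c => by
  have e : (fun i => (m i * m' i) * c i) = fun i => m i * (m' i * c i) := by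
    funext i; ring
  rw [e, mul_assoc]
  exact (h _).trans (mul_le_mul_of_nonneg_left (h' c) hK)

theorem SlaM.const (a : ℝ) : SlaM L (fun _ => a) |a| := fun c => by
  have e : (fun i => a * c i) = a • c := rfl
  rw [e, map_smul, norm_smul, Real.norm_eq_abs]

theorem SlaM.pow {m : Fin n → ℝ} (h : SlaM L m 1) (k : ℕ) : SlaM L (fun i => m i ^ k) 1 := by
  induction k with
  | zero => simpa using SlaM.const (L := L) 1
  | succ k ih => simpa [pow_succ] using ih.mul h zero_le_one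

theorem SlaC.mono {m : Fin n → ℂ} {K K' : ℝ} (h : SlaC L m K) (hK : K ≤ K') : SlaC L m K' :=
  fun β => (h β).mono (mul_le_mul_of_nonneg_left hK (norm_nonneg _))

theorem SlaC.add {m m' : Fin n → ℂ} {K K' : ℝ} (h : SlaC L m K) (h' : SlaC L m' K') :
    SlaC L (fun i => m i + m' i) (K + K') := fun β => by
  simpa only [mul_add, Complex.add_re] using (h β).add (h' β)

theorem SlaC.smul {m : Fin n → ℂ} {K : ℝ} (h : SlaC L m K) (γ : ℂ) :
    SlaC L (fun i => γ * m i) (‖γ‖ * K) := fun β => by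
  simpa only [mul_assoc, norm_mul] using h (β * γ)

theorem SlaC.rmul {r : Fin n → ℝ} {m : Fin n → ℂ} {K : ℝ} (hr : SlaM L r 1) (h : SlaC L m K) :
    SlaC L (fun i => (r i : ℂ) * m i) K := fun β => by
  have := hr.mul (h β) zero_le_one
  rw [one_mul] at this
  convert this using 2 with i
  rw [mul_left_comm, Complex.re_ofReal_mul]

theorem SlaM.toC {r : Fin n → ℝ} {K : ℝ} (hr : SlaM L r K) (hK : 0 ≤ K) :
    SlaC L (fun i => (r i : ℂ)) K := fun β => by
  have := ((SlaM.const β.re).mul hr (abs_nonneg _)).mono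
    (mul_le_mul_of_nonneg_right (Complex.abs_re_le_norm β) hK)
  simpa only [Complex.re_mul_ofReal] using this

theorem SlaC.toM {m : Fin n → ℂ} {K : ℝ} (h : SlaC L m K) : SlaM L (fun i => (m i).re) K := by
  simpa using h 1

variable {w : Fin n → ℝ} (h1 : ∀ i, |w i| < 1) (hL : ∀ c, Qr w c = ‖L c‖ ^ 2)
include h1 hL

theorem sla_blaschke {v : ℝ} (hv : |v| < 1) : SlaM L (fun i => (w i - v) / (1 - v * w i)) 1 := by
  intro c
  rw [one_mul]
  refine sla_le (norm_nonneg _) ?_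
  rw [← hL, ← hL]
  have e : Qr w c - Qr w (fun i => (w i - v) / (1 - v * w i) * c i) =
      (1 - v ^ 2) * (∑ i, c i / (1 - v * w i)) ^ 2 := by
    rw [sq (∑ i, _), sum_mul_sum, mul_sum, Qr, Qr, ← sum_sub_distrib]
    refine sum_congr rfl fun i _ => ?_
    rw [mul_sum, ← sum_sub_distrib]
    refine sum_congr rfl fun j _ => ?_
    have a1 := (slax_pos hv (h1 i)).ne'
    have a2 := (slax_pos hv (h1 j)).ne'
    have a3 := (slax_pos (h1 i) (h1 j)).ne'
    have e : (1 - v ^ 2) * (1 - w i * w j) =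
        (1 - v * w i) * (1 - v * w j) - (w i - v) * (w j - v) := by ring
    generalize 1 - v * w i = a at *
    generalize 1 - v * w j = b at *
    generalize 1 - w i * w j = d at *
    generalize 1 - v ^ 2 = f at *
    field_simp
    linear_combination (-(c i * c j)) * e
  have : 0 ≤ 1 - v ^ 2 := by have := (sq_lt_one_iff_abs_lt_one v).2 hv; linarith
  have : 0 ≤ (1 - v ^ 2) * (∑ i, c i / (1 - v * w i)) ^ 2 := by positivity
  linarith

theorem sla_shift : SlaM L w 1 := by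
  simpa using sla_blaschke h1 hL (v := 0) (by simp)

theorem sla_kernel {v : ℝ} (hv : |v| < 1) : SlaM L (fun i => (1 - v ^ 2) / (1 - v * w i)) 2 := by
  have h := (SlaM.const (L := L) 1).add ((SlaM.const v).mul (sla_blaschke h1 hL hv) (abs_nonneg _))
  have e : (fun i => (1 - v ^ 2) / (1 - v * w i)) =
      fun i => 1 + v * ((w i - v) / (1 - v * w i)) := by
    funext i
    have a1 := (slax_pos hv (h1 i)).ne'
    field_simp
    ring
  rw [e]
  exact h.mono (by rw [abs_one]; linarith)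

theorem sla_tele (x y : ℂ) (hxy : ∀ j, x - w j * y ≠ 0) (T : Fin n → ℝ) (hT1 : ∀ j, 1 ≤ T j)
    (hT2 : ∀ j, ‖(y - w j * x) / (x - w j * y)‖ ≤ T j) (hT3 : ∀ j, ‖1 / (x - w j * y)‖ ≤ T j)
    (s : Finset (Fin n)) :
    SlaC L (fun i => (1 - ∏ j ∈ s, ((y - w j * x) / (x - w j * y) *
      (((w i - w j) / (1 - w j * w i) : ℝ) : ℂ))) / (x - w i * y)) (2 * s.card * ∏ j ∈ s, T j) := by
  induction s using Finset.induction_on with
  | empty =>
    intro β
    simpa using SlaM.const (L := L) 0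
  | insert k s hk ih =>
    have a := (((sla_kernel h1 hL (h1 k)).toC zero_le_two).smul (1 / (x - w k * y))).add
      ((SlaC.rmul (sla_blaschke h1 hL (h1 k)) ih).smul ((y - w k * x) / (x - w k * y)))
    have hP : 1 ≤ ∏ j ∈ s, T j := by
      simpa using prod_le_prod (s := s) (f := fun _ => (1 : ℝ)) (fun _ _ => zero_le_one)
        fun j _ => hT1 j
    have hc : (0 : ℝ) ≤ s.card := Nat.cast_nonneg _
    refine SlaC.mono (K := _) ?_ (K' := _) (?_ : ‖1 / (x - w k * y)‖ * 2 +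
      ‖(y - w k * x) / (x - w k * y)‖ * (2 * s.card * ∏ j ∈ s, T j) ≤ _)
    · convert a using 2 with i
      rw [prod_insert hk]
      have a1 : (1 : ℂ) - w k * w i ≠ 0 := by exact_mod_cast (slax_pos (h1 k) (h1 i)).ne'
      generalize ∏ j ∈ s, ((y - w j * x) / (x - w j * y) *
        (((w i - w j) / (1 - w j * w i) : ℝ) : ℂ)) = P
      push_cast
      exact sla_id a1 (hxy k) (hxy i)
    · rw [prod_insert hk, card_insert_of_notMem hk]
      push_cast
      have b1 := hT3 k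
      have b2 := mul_le_mul_of_nonneg_right (hT2 k)
        (by positivity : 0 ≤ 2 * (s.card : ℝ) * ∏ j ∈ s, T j)
      have b3 : T k * 1 ≤ T k * ∏ j ∈ s, T j :=
        mul_le_mul_of_nonneg_left hP (zero_le_one.trans (hT1 k))
      nlinarith

theorem sla_res (x y : ℂ) (hxy : ∀ j, x - w j * y ≠ 0) (T : Fin n → ℝ) (hT1 : ∀ j, 1 ≤ T j)
    (hT2 : ∀ j, ‖(y - w j * x) / (x - w j * y)‖ ≤ T j) (hT3 : ∀ j, ‖1 / (x - w j * y)‖ ≤ T j) :
    SlaC L (fun i => 1 / (x - w i * y)) (2 * n * ∏ j, T j) := by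
  have h := sla_tele h1 hL x y hxy T hT1 hT2 hT3 univ
  rw [card_univ, Fintype.card_fin] at h
  convert h using 3 with i
  rw [prod_eq_zero (mem_univ i) (by simp), sub_zero]

theorem sla_poly (ζ : ℂ) (hζ : ‖ζ‖ ≤ 1) (hw : ∀ i, ζ - w i ≠ 0) (A : ℕ) :
    SlaC L (fun i => (ζ ^ A - (w i : ℂ) ^ A) / (ζ - w i)) A := by
  induction A with
  | zero =>
    intro β
    simpa using SlaM.const (L := L) 0
  | succ A ih =>
    have a := (ih.smul ζ).add (((sla_shift h1 hL).pow A).toC zero_le_one)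
    refine SlaC.mono (K := _) ?_ (?_ : ‖ζ‖ * A + 1 ≤ _)
    · convert a using 2 with i
      have := hw i
      push_cast
      field_simp
      ring
    · push_cast
      have := mul_le_mul_of_nonneg_right hζ (Nat.cast_nonneg (α := ℝ) A)
      linarith

theorem sla_second (A : ℕ) {τ : ℝ} (hτ0 : 0 ≤ τ) (hτ1 : τ ≤ 1) :
    SlaM L (fun i => w i ^ A * (w i / (1 + τ ^ 2 * w i ^ 2))) (2 * n) := by
  have n1 : ∀ j, ‖(1 : ℂ) - w j * (τ * Complex.I)‖ ^ 2 = 1 + τ ^ 2 * w j ^ 2 := fun j => by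
    rw [Complex.sq_norm, Complex.normSq_apply]; simp; ring
  have n2 : ∀ j, ‖(τ * Complex.I : ℂ) - w j * 1‖ ^ 2 = τ ^ 2 + w j ^ 2 := fun j => by
    rw [Complex.sq_norm, Complex.normSq_apply]; simp; ring
  have g1 : ∀ j, 1 ≤ ‖(1 : ℂ) - w j * (τ * Complex.I)‖ := fun j => by
    refine sla_le (norm_nonneg _) ?_
    rw [n1]; nlinarith [sq_nonneg (τ * w j)]
  have h := (sla_res h1 hL 1 (τ * Complex.I)
    (fun j => norm_pos_iff.1 (zero_lt_one.trans_le (g1 j))) (fun _ => 1) (fun _ => le_rfl)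
    (fun j => by
      rw [norm_div, div_le_one (zero_lt_one.trans_le (g1 j))]
      refine sla_le (norm_nonneg _) ?_
      rw [n1, n2]
      have a1 : w j ^ 2 ≤ 1 := ((sq_lt_one_iff_abs_lt_one _).2 (h1 j)).le
      have a2 : τ ^ 2 ≤ 1 := pow_le_one₀ hτ0 hτ1
      nlinarith [mul_nonneg (sub_nonneg.2 a1) (sub_nonneg.2 a2)])
    (fun j => by
      rw [norm_div, norm_one, div_le_one (zero_lt_one.trans_le (g1 j))]
      exact g1 j)).toM
  have h2 := ((sla_shift h1 hL).pow (A + 1)).mul h zero_le_one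
  simp only [prod_const_one, mul_one, one_mul] at h2
  convert h2 using 2 with i
  rw [one_div, Complex.inv_re, Complex.normSq_eq_norm_sq, n1]
  simp
  ring

theorem sla_first (h0 : ∀ i, w i ≠ 0) {A : ℕ} (hA : 1 ≤ A) {Θ : ℝ} (hΘ : 1 ≤ Θ)
    (hτ : ∀ τ : ℝ, 0 < τ → τ ≤ 1 →
      τ ^ (2 * (A - 1)) * ∏ j, (1 + τ ^ 2 * w j ^ 2) ≤ Θ ^ 2 * ∏ j, (τ ^ 2 + w j ^ 2))
    {τ : ℝ} (hτ0 : 0 ≤ τ) (hτ1 : τ ≤ 1) :
    SlaM L (fun i => w i ^ A * (w i / (τ ^ 2 + w i ^ 2))) (A + 2 * n * Θ) := by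
  have n1 : ∀ j, ‖(1 : ℂ) - w j * (τ * Complex.I)‖ ^ 2 = 1 + τ ^ 2 * w j ^ 2 := fun j => by
    rw [Complex.sq_norm, Complex.normSq_apply]; simp; ring
  have n2 : ∀ j, ‖(τ * Complex.I : ℂ) - w j * 1‖ ^ 2 = τ ^ 2 + w j ^ 2 := fun j => by
    rw [Complex.sq_norm, Complex.normSq_apply]; simp; ring
  have p2 : ∀ j, 0 < τ ^ 2 + w j ^ 2 := fun j => by have := h0 j; positivity
  have g1 : ∀ j, 1 ≤ ‖(1 : ℂ) - w j * (τ * Complex.I)‖ := fun j => by
    refine sla_le (norm_nonneg _) ?_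
    rw [n1]; nlinarith [sq_nonneg (τ * w j)]
  have g2 : ∀ j, 0 < ‖(τ * Complex.I : ℂ) - w j * 1‖ := fun j => by
    refine lt_of_le_of_ne (norm_nonneg _) fun h => ?_
    have := n2 j
    rw [← h] at this
    have := p2 j
    linarith
  let T : Fin n → ℝ := fun j => ‖(1 : ℂ) - w j * (τ * Complex.I)‖ / ‖(τ * Complex.I : ℂ) - w j * 1‖
  have hζ : ‖(τ * Complex.I : ℂ)‖ = τ := by simp [abs_of_nonneg hτ0]
  have h := sla_res h1 hL (τ * Complex.I) 1 (fun j => norm_pos_iff.1 (g2 j)) T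
    (fun j => by
      rw [one_le_div (g2 j)]
      refine sla_le (norm_nonneg _) ?_
      rw [n1, n2]
      have a1 : w j ^ 2 ≤ 1 := ((sq_lt_one_iff_abs_lt_one _).2 (h1 j)).le
      have a2 : τ ^ 2 ≤ 1 := pow_le_one₀ hτ0 hτ1
      nlinarith [mul_nonneg (sub_nonneg.2 a1) (sub_nonneg.2 a2)])
    (fun j => by rw [norm_div])
    (fun j => by
      rw [norm_div, norm_one]
      exact div_le_div_of_nonneg_right (g1 j) (g2 j).le)
  have hw : ∀ i, (τ * Complex.I : ℂ) - w i ≠ 0 := fun i => by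
    simpa using norm_pos_iff.1 (g2 i)
  have h2 := ((sla_poly h1 hL (τ * Complex.I) (hζ.le.trans hτ1) hw A).add
    (h.smul (-(τ * Complex.I) ^ A))).toM
  have hb : τ ^ A * ∏ j, T j ≤ Θ := by
    rcases hτ0.eq_or_lt with h | h
    · rw [← h, zero_pow (by omega), zero_mul]; linarith
    refine sla_le (by linarith) ?_
    have e : (∏ j, T j) ^ 2 = (∏ j, (1 + τ ^ 2 * w j ^ 2)) / ∏ j, (τ ^ 2 + w j ^ 2) := by
      rw [← prod_pow, ← prod_div_distrib]
      exact prod_congr rfl fun j _ => by simp only [T]; rw [div_pow, n1, n2]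
    have q2 : 0 < ∏ j, (τ ^ 2 + w j ^ 2) := prod_pos fun j _ => p2 j
    rw [mul_pow, e, ← mul_div_assoc, div_le_iff₀ q2]
    refine le_trans (mul_le_mul_of_nonneg_right ?_ (prod_nonneg fun j _ => by positivity))
      (hτ τ h hτ1)
    rw [← pow_mul]
    exact pow_le_pow_of_le_one hτ0 hτ1 (by omega)
  refine SlaM.mono (K := _) ?_ (?_ : A + ‖-(τ * Complex.I : ℂ) ^ A‖ * (2 * n * ∏ j, T j) ≤ _)
  · convert h2 using 2 with i
    have e : ((τ * Complex.I) ^ A - (w i : ℂ) ^ A) / (τ * Complex.I - w i) +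
        -(τ * Complex.I) ^ A * (1 / (τ * Complex.I - w i * 1)) =
        ((-w i ^ A : ℝ) : ℂ) * (τ * Complex.I - w i * 1)⁻¹ := by
      have := hw i
      push_cast
      field_simp
      ring
    rw [e, Complex.re_ofReal_mul, Complex.inv_re, Complex.normSq_eq_norm_sq, n2]
    simp
    ring
  · rw [norm_neg, norm_pow, hζ]
    have := mul_le_mul_of_nonneg_left hb (by positivity : (0 : ℝ) ≤ 2 * n)
    linarith

theorem sla_arctan (h0 : ∀ i, w i ≠ 0) {A : ℕ} {K : ℝ}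
    (hK : ∀ τ : ℝ, 0 ≤ τ → τ ≤ 1 → SlaM L (fun i => w i ^ A * (w i / (τ ^ 2 + w i ^ 2)) +
      w i ^ A * (w i / (1 + τ ^ 2 * w i ^ 2))) K) :
    SlaM L (fun i => w i ^ A * (Real.arctan (w i)⁻¹ + Real.arctan (w i))) K := by
  intro c
  let φ : ℝ → Fin n → ℝ := fun τ i =>
    w i ^ A * (Real.arctan (τ * (w i)⁻¹) + Real.arctan (τ * w i)) * c i
  have hd : ∀ τ : ℝ, HasDerivAt φ (fun i => (w i ^ A * (w i / (τ ^ 2 + w i ^ 2)) +
      w i ^ A * (w i / (1 + τ ^ 2 * w i ^ 2))) * c i) τ := fun τ => by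
    refine hasDerivAt_pi.2 fun i => ?_
    have a1 := ((hasDerivAt_id τ).mul_const (w i)⁻¹).arctan
    have a2 := ((hasDerivAt_id τ).mul_const (w i)).arctan
    refine HasDerivAt.congr_deriv (((a1.add a2).const_mul (w i ^ A)).mul_const (c i)) ?_
    have := h0 i
    simp only [id]
    field_simp
    ring
  have h := norm_image_sub_le_of_norm_deriv_le_segment_01' (f := fun τ => L (φ τ))
    (fun τ _ => (L.hasFDerivAt.comp_hasDerivAt τ (hd τ)).hasDerivWithinAt)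
    (fun τ hτ => hK τ hτ.1 hτ.2.le c)
  have e0 : φ 0 = 0 := by funext i; simp [φ]
  simpa only [e0, map_zero, sub_zero, φ, one_mul] using h

end

/-- multiplier bound for `rho w * w^A` on the span of Szego kernels. -/
theorem sl_mult {n A : ℕ} (hA : 1 ≤ A) (w : Fin n → ℝ) (h0 : ∀ i, w i ≠ 0) (h1 : ∀ i, |w i| < 1)
    (Θ : ℝ) (hΘ : 1 ≤ Θ)
    (hτ : ∀ τ : ℝ, 0 < τ → τ ≤ 1 →
      τ ^ (2 * (A - 1)) * ∏ j, (1 + τ ^ 2 * w j ^ 2) ≤ Θ ^ 2 * ∏ j, (τ ^ 2 + w j ^ 2))
    (c : Fin n → ℝ) :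
    Qr w (fun i => rho (w i) * w i ^ A * c i) ≤ (10 * ((n : ℝ) + A) * Θ) ^ 2 * Qr w c := by
  obtain ⟨L, hL⟩ := slax_exists_L w h1
  have h2 := sla_arctan h1 hL h0 fun τ a b =>
    (sla_first h1 hL h0 hA hΘ hτ a b).add (sla_second h1 hL A a b)
  have h3 := ((SlaM.const (-2)).mul ((sla_shift h1 hL).pow A) (abs_nonneg _)).add
    ((SlaM.const (-6 / Real.pi)).mul h2 (abs_nonneg _))
  have hπ := Real.pi_pos
  have e : (fun i => -2 * w i ^ A + -6 / Real.pi *
      (w i ^ A * (Real.arctan (w i)⁻¹ + Real.arctan (w i)))) = fun i => rho (w i) * w i ^ A := by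
    funext i
    rcases (h0 i).lt_or_gt with h | h
    · rw [Real.arctan_inv_of_neg h, rho, if_neg h.not_gt]; field_simp; ring
    · rw [Real.arctan_inv_of_pos h, rho, if_pos h]; field_simp; ring
  rw [e] at h3
  have hn : (0 : ℝ) ≤ n := Nat.cast_nonneg _
  have hA' : (1 : ℝ) ≤ A := by exact_mod_cast hA
  have h6 : |-6 / Real.pi| ≤ 2 := by
    rw [abs_div, abs_of_pos hπ, div_le_iff₀ hπ, abs_neg, abs_of_pos (by norm_num : (0 : ℝ) < 6)]
    linarith [Real.pi_gt_three]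
  have h4 := h3.mono (K' := 10 * ((n : ℝ) + A) * Θ) (by
    have a1 := mul_le_mul_of_nonneg_right h6
      (by positivity : (0 : ℝ) ≤ A + 2 * n * Θ + 2 * n)
    have a2 : |(-2 : ℝ)| = 2 := by norm_num
    have a3 : (n : ℝ) * 1 ≤ n * Θ := mul_le_mul_of_nonneg_left hΘ hn
    have a4 : (A : ℝ) * 1 ≤ A * Θ := mul_le_mul_of_nonneg_left hΘ (by linarith)
    rw [a2]
    nlinarith) c
  rw [hL, hL, ← mul_pow]
  exact pow_le_pow_left₀ (norm_nonneg _) h4 2

end Vale.Agent.P030
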