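import Vale.Agent.P030.CD
import Vale.Agent.P030.SLax

namespace Vale.Agent.P030

open Polynomial Finset

theorem slb_entry {n : ℕ} (B T : Matrix (Fin n) (Fin n) ℝ) (hB : IsUnit B.det) (K : ℝ)
    (hK : 0 ≤ K) (h : ∀ c : Fin n → ℝ, ∑ i, (B.mulVec (T.mulVec c)) i ^ 2 ≤
      K ^ 2 * ∑ i, (B.mulVec c) i ^ 2) (i j : Fin n) : |(B * T * B⁻¹) i j| ≤ K := by
  have h1 := h (B⁻¹.mulVec (Pi.single j 1))
  rw [Matrix.mulVec_mulVec, Matrix.mulVec_mulVec, Matrix.mulVec_mulVec,
    Matrix.mul_nonsing_inv _ hB, Matrix.one_mulVec] at h1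
  have h2 : ∑ i, (Pi.single j 1 : Fin n → ℝ) i ^ 2 = 1 := by
    simp [Pi.single_apply]
  rw [h2, mul_one] at h1
  have h3 := single_le_sum (f := fun i => ((B * T * B⁻¹).mulVec (Pi.single j 1)) i ^ 2)
    (fun i _ => sq_nonneg _) (mem_univ i)
  have h4 : ((B * T * B⁻¹).mulVec (Pi.single j 1)) i = (B * T * B⁻¹) i j := by simp
  simp only [h4] at h3
  exact abs_le_of_sq_le_sq' (h3.trans h1) hK |> abs_le.2

noncomputable def slbP {n : ℕ} (w : Fin n → ℝ) (k : Fin n) : ℝ[X] :=
  ∏ j ∈ univ.erase k, (1 - C (w j) * X)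

theorem slbP_deg {n : ℕ} (w : Fin n → ℝ) (k : Fin n) : (slbP w k).natDegree < n := by
  have h1 : (slbP w k).natDegree ≤ ∑ j ∈ univ.erase k, 1 :=
    (natDegree_prod_le _ _).trans (sum_le_sum fun j _ => by compute_degree)
  have h2 := k.pos
  simp only [sum_const, card_erase_of_mem (mem_univ k), card_univ, Fintype.card_fin,
    smul_eq_mul, mul_one] at h1
  omega

theorem slbP_eval {n : ℕ} (w : Fin n → ℝ) (k : Fin n) (x : ℝ) :
    ∑ r : Fin n, x ^ (r : ℕ) * (slbP w k).coeff r = ∏ j ∈ univ.erase k, (1 - w j * x) := by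
  have h := eval_eq_sum_range' (slbP_deg w k) x
  rw [Fin.sum_univ_eq_sum_range (fun r => x ^ r * (slbP w k).coeff r) n]
  simp only [mul_comm (x ^ _)]
  rw [← h, slbP, eval_prod]
  simp

theorem slbP_eval' {n : ℕ} (w : Fin n → ℝ) (k : Fin n) {x : ℝ} (hx : x ≠ 0) :
    ∑ r : Fin n, x ^ (n - 1 - r) * (slbP w k).coeff r = ∏ j ∈ univ.erase k, (x - w j) := by
  have h := slbP_eval w k x⁻¹
  have e1 : ∑ r : Fin n, x ^ (n - 1 - r) * (slbP w k).coeff r =
      x ^ (n - 1) * ∑ r : Fin n, x⁻¹ ^ (r : ℕ) * (slbP w k).coeff r := by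
    rw [mul_sum]
    refine sum_congr rfl fun r _ => ?_
    have : (r : ℕ) ≤ n - 1 := by have := r.2; omega
    rw [pow_sub₀ _ hx this, inv_pow, mul_assoc]
  have e2 : x ^ (n - 1) = ∏ _j ∈ univ.erase k, x := by
    simp [card_erase_of_mem (mem_univ k)]
  rw [e1, h, e2, ← prod_mul_distrib]
  exact prod_congr rfl fun j _ => by field_simp

open Matrix in
theorem sl_det {n : ℕ} (w lam : Fin n → ℝ) (h0 : ∀ i, w i ≠ 0) (h1 : ∀ i, |w i| < 1)
    (hw : Function.Injective w) (M : ℝ) (hM : 0 ≤ M)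
    (h : ∀ c : Fin n → ℝ, Qr w (fun i => lam i * c i) ≤ M ^ 2 * Qr w c) :
    |(Matrix.of fun r i : Fin n => w i ^ (n - 1 - r) + lam i * w i ^ (r : ℕ)).det|
      ≤ (n.factorial : ℝ) * (1 + M) ^ n * |vdm w| := by
  obtain ⟨B, hB, hQ⟩ := slax_exists_B w h1
  set G : Matrix (Fin n) (Fin n) ℝ := Matrix.of fun i j => 1 / (1 - w i * w j) with hG
  let P : Matrix (Fin n) (Fin n) ℝ := Matrix.of fun r k => (slbP w k).coeff r
  let V : Matrix (Fin n) (Fin n) ℝ := vandermonde w
  let J : Matrix (Fin n) (Fin n) ℝ := (1 : Matrix (Fin n) (Fin n) ℝ).submatrix Fin.rev id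
  let d : Fin n → ℝ := fun i => ∏ j, (1 - w j * w i)
  let e : Fin n → ℝ := fun i => ∏ j ∈ univ.erase i, (w i - w j)
  have hd : ∀ i, d i ≠ 0 := fun i => prod_ne_zero_iff.2 fun j _ => (slax_pos (h1 j) (h1 i)).ne'
  have he : ∀ i, e i ≠ 0 := fun i => prod_ne_zero_iff.2 fun j hj =>
    sub_ne_zero.2 fun hij => (mem_erase.1 hj).1 (hw hij).symm
  have hJJ : J * J = 1 := by
    ext i j
    simp only [J, mul_apply, one_apply, submatrix_apply, id, ite_mul, one_mul, zero_mul,
      sum_ite_eq, mem_univ, if_true, Fin.rev_rev]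
  have hVJ : ∀ i r, (V * J) i r = w i ^ (n - 1 - r) := fun i r => by
    have : ∀ k : Fin n, (Fin.rev k = r) = (k = Fin.rev r) := fun k => by
      rw [Fin.rev_eq_iff]
    simp only [V, J, mul_apply, one_apply, submatrix_apply, id, vandermonde_apply, this]
    simp only [mul_ite, mul_one, mul_zero, sum_ite_eq', mem_univ, if_true, Fin.val_rev]
    congr 1; omega
  have hVP : V * P = diagonal d * G := by
    ext i k
    rw [diagonal_mul, mul_apply]
    simp only [V, P, vandermonde_apply, of_apply, hG, d]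
    rw [slbP_eval, ← mul_prod_erase univ (fun j => 1 - w j * w i) (mem_univ k)]
    have := (slax_pos (h1 i) (h1 k)).ne'
    rw [mul_comm (w k), mul_one_div, mul_div_cancel_left₀ _ this]
  have hVJP : V * J * P = diagonal e := by
    ext i k
    rw [mul_apply]
    simp only [hVJ, P, of_apply]
    rw [slbP_eval' w k (h0 i), diagonal_apply]
    split_ifs with hik
    · rw [← hik]
    · exact prod_eq_zero (i := i) (mem_erase.2 ⟨hik, mem_univ _⟩) (sub_self _)
  have hdet : V.det * J.det * P.det ≠ 0 := by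
    rw [← det_mul, ← det_mul, hVJP, det_diagonal]
    exact prod_ne_zero_iff.2 fun i _ => he i
  have hP : IsUnit P.det := (right_ne_zero_of_mul hdet).isUnit
  have hV : V.det ≠ 0 := left_ne_zero_of_mul (left_ne_zero_of_mul hdet)
  have hBu : IsUnit B.det := by
    have h2 : (V * P).det ≠ 0 := by rw [det_mul]; exact mul_ne_zero hV hP.ne_zero
    rw [hVP, hB, det_mul, det_mul] at h2
    exact (right_ne_zero_of_mul (right_ne_zero_of_mul h2)).isUnit
  let U := P⁻¹ * J * P
  have hPU : P * U = J * P := by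
    simp only [U, ← Matrix.mul_assoc, mul_nonsing_inv _ hP, Matrix.one_mul]
  have hUU : U * U = 1 := by
    calc U * U = P⁻¹ * J * (P * U) := by simp only [U, Matrix.mul_assoc]
      _ = P⁻¹ * (J * J) * P := by rw [hPU]; simp only [Matrix.mul_assoc]
      _ = 1 := by rw [hJJ, Matrix.mul_one, nonsing_inv_mul _ hP]
  have hDGU : diagonal d * (G * U) = diagonal e := by
    rw [← Matrix.mul_assoc, ← hVP, Matrix.mul_assoc, hPU, ← Matrix.mul_assoc, hVJP]
  have hGU : G * U = diagonal fun i => e i / d i := by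
    ext i k
    have := congrFun (congrFun hDGU i) k
    rw [diagonal_mul] at this
    rw [eq_div_of_mul_eq (hd i) ((mul_comm _ _).trans this), diagonal_apply, diagonal_apply]
    split_ifs <;> simp
  have hGt : Gᵀ = G := by rw [hB]; simp
  have hUG : Uᵀ * G = G * U := by
    have := congrArg transpose hGU
    rw [transpose_mul, hGt, diagonal_transpose] at this
    rw [this, hGU]
  have hiso : ∀ c : Fin n → ℝ, Qr w (U *ᵥ c) = Qr w c := fun c => by
    rw [slax_Qr_eq, slax_Qr_eq, ← hG, mulVec_mulVec, dotProduct_comm, dotProduct_mulVec,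
      ← mulVec_transpose, mulVec_mulVec, ← Matrix.mul_assoc, hUG, Matrix.mul_assoc, hUU,
      Matrix.mul_one, dotProduct_comm]
  have key : (Matrix.of fun r i : Fin n => w i ^ (n - 1 - r) + lam i * w i ^ (r : ℕ)).det
      = (U + diagonal lam).det * V.det := by
    have e1 : (Matrix.of fun r i : Fin n => w i ^ (n - 1 - r) + lam i * w i ^ (r : ℕ))ᵀ
        = V * J + diagonal lam * V := by
      ext i r
      rw [transpose_apply, of_apply, Matrix.add_apply, hVJ, diagonal_mul]
      rfl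
    have e2 : (V * J + diagonal lam * V) * P = diagonal d * (U + diagonal lam)ᵀ * G := by
      rw [Matrix.add_mul, hVJP, Matrix.mul_assoc (diagonal lam), hVP, ← hDGU, ← hUG,
        transpose_add, diagonal_transpose, Matrix.mul_add, Matrix.add_mul,
        ← Matrix.mul_assoc (diagonal lam), diagonal_mul_diagonal, diagonal_mul_diagonal,
        Matrix.mul_assoc]
      simp only [mul_comm]
    have e3 := congrArg det e2
    have e4 := congrArg det hVP
    rw [← e1] at e3
    simp only [det_mul, det_transpose] at e3 e4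
    apply mul_right_cancel₀ hP.ne_zero
    rw [e3, mul_assoc _ V.det, e4]; ring
  have e5 : (U + diagonal lam).det = (B * U * B⁻¹ + B * diagonal lam * B⁻¹).det := by
    rw [← Matrix.add_mul, ← Matrix.mul_add, det_mul, det_mul, det_nonsing_inv, mul_right_comm,
      Ring.mul_inverse_cancel _ hBu, one_mul]
  have b1 := slb_entry B U hBu 1 zero_le_one fun c => by rw [← hQ, ← hQ, hiso]; simp
  have b2 := slb_entry B (diagonal lam) hBu M hM fun c => by
    rw [← hQ, ← hQ]
    have : diagonal lam *ᵥ c = fun i => lam i * c i := by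
      funext i; exact mulVec_diagonal _ _ _
    rw [this]; exact h c
  have b3 := det_le (A := B * U * B⁻¹ + B * diagonal lam * B⁻¹) (abv := AbsoluteValue.abs)
    (x := 1 + M) fun i j => (abs_add_le _ _).trans (add_le_add (b1 i j) (b2 i j))
  rw [key, abs_mul, e5]
  have e6 : V.det = vdm w := det_vandermonde w
  rw [e6]
  refine mul_le_mul_of_nonneg_right ?_ (abs_nonneg _)
  simpa using b3

end Vale.Agent.P030
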