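import Vale.Agent.P030.Defs

namespace Vale.Agent.P030

open Finset

theorem slc_log {x T : ℝ} (hx0 : 0 ≤ x) (hx1 : x < 1) (hT0 : 0 < T) (hT1 : T ≤ 1) :
    (1 - x) / (1 + x) * Real.log T + Real.log (1 + T * x) ≤ Real.log (T + x) := by
  let g : ℝ → ℝ := fun t => (1 - x) / (1 + x) * Real.log t + Real.log (1 + t * x) - Real.log (t + x)
  have hd : ∀ t : ℝ, 0 < t → HasDerivAt g
      ((1 - x) / (1 + x) * t⁻¹ + x / (1 + t * x) - 1 / (t + x)) t := fun t ht => by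
    have h1 := (Real.hasDerivAt_log ht.ne').const_mul ((1 - x) / (1 + x))
    have h2 : HasDerivAt (fun t : ℝ => Real.log (1 + t * x)) (x / (1 + t * x)) t := by
      have := (((hasDerivAt_id t).mul_const x).const_add 1).log
        (by simp only [id]; positivity)
      simpa using this
    have h3 : HasDerivAt (fun t : ℝ => Real.log (t + x)) (1 / (t + x)) t := by
      have := ((hasDerivAt_id t).add_const x).log (by simp only [id]; positivity)
      simpa using this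
    exact (h1.add h2).sub h3
  have hmono : MonotoneOn g (Set.Ioi 0) := by
    refine monotoneOn_of_deriv_nonneg (convex_Ioi 0)
      (fun t ht => (hd t ht).continuousAt.continuousWithinAt)
      (fun t ht => (hd t (by simpa using ht)).differentiableAt.differentiableWithinAt) ?_
    intro t ht
    have ht0 : 0 < t := by simpa using ht
    rw [(hd t ht0).deriv]
    have e : (1 - x) / (1 + x) * t⁻¹ + x / (1 + t * x) - 1 / (t + x) =
        (1 - x) * x * (1 - t) ^ 2 / ((1 + x) * t * (1 + t * x) * (t + x)) := by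
      field_simp; ring
    rw [e]
    have : 0 < 1 - x := by linarith
    positivity
  have h := hmono (Set.mem_Ioi.2 hT0) (Set.mem_Ioi.2 one_pos) hT1
  simp only [g, Real.log_one, mul_zero, one_mul, zero_add, sub_self] at h
  linarith

theorem sl_theta1 {n A : ℕ} (w : Fin n → ℝ) (h1 : ∀ i, |w i| < 1)
    (h : ∑ i, (1 - w i ^ 2) / (1 + w i ^ 2) ≤ ((A - 1 : ℕ) : ℝ)) (τ : ℝ) (h0 : 0 < τ) (hτ : τ ≤ 1) :
    τ ^ (2 * (A - 1)) * ∏ j, (1 + τ ^ 2 * w j ^ 2) ≤ (1 : ℝ) ^ 2 * ∏ j, (τ ^ 2 + w j ^ 2) := by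
  have hT0 : 0 < τ ^ 2 := by positivity
  have hT1 : τ ^ 2 ≤ 1 := pow_le_one₀ h0.le hτ
  have hx : ∀ i, w i ^ 2 < 1 := fun i => (sq_lt_one_iff_abs_lt_one _).2 (h1 i)
  have p1 : ∀ j, 0 < 1 + τ ^ 2 * w j ^ 2 := fun j => by positivity
  have p2 : ∀ j, 0 < τ ^ 2 + w j ^ 2 := fun j => by positivity
  rw [one_pow, one_mul, pow_mul, ← Real.log_le_log_iff
    (mul_pos (pow_pos hT0 _) (prod_pos fun j _ => p1 j)) (prod_pos fun j _ => p2 j),
    Real.log_mul (pow_pos hT0 _).ne' (prod_pos fun j _ => p1 j).ne',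
    Real.log_prod (fun j _ => (p1 j).ne'), Real.log_prod (fun j _ => (p2 j).ne'), Real.log_pow]
  have h2 := sum_le_sum fun j (_ : j ∈ (univ : Finset (Fin n))) =>
    slc_log (sq_nonneg (w j)) (hx j) hT0 hT1
  rw [sum_add_distrib, ← sum_mul] at h2
  have h3 : Real.log (τ ^ 2) ≤ 0 := Real.log_nonpos hT0.le hT1
  nlinarith [mul_le_mul_of_nonpos_right h h3]

theorem slc_pow {x T : ℝ} (hx0 : 0 ≤ x) (hx1 : x ≤ 1) (hT0 : 0 ≤ T) (hT1 : T ≤ 1) {m n : ℕ}
    (hm : m ≤ n) : T ^ m * x ^ (n - m) * (1 + T * x) ^ n ≤ (T + x) ^ n := by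
  have h1 : T ^ m * x ^ (n - m) ≤ max T x ^ n := by
    calc T ^ m * x ^ (n - m) ≤ max T x ^ m * max T x ^ (n - m) := by
          gcongr
          · exact le_max_left _ _
          · exact le_max_right _ _
      _ = max T x ^ n := by rw [← pow_add, Nat.add_sub_cancel' hm]
  have h2 : max T x * (1 + T * x) ≤ T + x := by
    rcases le_total T x with h | h
    · rw [max_eq_right h]
      have : x * x ≤ 1 := by nlinarith
      nlinarith
    · rw [max_eq_left h]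
      have : T * T ≤ 1 := by nlinarith
      nlinarith
  have h3 : 0 ≤ max T x := le_max_of_le_left hT0
  calc T ^ m * x ^ (n - m) * (1 + T * x) ^ n ≤ max T x ^ n * (1 + T * x) ^ n := by gcongr
    _ = (max T x * (1 + T * x)) ^ n := by rw [mul_pow]
    _ ≤ (T + x) ^ n := by gcongr

theorem sl_theta2 {n A : ℕ} (hn : 1 ≤ n) (hA : A - 1 ≤ n) (w : Fin n → ℝ) (h0 : ∀ i, w i ≠ 0)
    (h1 : ∀ i, |w i| < 1) : ∃ Θ : ℝ, 1 ≤ Θ ∧ Θ ^ n = (∏ j, |w j| ^ (n - (A - 1)))⁻¹ ∧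
    ∀ τ : ℝ, 0 < τ → τ ≤ 1 →
      τ ^ (2 * (A - 1)) * ∏ j, (1 + τ ^ 2 * w j ^ 2) ≤ Θ ^ 2 * ∏ j, (τ ^ 2 + w j ^ 2) := by
  set m := A - 1 with hm
  set P := ∏ j, |w j| ^ (n - m) with hP
  have hP0 : 0 < P := prod_pos fun j _ => pow_pos (abs_pos.2 (h0 j)) _
  have hP1 : P ≤ 1 := prod_le_one (fun j _ => by positivity)
    fun j _ => pow_le_one₀ (abs_nonneg _) (h1 j).le
  have hn0 : n ≠ 0 := by omega
  have hΘ : (P⁻¹ ^ (n : ℝ)⁻¹) ^ n = P⁻¹ := Real.rpow_inv_natCast_pow (by positivity) hn0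
  refine ⟨P⁻¹ ^ (n : ℝ)⁻¹, Real.one_le_rpow ((one_le_inv₀ hP0).2 hP1) (by positivity), hΘ, ?_⟩
  intro τ hτ0 hτ1
  have hT0 : 0 < τ ^ 2 := by positivity
  have hT1 : τ ^ 2 ≤ 1 := pow_le_one₀ hτ0.le hτ1
  have hx : ∀ i, w i ^ 2 ≤ 1 := fun i => ((sq_lt_one_iff_abs_lt_one _).2 (h1 i)).le
  refine le_of_pow_le_pow_left₀ hn0 (by positivity) ?_
  rw [mul_pow, mul_pow, ← pow_mul (P⁻¹ ^ (n : ℝ)⁻¹), mul_comm 2 n, pow_mul (P⁻¹ ^ (n : ℝ)⁻¹), hΘ,
    inv_pow, ← div_eq_inv_mul, le_div_iff₀ (by positivity)]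
  have h2 := prod_le_prod (s := (univ : Finset (Fin n)))
    (f := fun j => (τ ^ 2) ^ m * (w j ^ 2) ^ (n - m) * (1 + τ ^ 2 * w j ^ 2) ^ n)
    (g := fun j => (τ ^ 2 + w j ^ 2) ^ n) (fun j _ => by positivity)
    fun j _ => slc_pow (sq_nonneg _) (hx j) hT0.le hT1 hA
  rw [prod_mul_distrib, prod_mul_distrib, prod_const, card_univ, Fintype.card_fin,
    prod_pow _ (n - m), prod_pow _ n, prod_pow _ n] at h2
  have e : P ^ 2 = (∏ j, w j ^ 2) ^ (n - m) := by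
    rw [hP, ← prod_pow, ← prod_pow]
    exact prod_congr rfl fun j _ => by rw [← pow_mul, mul_comm, pow_mul, sq_abs]
  rw [e, pow_mul]
  linarith

end Vale.Agent.P030
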