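import Vale.Agent.P030.PBa
import Vale.Agent.P030.PBc
import Vale.Agent.P030.SLa
import Vale.Agent.P030.SLb
import Vale.Agent.P030.SLc

namespace Vale.Agent.P030

open Finset

theorem pbb_exp (k : ℕ) {x : ℝ} (hx : 0 < x) : Real.exp (k * Real.log x) = x ^ k := by
  rw [Real.exp_nat_mul, Real.exp_log hx]

theorem pbb_fact : ∀ᶠ N : ℕ in Filter.atTop,
    ((36 * N).factorial : ℝ) * (1 + 660 * N) ^ (36 * N) ≤ Real.exp (0.1 * (N : ℝ) ^ 2) := by
  have t : Filter.Tendsto (fun N : ℕ => 200 * (N : ℝ)) Filter.atTop Filter.atTop :=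
    tendsto_natCast_atTop_atTop.const_mul_atTop (by norm_num)
  filter_upwards [Filter.eventually_ge_atTop 1,
    t.eventually (Real.isLittleO_log_id_atTop.bound (by norm_num : (0 : ℝ) < 1 / 144000))] with N hN h
  have n1 : (1 : ℝ) ≤ N := by exact_mod_cast hN
  have h1 : Real.log (200 * N) ≤ 1 / 144000 * (200 * N) := by
    have := (le_abs_self _).trans h
    rwa [id, Real.norm_of_nonneg (by positivity)] at this
  have h2 : ((36 * N).factorial : ℝ) ≤ (36 * N) ^ (36 * N) := by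
    exact_mod_cast Nat.factorial_le_pow (36 * N)
  calc _ ≤ (36 * N : ℝ) ^ (36 * N) * (1 + 660 * N) ^ (36 * N) := by gcongr
    _ = (36 * N * (1 + 660 * N)) ^ (36 * N) := (mul_pow _ _ _).symm
    _ ≤ ((200 * N) ^ 2) ^ (36 * N) := pow_le_pow_left₀ (by positivity) (by nlinarith) _
    _ = Real.exp ((2 * (36 * N) : ℕ) * Real.log (200 * N)) := by
      rw [pbb_exp _ (by positivity), ← pow_mul]
    _ ≤ _ := by
      refine Real.exp_le_exp.2 ?_
      push_cast
      nlinarith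

theorem pbb_q {a b : ℝ} (a0 : 0 < a) (a1 : a < Real.pi) (b0 : 0 < b) (b1 : b < Real.pi) :
    0 < 1 - Real.cos a * ss b := by
  obtain ⟨c1, c2⟩ := pba_cos a0 a1
  obtain ⟨s0, s1⟩ := ss_mem b0 b1
  nlinarith

theorem pbb_main {N : ℕ} (hN : 1 ≤ N) (a b : Fin (36 * N) → ℝ) (a0 : ∀ i, 0 < a i)
    (a1 : ∀ i, a i < Real.pi) (ac : ∀ i, Real.cos (a i) ≠ 0) (b0 : ∀ i, 0 < b i)
    (b1 : ∀ i, b i < Real.pi) (ia : Function.Injective a) (ib : Function.Injective b) {Θ : ℝ}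
    (hΘ : 1 ≤ Θ) {m : ℕ} (hm : Θ ^ (36 * N) = (∏ j, |ww (a j)| ^ m)⁻¹)
    (hτ : ∀ τ : ℝ, 0 < τ → τ ≤ 1 → τ ^ (2 * (30 * N - 1 - 1)) * ∏ j, (1 + τ ^ 2 * ww (a j) ^ 2)
      ≤ Θ ^ 2 * ∏ j, (τ ^ 2 + ww (a j) ^ 2)) {k : ℝ} (hk : ((33 * N - 1 + m : ℕ) : ℝ) ≤ k) :
    Itg N a (fun j => ss (b j)) ≤ ((36 * N).factorial : ℝ) * (1 + 660 * N) ^ (36 * N) *
      Real.exp (Lam a b + ∑ i, (47 * N * Real.log |Real.cos (a i)|
        + 2 * N * Real.log (1 - Real.cos (a i)) - k * Real.log |ww (a i)|)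
      + ∑ j, (6 * N * Real.log (ss (b j)) + 2 * N * Real.log (1 - ss (b j)))) := by
  have hc := fun i => pba_cos (a0 i) (a1 i)
  have hs := fun j => ss_mem (b0 j) (b1 j)
  have w0 := fun i => ww_ne_zero (a0 i) (a1 i) (ac i)
  have w1 := fun i => ww_abs_lt (a0 i) (a1 i)
  have hq := fun i j => pbb_q (a0 i) (a1 i) (b0 j) (b1 j)
  have iw : Function.Injective fun i => ww (a i) := fun i j h =>
    ia (ww_inj (a0 i) (a1 i) (a0 j) (a1 j) h)
  have it : Function.Injective fun i => Real.cos (a i) := fun i j h =>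
    ia (Real.injOn_cos ⟨(a0 i).le, (a1 i).le⟩ ⟨(a0 j).le, (a1 j).le⟩ h)
  have is : Function.Injective fun j => ss (b j) := fun i j h =>
    ib (ss_inj (b0 i) (b1 i) (b0 j) (b1 j) h)
  have vw := abs_pos.2 (vdm_ne_zero iw)
  have vt := abs_pos.2 (vdm_ne_zero it)
  have vs := abs_pos.2 (vdm_ne_zero is)
  have pq : 0 < ∏ i, ∏ j, (1 - Real.cos (a i) * ss (b j)) :=
    Finset.prod_pos fun i _ => Finset.prod_pos fun j _ => hq i j
  have e1 : Real.exp (Lam a b) = |vdm fun i => ww (a i)| * |vdm fun i => Real.cos (a i)| *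
      |vdm fun j => ss (b j)| ^ 2 / ∏ i, ∏ j, (1 - Real.cos (a i) * ss (b j)) := by
    have := pbb_exp 2 vs
    push_cast at this
    rw [Lam, Real.exp_sub, Real.exp_add, Real.exp_add, Real.exp_log vw, Real.exp_log vt, this]
    simp only [Real.exp_sum, Real.exp_log (hq _ _)]
  have e2 : (∏ i, (1 - Real.cos (a i)) ^ (2 * N) * |Real.cos (a i)| ^ (47 * N) /
      |ww (a i)| ^ (33 * N - 1)) * (∏ j, |ww (a j)| ^ m)⁻¹ ≤
      Real.exp (∑ i, (47 * N * Real.log |Real.cos (a i)|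
        + 2 * N * Real.log (1 - Real.cos (a i)) - k * Real.log |ww (a i)|)) := by
    rw [Real.exp_sum, ← Finset.prod_inv_distrib, ← Finset.prod_mul_distrib]
    refine Finset.prod_le_prod (fun i _ => ?_) fun i _ => ?_
    · have : 0 ≤ 1 - Real.cos (a i) := by linarith [(hc i).2]
      positivity
    · have p1 := pbb_exp (47 * N) (abs_pos.2 (ac i))
      have p2 := pbb_exp (2 * N) (show 0 < 1 - Real.cos (a i) by linarith [(hc i).2])
      have p3 := pbb_exp (33 * N - 1 + m) (abs_pos.2 (w0 i))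
      have l0 : Real.log |ww (a i)| ≤ 0 := Real.log_nonpos (abs_nonneg _) (w1 i).le
      rw [div_eq_mul_inv, mul_assoc, ← mul_inv, ← pow_add, ← p1, ← p2, ← p3, ← Real.exp_neg,
        ← Real.exp_add, ← Real.exp_add]
      refine Real.exp_le_exp.2 ?_
      have := mul_le_mul_of_nonpos_right hk l0
      rw [Nat.cast_mul, Nat.cast_mul]
      push_cast at this ⊢
      linarith
  have e3 : Real.exp (∑ j, (6 * N * Real.log (ss (b j)) + 2 * N * Real.log (1 - ss (b j))))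
      = ∏ j, ss (b j) ^ (6 * N) * (1 - ss (b j)) ^ (2 * N) := by
    rw [Real.exp_sum]
    refine Finset.prod_congr rfl fun j _ => ?_
    rw [← pbb_exp _ (hs j).1, ← pbb_exp _ (show 0 < 1 - ss (b j) by linarith [(hs j).2]),
      ← Real.exp_add]
    push_cast
    rfl
  have p3 : 0 ≤ ∏ j, ss (b j) ^ (6 * N) * (1 - ss (b j)) ^ (2 * N) := e3 ▸ (Real.exp_pos _).le
  have d1 := psi_det_le hN a a0 a1 ac
  have d2 := sl_det (fun i => ww (a i)) (fun i => rho (ww (a i)) * ww (a i) ^ (30 * N - 1)) w0 w1 iw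
    _ (by positivity) (sl_mult (A := 30 * N - 1) (by omega) (fun i => ww (a i)) w0 w1 Θ hΘ hτ)
  have d3 : (1 + 10 * (((36 * N : ℕ) : ℝ) + (30 * N - 1 : ℕ)) * Θ) ^ (36 * N)
      ≤ (1 + 660 * N) ^ (36 * N) * (∏ j, |ww (a j)| ^ m)⁻¹ := by
    rw [← hm, ← mul_pow]
    refine pow_le_pow_left₀ (by positivity) ?_ _
    have : ((30 * N - 1 : ℕ) : ℝ) ≤ 30 * N := by exact_mod_cast Nat.sub_le _ _
    push_cast
    nlinarith
  have d4 : |(Matrix.of fun i j : Fin (36 * N) => 1 / (1 - Real.cos (a i) * ss (b j))).det|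
      = |vdm fun i => Real.cos (a i)| * |vdm fun j => ss (b j)| /
        ∏ i, ∏ j, (1 - Real.cos (a i) * ss (b j)) := by
    rw [eq_div_iff pq.ne', ← abs_mul,
      ← cauchy_det (fun i => Real.cos (a i)) (fun j => ss (b j)) fun i j => (hq i j).ne', abs_mul,
      abs_of_pos pq]
  have p1 : 0 ≤ ∏ i, (1 - Real.cos (a i)) ^ (2 * N) * |Real.cos (a i)| ^ (47 * N) /
      |ww (a i)| ^ (33 * N - 1) := Finset.prod_nonneg fun i _ => by
    have : 0 ≤ 1 - Real.cos (a i) := by linarith [(hc i).2]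
    positivity
  have d5 : |(Matrix.of fun r i : Fin (36 * N) => psi N r (a i)).det| ≤
      ((36 * N).factorial : ℝ) * (1 + 660 * N) ^ (36 * N) * |vdm fun i => ww (a i)| *
      Real.exp (∑ i, (47 * N * Real.log |Real.cos (a i)|
        + 2 * N * Real.log (1 - Real.cos (a i)) - k * Real.log |ww (a i)|)) := by
    refine d1.trans ((mul_le_mul_of_nonneg_left (d2.trans (mul_le_mul_of_nonneg_right
      (mul_le_mul_of_nonneg_left d3 (Nat.cast_nonneg _)) (abs_nonneg _))) p1).trans ?_)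
    refine le_trans (le_of_eq ?_) (mul_le_mul_of_nonneg_left e2 (by positivity))
    ring
  unfold Itg
  rw [d4, col_det N fun j => ss (b j), abs_mul, abs_of_nonneg p3, Real.exp_add, Real.exp_add, e1, e3]
  refine (mul_le_mul_of_nonneg_right (mul_le_mul_of_nonneg_right d5 (by positivity))
    (by positivity)).trans (le_of_eq ?_)
  ring
theorem pb (hA : Cert (33 / 36) 0) (hB : Cert (40 / 36) 2) :
    ∀ᶠ N : ℕ in Filter.atTop, ∀ a s : Fin (36 * N) → ℝ,
    (∀ i, 0 < a i) → (∀ i, a i < Real.pi) → (∀ i, Real.cos (a i) ≠ 0) →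
    (∀ i, 0 < s i) → (∀ i, s i < 1) → Itg N a s ≤ Real.exp (-2504.4 * (N : ℝ) ^ 2) := by
  obtain ⟨δ, hδ, hcr⟩ := pb_crude
  filter_upwards [hcr, pb_core hA hδ, pb_core hB hδ, pbb_fact, Filter.eventually_ge_atTop 2]
    with N hcr hA hB hf hN a s a0 a1 ac s0 s1
  choose b b0 b1 hb using fun j => ss_surj (s0 j) (s1 j)
  obtain rfl : s = fun j => ss (b j) := funext fun j => (hb j).symm
  have hq := fun i j => pbb_q (a0 i) (a1 i) (b0 j) (b1 j)
  have pq : 0 < ∏ i, ∏ j, (1 - Real.cos (a i) * ss (b j)) :=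
    Finset.prod_pos fun i _ => Finset.prod_pos fun j _ => hq i j
  have cd := cauchy_det (fun i => Real.cos (a i)) (fun j => ss (b j)) fun i j => (hq i j).ne'
  by_cases ia : Function.Injective a
  swap
  · rw [vdm_eq_zero (x := fun i => Real.cos (a i)) fun h => ia (Function.Injective.of_comp (f := Real.cos) h),
      zero_mul] at cd
    unfold Itg
    rw [(mul_eq_zero.1 cd).resolve_right pq.ne', abs_zero, mul_zero, zero_mul]
    exact (Real.exp_pos _).le
  by_cases ib : Function.Injective b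
  swap
  · rw [vdm_eq_zero (x := fun j => ss (b j)) fun h => ib (Function.Injective.of_comp (f := ss) h),
      mul_zero] at cd
    unfold Itg
    rw [(mul_eq_zero.1 cd).resolve_right pq.ne', abs_zero, mul_zero, zero_mul]
    exact (Real.exp_pos _).le
  rcases lt_or_ge (eta * (36 * N)) ((univ.filter fun j => 1 - δ < zz (b j)).card : ℝ) with hc | hc
  · exact hcr a b a0 a1 ac b0 b1 hc
  have w0 := fun i => ww_ne_zero (a0 i) (a1 i) (ac i)
  have w1 := fun i => ww_abs_lt (a0 i) (a1 i)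
  have n2 : (2 : ℝ) ≤ N := by exact_mod_cast hN
  have fin : ∀ E : ℝ, E ≤ -2504.5 * (N : ℝ) ^ 2 → ((36 * N).factorial : ℝ) * (1 + 660 * N) ^ (36 * N) *
      Real.exp E ≤ Real.exp (-2504.4 * (N : ℝ) ^ 2) := fun E hE => by
    refine (mul_le_mul_of_nonneg_right hf (Real.exp_pos _).le).trans ?_
    rw [← Real.exp_add]
    exact Real.exp_le_exp.2 (by linarith)
  rcases le_or_gt (∑ i, (1 - ww (a i) ^ 2) / (1 + ww (a i) ^ 2)) ((30 * N - 1 - 1 : ℕ) : ℝ) with h | h
  · refine (pbb_main (by omega) a b a0 a1 ac b0 b1 ia ib le_rfl (m := 0) (by simp)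
      (sl_theta1 (fun i => ww (a i)) w1 h) (k := 33 / 36 * (36 * N)) ?_).trans
      (fin _ (hA a b a0 a1 ac b0 b1 ia ib hc (by simp)))
    have : ((33 * N - 1 + 0 : ℕ) : ℝ) ≤ ((33 * N : ℕ) : ℝ) := Nat.cast_le.2 (by omega)
    push_cast at this ⊢
    linarith
  · obtain ⟨Θ, t1, t2, t3⟩ := sl_theta2 (n := 36 * N) (A := 30 * N - 1) (by omega) (by omega)
      (fun i => ww (a i)) w0 w1
    refine (pbb_main (by omega) a b a0 a1 ac b0 b1 ia ib t1 t2 t3 (k := 40 / 36 * (36 * N)) ?_).trans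
      (fin _ (hB a b a0 a1 ac b0 b1 ia ib hc ?_))
    · have : ((33 * N - 1 + (36 * N - (30 * N - 1 - 1)) : ℕ) : ℝ) ≤ ((40 * N : ℕ) : ℝ) :=
        Nat.cast_le.2 (by omega)
      refine this.trans (le_of_eq ?_)
      push_cast
      ring
    · have e : ∑ i, (1 - ww (a i) ^ 2) / (1 + ww (a i) ^ 2) = ∑ i, Real.sin (a i) :=
        Finset.sum_congr rfl fun i _ => (sin_eq_ww (a0 i) (a1 i)).symm
      have : ((29 * N : ℕ) : ℝ) ≤ ((30 * N - 1 - 1 : ℕ) : ℝ) := Nat.cast_le.2 (by omega)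
      rw [e] at h
      have h2 := this.trans h.le
      rw [Finset.sum_sub_distrib]
      simp only [Finset.sum_const, Finset.card_univ, Fintype.card_fin, nsmul_eq_mul]
      push_cast at h2 ⊢
      linarith

end Vale.Agent.P030
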