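import Vale.Agent.P030.Defs

namespace Vale.Agent.P030

open Polynomial Finset

variable {p : ℕ} [Fact p.Prime]

theorem pn_nonneg (x : ℚ) : 0 ≤ pn p x := norm_nonneg _
theorem pn_zero : pn p 0 = 0 := by simp [pn]
theorem pn_one : pn p 1 = 1 := by simp [pn]
theorem pn_neg (x : ℚ) : pn p (-x) = pn p x := by simp [pn]
theorem pn_mul (x y : ℚ) : pn p (x * y) = pn p x * pn p y := by simp [pn]
theorem pn_div (x y : ℚ) : pn p (x / y) = pn p x / pn p y := by simp [pn]
theorem pn_pow (x : ℚ) (n : ℕ) : pn p (x ^ n) = pn p x ^ n := by simp [pn]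
theorem pn_add_le {x y : ℚ} {c : ℝ} (hx : pn p x ≤ c) (hy : pn p y ≤ c) : pn p (x + y) ≤ c := by
  unfold pn at *
  push_cast
  exact (IsUltrametricDist.norm_add_le_max _ _).trans (max_le hx hy)
theorem pn_sub_le {x y : ℚ} {c : ℝ} (hx : pn p x ≤ c) (hy : pn p y ≤ c) : pn p (x - y) ≤ c := by
  rw [sub_eq_add_neg]
  exact pn_add_le hx (by rwa [pn_neg])
theorem pn_sum_le {ι : Type*} (s : Finset ι) (f : ι → ℚ) {c : ℝ} (hc : 0 ≤ c)
    (h : ∀ i ∈ s, pn p (f i) ≤ c) : pn p (∑ i ∈ s, f i) ≤ c := by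
  classical
  induction s using Finset.induction_on with
  | empty => simpa [pn_zero] using hc
  | insert a s ha ih =>
    rw [Finset.sum_insert ha]
    exact pn_add_le (h a (Finset.mem_insert_self _ _))
      (ih fun i hi => h i (Finset.mem_insert_of_mem hi))
theorem pn_mul_le {x y : ℚ} {c d : ℝ} (hx : pn p x ≤ c) (hy : pn p y ≤ d) :
    pn p (x * y) ≤ c * d := by
  rw [pn_mul]
  exact mul_le_mul hx hy (pn_nonneg _) ((pn_nonneg _).trans hx)
theorem pn_int (z : ℤ) : pn p (z : ℚ) ≤ 1 := by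
  unfold pn
  push_cast
  exact Padic.norm_int_le_one z
theorem pn_nat (z : ℕ) : pn p (z : ℚ) ≤ 1 := by
  have := pn_int (p := p) (z : ℤ)
  simpa using this
theorem pn_p : pn p (p : ℚ) = 1 / p := by
  unfold pn
  push_cast
  rw [Padic.norm_p, one_div]
theorem pn_int_of_dvd {z : ℤ} (h : (p : ℤ) ∣ z) : pn p (z : ℚ) ≤ 1 / p := by
  obtain ⟨w, rfl⟩ := h
  push_cast
  rw [pn_mul, pn_p]
  have hp : (0 : ℝ) < p := by exact_mod_cast (Fact.out : p.Prime).pos
  exact mul_le_of_le_one_right (by positivity) (pn_int w)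
theorem pn_int_of_not_dvd {z : ℤ} (h : ¬ (p : ℤ) ∣ z) : pn p (z : ℚ) = 1 := by
  have h1 := pn_int (p := p) z
  unfold pn at *
  push_cast at *
  by_contra hne
  exact h (Padic.norm_intCast_lt_one_iff.mp (lt_of_le_of_ne h1 hne))
theorem pn_nat_of_not_dvd {z : ℕ} (h : ¬ p ∣ z) : pn p (z : ℚ) = 1 := by
  have := pn_int_of_not_dvd (p := p) (z := (z : ℤ)) (by exact_mod_cast h)
  simpa using this

theorem PN_nat_eq {k : ℕ} (hk : k ≠ 0) : pn p (k : ℚ) = 1 / (p : ℝ) ^ (k.factorization p) := by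
  have hp : p.Prime := Fact.out
  have h := Nat.ordProj_mul_ordCompl_eq_self k p
  have hnd := Nat.not_dvd_ordCompl hp hk
  have e : (k : ℚ) = (p : ℚ) ^ (k.factorization p) * ((k / p ^ k.factorization p : ℕ) : ℚ) := by
    conv_lhs => rw [← h]
    push_cast
    ring
  rw [e, pn_mul, pn_pow, pn_p, pn_nat_of_not_dvd hnd, mul_one, one_div_pow]

theorem pn_inv_nat_le {k T : ℕ} (hk : k ≤ T) : pn p (1 / (k : ℚ)) ≤ (p : ℝ) ^ Nat.log p T := by
  have hp : p.Prime := Fact.out
  have hp1 : (1 : ℝ) ≤ p := by exact_mod_cast hp.one_le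
  rcases eq_or_ne k 0 with rfl | hk0
  · simp only [Nat.cast_zero, div_zero, pn_zero]
    positivity
  rw [pn_div, pn_one, PN_nat_eq hk0, one_div_one_div]
  refine pow_le_pow_right₀ hp1 (Nat.le_log_of_pow_le hp.one_lt ?_)
  exact (Nat.ordProj_le p hk0).trans hk
theorem pn_inv_int_le {k : ℤ} {T : ℕ} (hk : k.natAbs ≤ T) :
    pn p (1 / (k : ℚ)) ≤ (p : ℝ) ^ Nat.log p T := by
  have h := pn_inv_nat_le (p := p) hk
  rcases Int.natAbs_eq k with e | e
  · rw [e]; simpa using h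
  · rw [e]
    push_cast
    rw [div_neg, pn_neg]
    simpa using h
theorem pn_pow_log_le {T : ℕ} (hT : 1 ≤ T) : (p : ℝ) ^ Nat.log p T ≤ T := by
  exact_mod_cast Nat.pow_log_le_self p (by omega : T ≠ 0)
theorem pn_le_den (x : ℚ) : pn p x ≤ x.den := by
  have e : x = (x.num : ℚ) * (1 / (x.den : ℚ)) := by
    rw [mul_one_div, Rat.num_div_den]
  have h := pn_mul_le (pn_int (p := p) x.num) (pn_inv_nat_le (p := p) (le_refl x.den))
  rw [← e, one_mul] at h
  exact h.trans (pn_pow_log_le x.den_pos)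
theorem pn_le_one_of_not_dvd_den {x : ℚ} (h : ¬ p ∣ x.den) : pn p x ≤ 1 := by
  have e : x = (x.num : ℚ) / (x.den : ℚ) := (Rat.num_div_den x).symm
  rw [e, pn_div, pn_nat_of_not_dvd h, div_one]
  exact pn_int _
theorem pn_det {n : Type*} [Fintype n] [DecidableEq n] (A : Matrix n n ℚ) :
    pn p A.det = ‖(A.map fun x : ℚ => (x : ℚ_[p])).det‖ := by
  unfold pn
  have := RingHom.map_det (Rat.castHom ℚ_[p]) A
  simp only [Rat.coe_castHom] at this
  rw [this]
  rfl

theorem PN_prod_pow {k : ℕ} (hk : k ≠ 0) (T : Finset ℕ) (hT : k.primeFactors ⊆ T) :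
    ∏ q ∈ T, (q : ℝ) ^ (k.factorization q) = k := by
  have h := Nat.prod_factorization_pow_eq_self hk
  rw [Finsupp.prod_of_support_subset _ (s := T) (by simpa using hT) _ (by simp)] at h
  exact_mod_cast h

theorem PN_rat_eq {x : ℚ} (hx : x ≠ 0) :
    pn p x = (p : ℝ) ^ (x.den.factorization p) / (p : ℝ) ^ (x.num.natAbs.factorization p) := by
  have hn : x.num.natAbs ≠ 0 := by simpa using hx
  have e : pn p x = pn p (x.num.natAbs : ℚ) / pn p (x.den : ℚ) := by
    conv_lhs => rw [← Rat.num_div_den x, pn_div]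
    congr 1
    rcases Int.natAbs_eq x.num with e | e
    · conv_lhs => rw [e]
      simp
    · conv_lhs => rw [e]
      push_cast
      rw [pn_neg]
      simp
  rw [e, PN_nat_eq hn, PN_nat_eq x.den_nz]
  have hp : (0 : ℝ) < p := by exact_mod_cast (Fact.out : p.Prime).pos
  field_simp

/-- product formula. -/
theorem prod_formula {x : ℚ} (hx : x ≠ 0) (S : Finset ℕ) (B : ℕ → ℝ) (hS : ∀ q ∈ S, q.Prime)
    (h1 : ∀ (q : ℕ) [Fact q.Prime], q ∈ S → pn q x ≤ B q)
    (h2 : ∀ (q : ℕ) [Fact q.Prime], q ∉ S → pn q x ≤ 1) :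
    1 ≤ |(x : ℝ)| * ∏ q ∈ S, B q := by
  classical
  have hn : x.num.natAbs ≠ 0 := by simpa using hx
  let g : ℕ → ℝ := fun q =>
    (q : ℝ) ^ (x.den.factorization q) / (q : ℝ) ^ (x.num.natAbs.factorization q)
  have hg : ∀ q, 0 ≤ g q := fun q => by positivity
  let T := S ∪ (x.num.natAbs.primeFactors ∪ x.den.primeFactors)
  have hT : ∏ q ∈ T, g q = (x.den : ℝ) / x.num.natAbs := by
    simp only [g]
    rw [Finset.prod_div_distrib, PN_prod_pow x.den_nz T (by intro q hq; simp only [T, mem_union]; tauto),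
      PN_prod_pow hn T (by intro q hq; simp only [T, mem_union]; tauto)]
  have hsplit : ∏ q ∈ T, g q = (∏ q ∈ T \ S, g q) * ∏ q ∈ S, g q :=
    (Finset.prod_sdiff Finset.subset_union_left).symm
  have ha : ∏ q ∈ T \ S, g q ≤ 1 := by
    refine Finset.prod_le_one (fun q _ => hg q) fun q hq => ?_
    rw [Finset.mem_sdiff] at hq
    have hqp : q.Prime := by
      have := hq.1
      simp only [T, mem_union] at this
      rcases this with h | h | h
      · exact hS q h
      · exact Nat.prime_of_mem_primeFactors h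
      · exact Nat.prime_of_mem_primeFactors h
    haveI := Fact.mk hqp
    have := h2 q hq.2
    rwa [PN_rat_eq hx] at this
  have hb : ∏ q ∈ S, g q ≤ ∏ q ∈ S, B q := by
    refine Finset.prod_le_prod (fun q _ => hg q) fun q hq => ?_
    haveI := Fact.mk (hS q hq)
    have := h1 q hq
    rwa [PN_rat_eq hx] at this
  have hc : (x.den : ℝ) / x.num.natAbs ≤ ∏ q ∈ S, B q := by
    rw [← hT, hsplit]
    exact (mul_le_of_le_one_left (Finset.prod_nonneg fun q _ => hg q) ha).trans hb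
  have habs : |(x : ℝ)| = (x.num.natAbs : ℝ) / x.den := by
    rw [Rat.cast_def, abs_div, Nat.cast_natAbs, Int.cast_abs, Nat.abs_cast]
  have hn' : (0 : ℝ) < x.num.natAbs := by exact_mod_cast Nat.pos_of_ne_zero hn
  have hd : (0 : ℝ) < x.den := by exact_mod_cast x.den_pos
  calc (1 : ℝ) = (x.num.natAbs : ℝ) / x.den * ((x.den : ℝ) / x.num.natAbs) := by field_simp
    _ ≤ _ := by rw [habs]; exact mul_le_mul_of_nonneg_left hc (by positivity)

end Vale.Agent.P030
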