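import Vale.Agent.P030.RS
import Vale.Agent.P030.Contact

namespace Vale.Agent.P030

open Polynomial Finset

theorem psi_bdd (N r : ℕ) : ∃ c : ℝ, ∀ a : ℝ, |psi N r a| ≤ c := by
  have hb : ∀ P : ℤ[X], ∃ c : ℝ, ∀ a : ℝ, |aeval (Real.cos a) P| ≤ c := fun P => by
    obtain ⟨c, hc⟩ := (isCompact_Icc (a := (-1 : ℝ)) (b := 1)).exists_bound_of_continuousOn
      (f := fun t : ℝ => aeval t P) (Polynomial.continuous_aeval P).continuousOn
    exact ⟨c, fun a => hc _ ⟨Real.neg_one_le_cos a, Real.cos_le_one a⟩⟩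
  obtain ⟨c1, h1⟩ := hb (rowA N r)
  obtain ⟨c2, h2⟩ := hb (rowD N r)
  refine ⟨c1 + 3 / 2 * c2, fun a => ?_⟩
  have h3 := (abs_nonneg _).trans (h2 a)
  rw [psi]
  split_ifs
  · refine (abs_sub _ _).trans (add_le_add (h1 a) ?_)
    rw [abs_mul, abs_mul, abs_of_pos (by norm_num : (0 : ℝ) < 3 / 2), mul_assoc]
    refine mul_le_mul_of_nonneg_left ?_ (by norm_num)
    exact (mul_le_of_le_one_left (abs_nonneg _) (Real.abs_sin_le_one a)).trans (h2 a)
  · rw [abs_neg]; linarith [h1 a]
theorem psi_meas (N r : ℕ) : Measurable (psi N r) := by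
  have h : ∀ P : ℤ[X], Continuous fun a : ℝ => aeval (Real.cos a) P := fun P =>
    (Polynomial.continuous_aeval P).comp Real.continuous_cos
  exact Measurable.ite (measurableSet_lt measurable_const Real.measurable_cos)
    ((h _).sub ((continuous_const.mul Real.continuous_sin).mul (h _))).measurable
    (h _).neg.measurable

theorem ri_col (N k : ℕ) (s : ℝ) : aeval s (col N k) = s ^ (6 * N + k) * (1 - s) ^ (2 * N) := by
  simp [col]

theorem ri_col_nonneg (N k : ℕ) {s : ℝ} (h0 : 0 ≤ s) : 0 ≤ aeval s (col N k) := by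
  rw [ri_col, pow_mul]; positivity
theorem col_intInt {N : ℕ} (hN : 1 ≤ N) (k : ℕ) {t : ℝ} (ht : |t| ≤ 1) :
    IntervalIntegrable (fun s : ℝ => aeval s (col N k) / (1 - t * s)) MeasureTheory.volume 0 1 := by
  rw [intervalIntegrable_iff_integrableOn_Ioc_of_le zero_le_one]
  refine MeasureTheory.Measure.integrableOn_of_bounded (M := 1) (by simp)
    ((Polynomial.continuous_aeval _).measurable.div (by fun_prop)).aestronglyMeasurable ?_
  refine (MeasureTheory.ae_restrict_iff' measurableSet_Ioc).2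
    (Filter.Eventually.of_forall fun s hs => ?_)
  have h1 : 1 - s ≤ 1 - t * s := by nlinarith [abs_le.1 ht, hs.1]
  have h2 : 0 ≤ 1 - s := by linarith [hs.2]
  rw [Real.norm_of_nonneg (div_nonneg (ri_col_nonneg N k hs.1.le) (h2.trans h1))]
  refine div_le_one_of_le₀ (le_trans ?_ h1) (h2.trans h1)
  rw [ri_col]
  refine (mul_le_of_le_one_left (pow_nonneg h2 _) (pow_le_one₀ hs.1.le hs.2)).trans ?_
  exact pow_le_of_le_one h2 (by linarith [hs.1]) (by omega)

noncomputable def riG (N k m : ℕ) : ℝ := ∫ s in (0 : ℝ)..1, aeval s (col N k) * s ^ m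

theorem riG_nonneg (N k m : ℕ) : 0 ≤ riG N k m :=
  intervalIntegral.integral_nonneg zero_le_one fun s hs =>
    mul_nonneg (ri_col_nonneg N k hs.1) (pow_nonneg hs.1 _)

theorem ri_hasSum {N : ℕ} (hN : 1 ≤ N) (k : ℕ) {t : ℝ} (ht : |t| ≤ 1) :
    HasSum (fun m => riG N k m * t ^ m) (Gam N k t) := by
  have hs : ∀ {t : ℝ}, |t| ≤ 1 → ∀ s ∈ Set.uIoc (0 : ℝ) 1,
      HasSum (fun m => aeval s (col N k) * s ^ m * t ^ m) (aeval s (col N k) / (1 - t * s)) := by
    intro t ht s hs
    rw [Set.uIoc_of_le zero_le_one] at hs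
    rcases hs.2.eq_or_lt with rfl | h
    · have : aeval (1 : ℝ) (col N k) = 0 := by
        rw [ri_col, sub_self, zero_pow (by omega), mul_zero]
      simpa [this] using hasSum_zero
    · have h1 : |t * s| < 1 := by
        rw [abs_mul, abs_of_pos hs.1]
        exact (mul_le_of_le_one_left hs.1.le ht).trans_lt h
      refine rc_congr ((hasSum_geometric_of_abs_lt_one h1).mul_left _) fun m => ?_
      rw [mul_pow]; ring
  have h := intervalIntegral.hasSum_integral_of_dominated_convergence (μ := MeasureTheory.volume)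
    (a := 0) (b := 1) (F := fun m s => aeval s (col N k) * s ^ m * t ^ m)
    (f := fun s => aeval s (col N k) / (1 - t * s))
    (fun m s => aeval s (col N k) * s ^ m * 1 ^ m)
    (fun m => (((Polynomial.continuous_aeval _).mul (by fun_prop)).mul
      continuous_const).aestronglyMeasurable)
    (fun m => Filter.Eventually.of_forall fun s hs => by
      rw [Set.uIoc_of_le zero_le_one] at hs
      have h0 := mul_nonneg (ri_col_nonneg N k hs.1.le) (pow_nonneg hs.1.le m)
      rw [norm_mul, Real.norm_of_nonneg h0, norm_pow]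
      exact mul_le_mul_of_nonneg_left (pow_le_pow_left₀ (norm_nonneg _) ht m) h0)
    (Filter.Eventually.of_forall fun s h => (hs (t := 1) (by simp) s h).summable)
    ((col_intInt hN k (t := 1) (by simp)).congr fun s h => ((hs (t := 1) (by simp) s h).tsum_eq).symm)
    (Filter.Eventually.of_forall (hs ht))
  refine rc_congr h fun m => ?_
  rw [intervalIntegral.integral_mul_const, riG]

theorem riG_summable {N : ℕ} (hN : 1 ≤ N) (k : ℕ) : Summable (riG N k) := by
  simpa using (ri_hasSum hN k (t := 1) (by simp)).summable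

theorem ri_cont {N : ℕ} (hN : 1 ≤ N) (k : ℕ) : Continuous fun a : ℝ => Gam N k (Real.cos a) := by
  have h : (fun a : ℝ => Gam N k (Real.cos a)) = fun a => ∑' m, riG N k m * Real.cos a ^ m :=
    funext fun a => (ri_hasSum hN k (Real.abs_cos_le_one a)).tsum_eq.symm
  rw [h]
  refine continuous_tsum (fun m => by fun_prop) (riG_summable hN k) fun m a => ?_
  rw [norm_mul, Real.norm_of_nonneg (riG_nonneg N k m), norm_pow]
  exact mul_le_of_le_one_right (riG_nonneg N k m)
    (pow_le_one₀ (norm_nonneg _) (Real.abs_cos_le_one a))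
theorem psi_Gam_intInt {N : ℕ} (hN : 1 ≤ N) (r k : ℕ) :
    IntervalIntegrable (fun a : ℝ => psi N r a * Gam N k (Real.cos a)) MeasureTheory.volume 0 Real.pi := by
  have h : ∀ P : ℤ[X], Continuous fun a : ℝ => aeval (Real.cos a) P := fun P =>
    (Polynomial.continuous_aeval P).comp Real.continuous_cos
  simp only [psi, ite_mul]
  exact (rc_split (((h _).sub ((continuous_const.mul Real.continuous_sin).mul (h _))).mul
    (ri_cont hN k)) ((h _).neg.mul (ri_cont hN k))).1

theorem ri_aeval {P : ℤ[X]} {n : ℕ} (h : ∀ i, n < i → P.coeff i = 0) (t : ℝ) :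
    aeval t P = ∑ i ∈ range (n + 1), (P.coeff i : ℝ) * t ^ i := by
  rw [aeval_eq_sum_range' (Nat.lt_succ_of_le (natDegree_le_iff_coeff_eq_zero.2 h))]
  simp

theorem riG_eq {N k : ℕ} (hk : k < 36 * N) (m : ℕ) :
    riG N k m = ∑ j ∈ range (44 * N), ((col N k).coeff j : ℝ) / ((j : ℝ) + m + 1) := by
  have h1 : 44 * N = (44 * N - 1) + 1 := by omega
  simp only [riG, ri_aeval (n := 44 * N - 1) (fun i hi => col_high (N := N) (k := k) (by omega)),
    ← h1, Finset.sum_mul]
  rw [intervalIntegral.integral_finsetSum fun j _ => Continuous.intervalIntegrable (by fun_prop) _ _]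
  refine Finset.sum_congr rfl fun j _ => ?_
  simp only [mul_assoc, ← pow_add]
  rw [intervalIntegral.integral_const_mul, integral_pow]
  simp [div_eq_mul_inv]

theorem ri_psi {N r : ℕ} (hr : r ≤ 36 * N) (m : ℕ) :
    ∫ a in (0 : ℝ)..Real.pi, psi N r a * Real.cos a ^ m =
      ∑ i ∈ range (49 * N + 1), (((rowA N r).coeff i : ℝ) * nu (i + m) -
        3 / 2 * ((rowD N r).coeff i : ℝ) * (1 / ((i : ℝ) + m + 1))) := by
  have h1 : ∀ a, psi N r a * Real.cos a ^ m = ∑ i ∈ range (49 * N + 1),
      (((rowA N r).coeff i : ℝ) * ((if 0 < Real.cos a then (1 : ℝ) else -1) * Real.cos a ^ (i + m)) -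
        3 / 2 * ((rowD N r).coeff i : ℝ) *
          (if 0 < Real.cos a then Real.sin a * Real.cos a ^ (i + m) else 0)) := by
    intro a
    rw [psi, ri_aeval fun i hi => rowA_high hr hi, ri_aeval fun i hi => rowD_high hr hi.le]
    split_ifs
    · rw [Finset.mul_sum, ← Finset.sum_sub_distrib, Finset.sum_mul]
      exact Finset.sum_congr rfl fun i _ => by ring
    · rw [← Finset.sum_neg_distrib, Finset.sum_mul]
      exact Finset.sum_congr rfl fun i _ => by ring
  have i1 : ∀ n : ℕ, IntervalIntegrable (fun a => (if 0 < Real.cos a then (1 : ℝ) else -1) *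
      Real.cos a ^ n) MeasureTheory.volume 0 Real.pi := fun n => by
    simp only [ite_mul]
    exact (rc_split (by fun_prop) (by fun_prop)).1
  have i2 : ∀ n : ℕ, IntervalIntegrable (fun a => if 0 < Real.cos a then
      Real.sin a * Real.cos a ^ n else 0) MeasureTheory.volume 0 Real.pi := fun n =>
    (rc_split (by fun_prop) (by fun_prop)).1
  simp only [h1]
  rw [intervalIntegral.integral_finsetSum fun i _ => ((i1 _).const_mul _).sub ((i2 _).const_mul _)]
  refine Finset.sum_congr rfl fun i _ => ?_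
  rw [intervalIntegral.integral_sub ((i1 _).const_mul _) ((i2 _).const_mul _),
    intervalIntegral.integral_const_mul, intervalIntegral.integral_const_mul, nu_integral,
    inv_integral]
  push_cast
  rfl
theorem mat_integral {G : ℚ} (hG : (G : ℝ) = cat) {N r k : ℕ} (hN : 1 ≤ N) (hr : r < 36 * N)
    (hk : k < 36 * N) :
    ((mat G N r k : ℚ) : ℝ) = ∫ a in (0 : ℝ)..Real.pi, psi N r a * Gam N k (Real.cos a) := by
  obtain ⟨c, hc⟩ := psi_bdd N r
  have h := intervalIntegral.hasSum_integral_of_dominated_convergence (μ := MeasureTheory.volume)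
    (a := 0) (b := Real.pi) (F := fun m a => riG N k m * (psi N r a * Real.cos a ^ m))
    (f := fun a => psi N r a * Gam N k (Real.cos a)) (fun m _ => riG N k m * c)
    (fun m => (((psi_meas N r).mul (by fun_prop)).const_mul _).aestronglyMeasurable)
    (fun m => Filter.Eventually.of_forall fun a _ => by
      rw [norm_mul, Real.norm_of_nonneg (riG_nonneg N k m), norm_mul, norm_pow]
      refine mul_le_mul_of_nonneg_left ((mul_le_of_le_one_right (norm_nonneg _)
        (pow_le_one₀ (norm_nonneg _) (Real.abs_cos_le_one a))).trans (hc a)) (riG_nonneg N k m))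
    (Filter.Eventually.of_forall fun a _ => (riG_summable hN k).mul_right c)
    intervalIntegrable_const
    (Filter.Eventually.of_forall fun a _ => rc_congr
      ((ri_hasSum hN k (Real.abs_cos_le_one a)).mul_left (psi N r a)) fun m => by ring)
  have h2 := hasSum_sum (s := range (44 * N)) fun j _ =>
    (hasSum_sum (s := range (49 * N + 1)) fun i _ =>
      ((hasSum_M i j).mul_left ((rowA N r).coeff i : ℝ)).sub
        ((hasSum_Z i j).mul_left (3 / 2 * ((rowD N r).coeff i : ℝ)))).mul_left
      ((col N k).coeff j : ℝ)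
  refine Eq.trans ?_ ((rc_congr h2 fun m => ?_).unique h)
  swap
  · rw [intervalIntegral.integral_const_mul, ri_psi hr.le, riG_eq hk, Finset.sum_mul]
    refine Finset.sum_congr rfl fun j _ => ?_
    rw [Finset.mul_sum, Finset.mul_sum]
    refine Finset.sum_congr rfl fun i _ => ?_
    have : (i : ℝ) + m + 1 ≠ 0 := by positivity
    have : (j : ℝ) + m + 1 ≠ 0 := by positivity
    field_simp
  · rw [mat]
    push_cast
    refine Finset.sum_congr rfl fun j hj => ?_
    congr 1
    have hj' := Finset.mem_range.1 hj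
    have h3 : ∑ i ∈ range (49 * N + 1), ((rowA N r).coeff i : ℝ) * (cZ i j : ℝ) =
        ((rowD N r).coeff j : ℝ) := by exact_mod_cast contact hr.le hj'
    have h4 : ∑ i ∈ range (49 * N + 1), ((rowD N r).coeff i : ℝ) *
        (if i = j then Real.pi ^ 2 / 6 else 0) = ((rowD N r).coeff j : ℝ) * (Real.pi ^ 2 / 6) := by
      simp only [mul_ite, mul_zero, Finset.sum_ite_eq']
      rw [if_pos (Finset.mem_range.2 (by omega))]
    have h5 : ∀ i, ((rowA N r).coeff i : ℝ) * ((M0 i j : ℝ) + 4 * cat * (cG i j : ℝ) +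
        Real.pi ^ 2 / 4 * (cZ i j : ℝ)) - 3 / 2 * ((rowD N r).coeff i : ℝ) *
          ((Z0 i j : ℝ) + if i = j then Real.pi ^ 2 / 6 else 0) =
        ((rowA N r).coeff i : ℝ) * ((M0 i j : ℝ) + 4 * cat * (cG i j : ℝ)) -
          3 / 2 * (((rowD N r).coeff i : ℝ) * (Z0 i j : ℝ)) +
          (Real.pi ^ 2 / 4 * (((rowA N r).coeff i : ℝ) * (cZ i j : ℝ)) -
            3 / 2 * (((rowD N r).coeff i : ℝ) * (if i = j then Real.pi ^ 2 / 6 else 0))) :=
      fun i => by ring
    simp only [h5, Finset.sum_add_distrib, Finset.sum_sub_distrib, ← Finset.mul_sum, h3, h4, ent]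
    push_cast
    rw [hG]
    ring

end Vale.Agent.P030
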