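import Vale.Agent.P030.PBb
import Vale.Agent.P030.AB
import Vale.Agent.P030.RI

namespace Vale.Agent.P030

open Finset MeasureTheory

theorem rb_inner {N : ℕ} (hN : 1 ≤ N) (a : Fin (36 * N) → ℝ) {B : ℝ} (hB0 : 0 ≤ B)
    (h : ∀ s : Fin (36 * N) → ℝ, (∀ i, 0 < s i) → (∀ i, s i < 1) → Itg N a s ≤ B) :
    |(Matrix.of fun r i : Fin (36 * N) => psi N r (a i)).det| *
      |(Matrix.of fun k i : Fin (36 * N) => Gam N k (Real.cos (a i))).det| ≤ B := by
  rcases (abs_nonneg (Matrix.of fun r i : Fin (36 * N) => psi N r (a i)).det).eq_or_lt with h0 | h0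
  · rw [← h0, zero_mul]; exact hB0
  have key := andreief (volume.restrict (Set.Ioc (0 : ℝ) 1))
    (fun (k : Fin (36 * N)) (s : ℝ) => Polynomial.aeval s (col N k))
    (fun (i : Fin (36 * N)) (s : ℝ) => 1 / (1 - Real.cos (a i) * s))
    (fun k i => by
      simp only [mul_one_div]
      exact (col_intInt hN k (Real.abs_cos_le_one (a i))).1)
    (Set.Ioo 0 1)
    (by rw [← Measure.restrict_congr_set Ioo_ae_eq_Ioc]; exact ae_restrict_mem measurableSet_Ioo)
    (B / |(Matrix.of fun r i : Fin (36 * N) => psi N r (a i)).det|) (by positivity)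
    (fun s hs => by
      rw [le_div_iff₀ h0]
      have := h s (fun i => (hs i).1) fun i => (hs i).2
      unfold Itg at this
      linarith)
  have e : (Matrix.of fun k i : Fin (36 * N) => Gam N k (Real.cos (a i))) =
      Matrix.of fun k i : Fin (36 * N) => ∫ s, Polynomial.aeval s (col N k) *
        (1 / (1 - Real.cos (a i) * s)) ∂(volume.restrict (Set.Ioc (0 : ℝ) 1)) := by
    ext k i
    simp only [Matrix.of_apply, Gam, intervalIntegral.integral_of_le zero_le_one, mul_one_div]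
  rw [e, mul_comm, ← le_div_iff₀ h0]
  simpa using key

theorem real_bound (hA : Cert (33 / 36) 0) (hB : Cert (40 / 36) 2) {G : ℚ} (hG : (G : ℝ) = cat) :
    ∀ᶠ N : ℕ in Filter.atTop, |((Delta G N : ℚ) : ℝ)| ≤ Real.exp (-2504.3 * (N : ℝ) ^ 2) := by
  filter_upwards [pb hA hB, Filter.eventually_ge_atTop 1000] with N hpb hN
  have hN1 : 1 ≤ N := by omega
  have hπ := Real.pi_pos
  have key := andreief (volume.restrict (Set.Ioc (0 : ℝ) Real.pi))
    (fun (r : Fin (36 * N)) (a : ℝ) => psi N r a)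
    (fun (k : Fin (36 * N)) (a : ℝ) => Gam N k (Real.cos a))
    (fun r k => (psi_Gam_intInt hN1 r k).1)
    (Set.Ioo 0 Real.pi \ {Real.pi / 2})
    (by
      rw [← Measure.restrict_congr_set Ioo_ae_eq_Ioc]
      have h1 : ∀ᵐ x ∂(volume.restrict (Set.Ioo (0 : ℝ) Real.pi)), x ∉ ({Real.pi / 2} : Set ℝ) :=
        ae_restrict_of_ae (compl_mem_ae_iff.2 (measure_singleton _))
      filter_upwards [ae_restrict_mem measurableSet_Ioo, h1] with x h2 h3
      exact ⟨h2, h3⟩)
    (Real.exp (-2504.4 * (N : ℝ) ^ 2)) (Real.exp_pos _).le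
    (fun a ha => rb_inner hN1 a (Real.exp_pos _).le fun s h0 h1 =>
      hpb a s (fun i => (ha i).1.1) (fun i => (ha i).1.2) (fun i hc => (ha i).2 (by
        refine Real.injOn_cos ⟨(ha i).1.1.le, (ha i).1.2.le⟩ ⟨by linarith, by linarith⟩ ?_
        rw [hc, Real.cos_pi_div_two])) h0 h1)
  have e : ((Delta G N : ℚ) : ℝ) = (Matrix.of fun r k : Fin (36 * N) =>
      ∫ a, psi N r a * Gam N k (Real.cos a) ∂(volume.restrict (Set.Ioc (0 : ℝ) Real.pi))).det := by
    have := (Rat.castHom ℝ).map_det (Matrix.of fun r k : Fin (36 * N) => mat G N r k)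
    rw [Delta]
    refine this.trans ?_
    congr 1
    ext r k
    have h := mat_integral hG hN1 r.2 k.2
    rw [intervalIntegral.integral_of_le hπ.le] at h
    exact h
  rw [e]
  refine key.trans ?_
  have e2 : (volume.restrict (Set.Ioc (0 : ℝ) Real.pi)).real Set.univ = Real.pi := by
    simp [hπ.le]
  have h3 : Real.pi ≤ Real.exp 2 := by
    have := Real.add_one_le_exp 1
    have h4 : Real.exp 2 = Real.exp 1 * Real.exp 1 := by rw [← Real.exp_add]; norm_num
    nlinarith [Real.pi_lt_four]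
  have h5 : Real.pi ^ (36 * N) ≤ Real.exp 2 ^ (36 * N) := pow_le_pow_left₀ hπ.le h3 _
  rw [e2]
  refine (mul_le_mul_of_nonneg_left h5 (Real.exp_pos _).le).trans ?_
  rw [← Real.exp_nat_mul, ← Real.exp_add, Real.exp_le_exp]
  have h6 : (1000 : ℝ) ≤ N := by exact_mod_cast hN
  push_cast
  nlinarith

end Vale.Agent.P030
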