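import Vale.Agent.P030.CF

namespace Vale.Agent.P030

open Polynomial Finset

theorem rc_split {f g : ℝ → ℝ} (hf : Continuous f) (hg : Continuous g) :
    IntervalIntegrable (fun a => if 0 < Real.cos a then f a else g a) MeasureTheory.volume 0 Real.pi ∧
    ∫ a in (0 : ℝ)..Real.pi, (if 0 < Real.cos a then f a else g a) =
      (∫ a in (0 : ℝ)..Real.pi / 2, f a) + ∫ a in Real.pi / 2..Real.pi, g a := by
  have hpi := Real.pi_pos
  have h1 : Set.EqOn f (fun a => if 0 < Real.cos a then f a else g a) (Set.uIoo 0 (Real.pi / 2)) := by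
    intro a ha
    rw [Set.uIoo_of_le (by linarith)] at ha
    exact (if_pos (Real.cos_pos_of_mem_Ioo ⟨by linarith [ha.1], ha.2⟩)).symm
  have h2 : Set.EqOn g (fun a => if 0 < Real.cos a then f a else g a)
      (Set.uIoo (Real.pi / 2) Real.pi) := by
    intro a ha
    rw [Set.uIoo_of_le (by linarith)] at ha
    exact (if_neg (not_lt.2 (Real.cos_nonpos_of_pi_div_two_le_of_le ha.1.le
      (by linarith [ha.2])))).symm
  have i1 := (hf.intervalIntegrable (μ := MeasureTheory.volume) 0 (Real.pi / 2)).congr_uIoo h1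
  have i2 := (hg.intervalIntegrable (μ := MeasureTheory.volume) (Real.pi / 2) Real.pi).congr_uIoo h2
  refine ⟨i1.trans i2, ?_⟩
  rw [← intervalIntegral.integral_add_adjacent_intervals i1 i2,
    intervalIntegral.integral_congr_uIoo h1, intervalIntegral.integral_congr_uIoo h2]

theorem rc_congr {f g : ℕ → ℝ} {a : ℝ} (h : HasSum f a) (hg : ∀ n, g n = f n) : HasSum g a :=
  (funext hg : g = f) ▸ h

theorem rc_nu_succ (k : ℕ) : ((nu (k + 2) : ℚ) : ℝ) = nu k * ((k : ℝ) + 1) / (k + 2) := by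
  rw [nu]; push_cast; ring

theorem rc_nu_nonneg (k : ℕ) : (0 : ℝ) ≤ nu k := by exact_mod_cast nu_nonneg k

theorem rc_nu_sq_le (k : ℕ) : ((nu k : ℚ) : ℝ) ^ 2 ≤ 8 / ((k : ℝ) + 1) := by
  induction k using Nat.twoStepInduction with
  | zero => simp [nu]
  | one => simp [nu]; norm_num
  | more k ih _ =>
    have hk : (0 : ℝ) ≤ k := Nat.cast_nonneg k
    rw [rc_nu_succ, div_pow, mul_pow, div_le_div_iff₀ (by positivity) (by positivity)]
    rw [le_div_iff₀ (by positivity)] at ih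
    push_cast
    have h1 : ((nu k : ℚ) : ℝ) ^ 2 * ((k : ℝ) + 1) ^ 2 * (k + 2 + 1) =
        (((nu k : ℚ) : ℝ) ^ 2 * (k + 1)) * ((k + 1) * (k + 3)) := by ring
    rw [h1]
    exact mul_le_mul ih (by nlinarith) (by positivity) (by norm_num)

theorem rc_nu_le (k : ℕ) : ((nu k : ℚ) : ℝ) ≤ 3 := by
  have h := rc_nu_sq_le k
  have h2 : 8 / ((k : ℝ) + 1) ≤ 8 := div_le_self (by norm_num) (by simp)
  nlinarith [rc_nu_nonneg k]

theorem rc_summable (i : ℕ) : Summable fun m : ℕ => ((nu (i + m) : ℚ) : ℝ) / ((m : ℝ) + 1) := by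
  have h1 : Summable fun m : ℕ => 3 * (1 / (((m + 1 : ℕ) : ℝ)) ^ (3 / 2 : ℝ)) :=
    ((summable_nat_add_iff 1).2 (Real.summable_one_div_nat_rpow.2 (by norm_num))).mul_left 3
  refine Summable.of_nonneg_of_le (fun m => div_nonneg (rc_nu_nonneg _) (by positivity))
    (fun m => ?_) h1
  have hm : (0 : ℝ) < (m : ℝ) + 1 := by positivity
  have h2 : (((m + 1 : ℕ) : ℝ)) ^ (3 / 2 : ℝ) = ((m : ℝ) + 1) * √((m : ℝ) + 1) := by
    push_cast
    rw [Real.sqrt_eq_rpow, show (3 / 2 : ℝ) = 1 + 1 / 2 by norm_num, Real.rpow_add hm,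
      Real.rpow_one]
  have h3 : ((nu (i + m) : ℚ) : ℝ) * √((m : ℝ) + 1) ≤ 3 := by
    refine abs_le_of_sq_le_sq' ?_ (by norm_num) |>.2
    rw [mul_pow, Real.sq_sqrt hm.le]
    have h4 := rc_nu_sq_le (i + m)
    rw [le_div_iff₀ (by positivity)] at h4
    push_cast at h4
    have h5 : (0 : ℝ) ≤ i := Nat.cast_nonneg i
    nlinarith [sq_nonneg ((nu (i + m) : ℚ) : ℝ)]
  have h6 : 0 < √((m : ℝ) + 1) := Real.sqrt_pos.2 hm
  rw [h2, mul_one_div, div_le_div_iff₀ hm (by positivity)]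
  nlinarith

theorem rc_ps {c : ℕ → ℝ} {C : ℝ} (hc : ∀ n, |c n| ≤ C * (n + 1)) {e : ℕ → ℕ} (he : ∀ n, n ≤ e n)
    {x : ℝ} (hx : |x| < 1) : (Summable fun n => c n * x ^ e n) ∧
      HasDerivAt (fun y : ℝ => ∑' n, c n * y ^ (e n + 1) / (e n + 1)) (∑' n, c n * x ^ e n) x := by
  obtain ⟨r, hr1, hr2⟩ := exists_between hx
  have hr0 : 0 ≤ r := (abs_nonneg x).trans hr1.le
  have hu : Summable fun n : ℕ => C * ((n : ℝ) ^ 1 * r ^ n + r ^ n) :=
    ((summable_pow_mul_geometric_of_norm_lt_one 1 (by rwa [Real.norm_of_nonneg hr0])).add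
      (summable_geometric_of_lt_one hr0 hr2)).mul_left C
  have hb : ∀ n y, y ∈ Set.Ioo (-r) r → ‖c n * y ^ e n‖ ≤ C * ((n : ℝ) ^ 1 * r ^ n + r ^ n) := by
    intro n y hy
    rw [norm_mul, norm_pow, Real.norm_eq_abs, Real.norm_eq_abs]
    have h1 : |y| ^ e n ≤ r ^ n :=
      (pow_le_pow_left₀ (abs_nonneg y) (abs_lt.2 hy).le _).trans
        (pow_le_pow_of_le_one hr0 hr2.le (he n))
    calc |c n| * |y| ^ e n ≤ C * (n + 1) * r ^ n :=
          mul_le_mul (hc n) h1 (by positivity) ((abs_nonneg _).trans (hc n))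
      _ = _ := by ring
  refine ⟨Summable.of_norm_bounded hu fun n => hb n x (abs_lt.1 hr1),
    hasDerivAt_tsum_of_isPreconnected hu isOpen_Ioo isPreconnected_Ioo (fun n y _ => ?_) hb
      (y₀ := 0) ⟨by linarith [abs_nonneg x], by linarith [abs_nonneg x]⟩ (by simpa using summable_zero)
      (abs_lt.1 hr1)⟩
  have h1 := ((hasDerivAt_pow (e n + 1) y).const_mul (c n)).div_const ((e n : ℝ) + 1)
  refine h1.congr_deriv ?_
  have : (e n : ℝ) + 1 ≠ 0 := by positivity
  push_cast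
  field_simp

theorem rc_const {f : ℝ → ℝ} {a b : ℝ} (hab : a < b) (hc : ContinuousOn f (Set.Icc a b))
    (hd : ∀ x ∈ Set.Ioo a b, HasDerivAt f 0 x) : f b = f a := by
  obtain ⟨c, -, h⟩ := exists_hasDerivAt_eq_slope f (fun _ => 0) hab hc hd
  rw [eq_comm, div_eq_zero_iff] at h
  rcases h with h | h <;> linarith

theorem rc_y {x : ℝ} (hx0 : 0 < x) (hx : x < 1) :
    HasSum (fun k => ((nu k : ℚ) : ℝ) * x ^ k) (2 * Real.arcsin x / √(1 - x ^ 2)) := by
  have hs : ∀ y : ℝ, |y| < 1 → Summable fun k => ((nu k : ℚ) : ℝ) * y ^ k := fun y hy =>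
    (rc_ps (C := 3) (e := id) (fun n => by
      rw [abs_of_nonneg (rc_nu_nonneg n)]
      nlinarith [rc_nu_le n, (Nat.cast_nonneg n : (0 : ℝ) ≤ n)]) (fun _ => le_rfl) hy).1
  have hd : ∀ y : ℝ, |y| < 1 → (Summable fun k : ℕ => (k + 1) * ((nu (k + 1) : ℚ) : ℝ) * y ^ k) ∧
      HasDerivAt (fun y : ℝ => ∑' k, ((nu k : ℚ) : ℝ) * y ^ k)
        (∑' k : ℕ, (k + 1) * ((nu (k + 1) : ℚ) : ℝ) * y ^ k) y := by
    intro y hy
    obtain ⟨h1, h2⟩ := rc_ps (c := fun k : ℕ => (k + 1) * ((nu (k + 1) : ℚ) : ℝ)) (C := 3)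
      (e := id) (fun n => by
        rw [abs_of_nonneg (mul_nonneg (by positivity) (rc_nu_nonneg _)), mul_comm]
        exact mul_le_mul_of_nonneg_right (rc_nu_le _) (by positivity)) (fun _ => le_rfl) hy
    refine ⟨h1, h2.congr_of_eventuallyEq ?_⟩
    filter_upwards [(isOpen_lt continuous_abs continuous_const).mem_nhds hy] with z hz
    rw [(hs z hz).tsum_eq_zero_add]
    simp only [nu, Rat.cast_zero, zero_mul, zero_add, id]
    refine tsum_congr fun k => ?_
    have : (k : ℝ) + 1 ≠ 0 := by positivity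
    field_simp
  have hode : ∀ y : ℝ, |y| < 1 → (1 - y ^ 2) * (∑' k : ℕ, (k + 1) * ((nu (k + 1) : ℚ) : ℝ) * y ^ k)
      - y * ∑' k, ((nu k : ℚ) : ℝ) * y ^ k = 2 := by
    intro y hy
    have h1 := (hd y hy).1.hasSum
    have h2 := (hs y hy).hasSum
    have h3 := (hasSum_nat_add_iff' 2).2 h1
    have h4 := (hasSum_nat_add_iff' 1).2 h2
    have h5 := (h1.mul_left (y ^ 2)).add (h4.mul_left y)
    have h6 := h3.unique (rc_congr h5 fun n => ?_)
    · simp only [Finset.sum_range_succ, Finset.range_zero, Finset.sum_empty, nu] at h6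
      push_cast at h6
      linarith
    · rw [show n + 2 + 1 = n + 1 + 2 by ring, rc_nu_succ]
      push_cast
      have : (n : ℝ) + 1 + 2 ≠ 0 := by positivity
      field_simp
      ring
  have hder : ∀ y : ℝ, |y| < 1 → HasDerivAt (fun y : ℝ => √(1 - y ^ 2) *
      (∑' k, ((nu k : ℚ) : ℝ) * y ^ k) - 2 * Real.arcsin y) 0 y := by
    intro y hy
    have h1 : 0 < 1 - y ^ 2 := by nlinarith [abs_lt.1 hy]
    have h2 := (((hasDerivAt_pow 2 y).const_sub 1).sqrt h1.ne').fun_mul (hd y hy).2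
    have h3 := (Real.hasDerivAt_arcsin (x := y) (by linarith [abs_lt.1 hy])
      (by linarith [abs_lt.1 hy])).const_mul 2
    refine (h2.fun_sub h3).congr_deriv ?_
    have h4 := hode y hy
    have h5 := Real.sq_sqrt h1.le
    have h6 := (Real.sqrt_pos.2 h1).ne'
    generalize √(1 - y ^ 2) = q at *
    field_simp
    rw [h5]
    push_cast
    linarith
  have h7 := rc_const hx0 (fun y hy => (hder y (abs_lt.2 ⟨by linarith [hy.1],
    by linarith [hy.2]⟩)).continuousAt.continuousWithinAt)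
    (fun y hy => hder y (abs_lt.2 ⟨by linarith [hy.1], by linarith [hy.2]⟩))
  have h8 : ∑' k, ((nu k : ℚ) : ℝ) * (0 : ℝ) ^ k = 0 := by
    rw [tsum_eq_single 0 fun k hk => by simp [hk]]
    simp [nu]
  have h1 : 0 < 1 - x ^ 2 := by nlinarith
  rw [h8] at h7
  convert (hs x (abs_lt.2 ⟨by linarith, hx⟩)).hasSum using 1
  rw [div_eq_iff (Real.sqrt_pos.2 h1).ne']
  simp only [mul_zero, Real.arcsin_zero, sub_zero] at h7
  linarith

theorem rc_cont (i : ℕ) : ContinuousOn
    (fun y : ℝ => ∑' n : ℕ, ((nu (i + n) : ℚ) : ℝ) * y ^ (n + 1) / (n + 1)) (Set.Icc 0 1) := by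
  refine continuousOn_tsum (fun n => by fun_prop) (rc_summable i) fun n y hy => ?_
  rw [Real.norm_of_nonneg (div_nonneg (mul_nonneg (rc_nu_nonneg _) (pow_nonneg hy.1 _))
    (by positivity))]
  exact div_le_div_of_nonneg_right (mul_le_of_le_one_right (rc_nu_nonneg _)
    (pow_le_one₀ hy.1 hy.2)) (by positivity)

theorem nu_integral (k : ℕ) :
    ∫ a in (0 : ℝ)..Real.pi, (if 0 < Real.cos a then (1 : ℝ) else -1) * Real.cos a ^ k = (nu k : ℝ) := by
  have h1 : ∀ a, (if 0 < Real.cos a then (1 : ℝ) else -1) * Real.cos a ^ k =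
      if 0 < Real.cos a then Real.cos a ^ k else -Real.cos a ^ k := fun a => by
    split_ifs <;> ring
  simp only [h1]
  rw [(rc_split (by fun_prop) (by fun_prop)).2, intervalIntegral.integral_neg]
  clear h1
  induction k using Nat.twoStepInduction with
  | zero => simp [nu]; ring
  | one => simp [nu]; norm_num
  | more k ih _ =>
    rw [integral_cos_pow, integral_cos_pow, rc_nu_succ, ← ih]
    simp
    ring
theorem inv_integral (k : ℕ) :
    ∫ a in (0 : ℝ)..Real.pi, (if 0 < Real.cos a then Real.sin a * Real.cos a ^ k else 0)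
      = 1 / ((k : ℝ) + 1) := by
  rw [(rc_split (by fun_prop) (by fun_prop)).2]
  have hk : (k : ℝ) + 1 ≠ 0 := by positivity
  rw [intervalIntegral.integral_eq_sub_of_hasDerivAt
    (f := fun a => -(Real.cos a ^ (k + 1)) / ((k : ℝ) + 1)) (fun a _ => ?_)
    (Continuous.intervalIntegrable (by fun_prop) _ _)]
  · simp
    field_simp
  · refine ((((Real.hasDerivAt_cos a).fun_pow (k + 1)).fun_neg).div_const _).congr_deriv ?_
    push_cast
    field_simp
theorem hasSum_cat : HasSum (fun m : ℕ => ((nu (1 + m) : ℚ) : ℝ) / ((m : ℝ) + 1)) (4 * cat) := by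
  have hT : ContinuousOn (fun v : ℝ => ∑' n : ℕ, (-1 : ℝ) ^ n / (2 * n + 1) * v ^ (2 * n + 1) /
      (((2 * n : ℕ) : ℝ) + 1)) (Set.Icc 0 1) := by
    have h1 : Summable fun m : ℕ => 1 / (((m + 1 : ℕ) : ℝ)) ^ 2 :=
      (summable_nat_add_iff 1).2 (Real.summable_one_div_nat_pow.2 one_lt_two)
    refine continuousOn_tsum (fun n => by fun_prop) h1 fun n y hy => ?_
    have hn : (0 : ℝ) ≤ n := Nat.cast_nonneg n
    have h2 : y ^ (2 * n + 1) ≤ 1 := pow_le_one₀ hy.1 hy.2
    have h3 : 0 ≤ y ^ (2 * n + 1) := pow_nonneg hy.1 _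
    rw [Real.norm_eq_abs, abs_div, abs_mul, abs_div, abs_pow, abs_neg, abs_one, one_pow,
      abs_of_nonneg h3, abs_of_pos (by positivity), abs_of_pos (by positivity)]
    push_cast
    rw [div_mul_eq_mul_div, div_div, one_mul, div_le_div_iff₀ (by positivity) (by positivity)]
    nlinarith
  have hx : ∀ v ∈ Set.Icc (0 : ℝ) 1, 2 * v / (1 + v ^ 2) ∈ Set.Icc (0 : ℝ) 1 := fun v hv =>
    ⟨div_nonneg (by linarith [hv.1]) (by positivity),
      (div_le_one (by positivity)).2 (by nlinarith [sq_nonneg (v - 1)])⟩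
  have hF := (rc_cont 1).comp (f := fun v : ℝ => 2 * v / (1 + v ^ 2))
    (Continuous.continuousOn (Continuous.div (by fun_prop) (by fun_prop) fun v => by positivity)) hx
  have h := rc_const one_pos (hF.sub (hT.const_smul (4 : ℝ))) (fun v hv => by
    have hv0 := hv.1
    have hv1 := hv.2
    have h1 : 0 < 1 - v ^ 2 := by nlinarith
    have hx0 : 0 < 2 * v / (1 + v ^ 2) := by positivity
    have hx1 : 2 * v / (1 + v ^ 2) < 1 := (div_lt_one (by positivity)).2 (by nlinarith)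
    have d1 := (rc_ps (c := fun n => ((nu (1 + n) : ℚ) : ℝ)) (C := 3) (e := id) (fun n => by
      rw [abs_of_nonneg (rc_nu_nonneg _)]
      nlinarith [rc_nu_le (1 + n), (Nat.cast_nonneg n : (0 : ℝ) ≤ n)]) (fun _ => le_rfl)
      (x := 2 * v / (1 + v ^ 2)) (by rwa [abs_of_pos hx0])).2
    have d2 := (rc_ps (c := fun n : ℕ => (-1 : ℝ) ^ n / (2 * n + 1)) (C := 1)
      (e := fun n => 2 * n) (fun n => by
        have hn : (0 : ℝ) ≤ n := Nat.cast_nonneg n
        rw [abs_div, abs_pow, abs_neg, abs_one, one_pow, abs_of_pos (by positivity),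
          div_le_iff₀ (by positivity)]
        nlinarith) (fun n => by omega) (x := v) (by rwa [abs_of_pos hv0])).2
    have d3 := ((hasDerivAt_id v).const_mul 2).fun_div
      ((hasDerivAt_pow 2 v).const_add 1) (by positivity)
    have s1 := (hasSum_nat_add_iff' 1).2 (rc_y hx0 hx1)
    have s2 := Real.hasSum_arctan (x := v) (by rwa [Real.norm_of_nonneg hv0.le])
    have e1 : ∑' n, ((nu (1 + n) : ℚ) : ℝ) * (2 * v / (1 + v ^ 2)) ^ id n =
        (2 * Real.arcsin (2 * v / (1 + v ^ 2)) / √(1 - (2 * v / (1 + v ^ 2)) ^ 2)) /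
          (2 * v / (1 + v ^ 2)) := by
      refine HasSum.tsum_eq ?_
      have := s1.div_const (2 * v / (1 + v ^ 2))
      simp only [Finset.range_one, Finset.sum_singleton, nu, Rat.cast_zero, zero_mul,
        sub_zero] at this
      refine rc_congr this fun n => ?_
      rw [add_comm 1 n, pow_succ _ n, id, ← mul_assoc, mul_div_cancel_right₀ _ hx0.ne']
    have e2 : ∑' n : ℕ, (-1 : ℝ) ^ n / (2 * n + 1) * v ^ (2 * n) = Real.arctan v / v := by
      refine HasSum.tsum_eq (rc_congr (s2.div_const v) fun n => ?_)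
      push_cast
      field_simp
      ring
    have e3 : √(1 - (2 * v / (1 + v ^ 2)) ^ 2) = (1 - v ^ 2) / (1 + v ^ 2) := by
      rw [Real.sqrt_eq_iff_mul_self_eq (by nlinarith) (by positivity)]
      field_simp
      ring
    have e4 : Real.arcsin (2 * v / (1 + v ^ 2)) = 2 * Real.arctan v := by
      rw [Real.arcsin_eq_arctan ⟨by linarith, hx1⟩, e3, Real.two_mul_arctan (by linarith) hv1]
      congr 1
      field_simp
    rw [e1, e3, e4] at d1
    rw [e2] at d2
    refine ((HasDerivAt.comp v d1 d3).sub (d2.const_smul (4 : ℝ))).congr_deriv ?_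
    simp only [id, smul_eq_mul]
    push_cast
    field_simp
    ring)
  simp only [Pi.sub_apply, Function.comp_apply, Pi.smul_apply, smul_eq_mul] at h
  norm_num at h
  convert (rc_summable 1).hasSum using 1
  rw [cat, sub_eq_zero.1 h]
  congr 1
  exact tsum_congr fun n => by rw [div_div, sq]

end Vale.Agent.P030
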