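import Vale.Agent.P030.RC

namespace Vale.Agent.P030

open Polynomial Finset

theorem hasSum_zeta :
    HasSum (fun m : ℕ => ((nu m : ℚ) : ℝ) / ((m : ℝ) + 1)) (Real.pi ^ 2 / 4) := by
  have h := rc_const (f := fun y : ℝ => (∑' n : ℕ, ((nu (0 + n) : ℚ) : ℝ) * y ^ (n + 1) / (n + 1)) -
      Real.arcsin y ^ 2) one_pos ((rc_cont 0).sub (by fun_prop)) (fun x hx => by
    have d1 := (rc_ps (c := fun n => ((nu (0 + n) : ℚ) : ℝ)) (C := 3) (e := id) (fun n => by
      rw [abs_of_nonneg (rc_nu_nonneg _)]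
      nlinarith [rc_nu_le (0 + n), (Nat.cast_nonneg n : (0 : ℝ) ≤ n)]) (fun _ => le_rfl)
      (x := x) (by rw [abs_of_pos hx.1]; exact hx.2)).2
    have e1 : ∑' n, ((nu (0 + n) : ℚ) : ℝ) * x ^ id n = 2 * Real.arcsin x / √(1 - x ^ 2) := by
      simpa using (rc_y hx.1 hx.2).tsum_eq
    rw [e1] at d1
    have d2 := (Real.hasDerivAt_arcsin (x := x) (by linarith [hx.1]) hx.2.ne).fun_pow 2
    refine (d1.fun_sub d2).congr_deriv ?_
    push_cast
    ring)
  have h2 := (rc_summable 0).hasSum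
  simp only [zero_add] at h h2
  norm_num at h
  convert h2 using 1
  rw [sub_eq_zero.1 h]
  ring

end Vale.Agent.P030
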