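import Vale.Agent.P030.RC2
import Vale.Agent.P030.Gen

namespace Vale.Agent.P030

open Polynomial Finset

theorem nu_sq_le (k : ℕ) : ((nu k : ℚ) : ℝ) ^ 2 ≤ 8 / ((k : ℝ) + 1) := rc_nu_sq_le k
theorem hasSum_M (i j : ℕ) : HasSum (fun m : ℕ => ((nu (i + m) : ℚ) : ℝ) / ((j : ℝ) + m + 1))
    ((M0 i j : ℝ) + 4 * cat * (cG i j : ℝ) + Real.pi ^ 2 / 4 * (cZ i j : ℝ)) := by
  have hs : ∀ i j : ℕ, Summable fun m : ℕ => ((nu (i + m) : ℚ) : ℝ) / ((j : ℝ) + m + 1) := by
    intro i j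
    refine Summable.of_nonneg_of_le (fun m => div_nonneg (rc_nu_nonneg _) (by positivity))
      (fun m => ?_) (rc_summable i)
    exact div_le_div_of_nonneg_left (rc_nu_nonneg _) (by positivity)
      (by linarith [(Nat.cast_nonneg j : (0 : ℝ) ≤ j)])
  have h0 : Filter.Tendsto (fun k : ℕ => ((nu k : ℚ) : ℝ)) Filter.atTop (nhds 0) := by
    have h1 : Filter.Tendsto (fun k : ℕ => √(8 * (1 / ((k : ℝ) + 1)))) Filter.atTop (nhds 0) := by
      simpa using (tendsto_one_div_add_atTop_nhds_zero_nat.const_mul (8 : ℝ)).sqrt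
    refine squeeze_zero rc_nu_nonneg (fun k => Real.le_sqrt_of_sq_le ?_) h1
    rw [mul_one_div]
    exact nu_sq_le k
  have h := gen_decomp (fun i j => ∑' m : ℕ, ((nu (i + m) : ℚ) : ℝ) / ((j : ℝ) + m + 1))
    (fun i j => (hs i j).hasSum) h0 i j
  have e1 : ∑' m : ℕ, ((nu (1 + m) : ℚ) : ℝ) / (((0 : ℕ) : ℝ) + m + 1) = 4 * cat := by
    simpa using hasSum_cat.tsum_eq
  have e2 : ∑' m : ℕ, ((nu (0 + m) : ℚ) : ℝ) / (((0 : ℕ) : ℝ) + m + 1) = Real.pi ^ 2 / 4 := by
    simpa using hasSum_zeta.tsum_eq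
  simp only [e1, e2] at h
  rw [← h]
  exact (hs i j).hasSum
theorem hasSum_Z (i j : ℕ) : HasSum (fun m : ℕ => 1 / (((i : ℝ) + m + 1) * ((j : ℝ) + m + 1)))
    ((Z0 i j : ℝ) + if i = j then Real.pi ^ 2 / 6 else 0) := by
  have hz : HasSum (fun m : ℕ => 1 / ((m : ℝ) + 1) ^ 2) (Real.pi ^ 2 / 6) := by
    simpa using (hasSum_nat_add_iff' 1).2 hasSum_zeta_two
  have htel : ∀ i : ℕ, HasSum (fun m : ℕ => 1 / ((i : ℝ) + m + 1) - 1 / ((i : ℝ) + m + 2))
      (1 / ((i : ℝ) + 1)) := by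
    intro i
    rw [hasSum_iff_tendsto_nat_of_nonneg (fun m => sub_nonneg.2
      (one_div_le_one_div_of_le (by positivity) (by linarith)))]
    have h1 : ∀ n : ℕ, ∑ m ∈ range n, (1 / ((i : ℝ) + m + 1) - 1 / ((i : ℝ) + m + 2)) =
        1 / ((i : ℝ) + 1) - 1 / (((n + i : ℕ) : ℝ) + 1) := by
      intro n
      induction n with
      | zero => simp
      | succ n ih => rw [Finset.sum_range_succ, ih]; push_cast; ring_nf
    simp only [h1]
    simpa using ((Filter.tendsto_add_atTop_iff_nat i).2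
      (tendsto_one_div_add_atTop_nhds_zero_nat (𝕜 := ℝ))).const_sub (1 / ((i : ℝ) + 1))
  have hH : ∀ i : ℕ, HasSum (fun m : ℕ => 1 / ((m : ℝ) + 1) - 1 / ((i : ℝ) + m + 1))
      (harmonic i : ℝ) := by
    intro i
    induction i with
    | zero => simpa using hasSum_zero
    | succ i ih =>
      have := ih.add (htel i)
      rw [harmonic_succ]
      push_cast
      rw [← one_div]
      refine rc_congr this fun m => ?_
      ring_nf
  by_cases hij : i = j
  · subst hij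
    have h1 := (hasSum_nat_add_iff' i).2 hz
    simp only [Z0, if_true]
    push_cast
    rw [neg_add_eq_sub]
    refine rc_congr h1 fun m => ?_
    push_cast
    ring_nf
  · simp only [Z0, if_neg hij, add_zero]
    push_cast
    have hne : (i : ℝ) - j ≠ 0 := sub_ne_zero.2 (by exact_mod_cast hij)
    refine rc_congr (((hH i).sub (hH j)).div_const ((i : ℝ) - j)) fun m => ?_
    have : (i : ℝ) + m + 1 ≠ 0 := by positivity
    have : (j : ℝ) + m + 1 ≠ 0 := by positivity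
    field_simp
    ring

end Vale.Agent.P030
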