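import Vale.Agent.P030.Gen
import Vale.Agent.P030.CF

namespace Vale.Agent.P030

open Polynomial Finset

theorem TwoA_sq_le (m : ℕ) : ((m : ℝ) + 1) ^ 2 ≤ 8 * 2 ^ m := by
  have : ∀ m : ℕ, (m + 1) ^ 2 ≤ 8 * 2 ^ m := by
    intro m
    induction m using Nat.twoStepInduction with
    | zero => norm_num
    | one => norm_num
    | more m h1 _ => rw [pow_add 2 m 2]; nlinarith [Nat.one_le_two_pow (n := m)]
  exact_mod_cast this m

theorem TwoA_term (i j m : ℕ) : ‖((nu (i + m) : ℚ) : ℚ_[2]) / ((j : ℚ_[2]) + m + 1)‖ ≤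
    ((i : ℝ) + 1) * ((j : ℝ) + 1) / 2 ^ i * (((m : ℝ) + 1) ^ 2 * (1 / 2) ^ m) := by
  have e : ((nu (i + m) : ℚ) : ℚ_[2]) / ((j : ℚ_[2]) + m + 1) =
      ((nu (i + m) * (1 / ((j + m + 1 : ℕ) : ℚ)) : ℚ) : ℚ_[2]) := by push_cast; ring
  rw [e]
  have h1 := pn_mul_le (p := 2) (pn2_nu (i + m))
    ((pn_inv_nat_le (p := 2) (le_refl (j + m + 1))).trans (pn_pow_log_le (by omega)))
  refine le_trans h1 ?_
  push_cast
  have hi : (0 : ℝ) ≤ i := Nat.cast_nonneg i
  have hj : (0 : ℝ) ≤ j := Nat.cast_nonneg j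
  have hm : (0 : ℝ) ≤ m := Nat.cast_nonneg m
  have h2 : ((i : ℝ) + m) * (j + m + 1) ≤ ((i + 1) * (m + 1)) * ((j + 1) * (m + 1)) :=
    mul_le_mul (by nlinarith) (by nlinarith) (by positivity) (by positivity)
  calc ((i : ℝ) + m) / 2 ^ (i + m) * (j + m + 1) = ((i + m) * (j + m + 1)) / 2 ^ (i + m) := by ring
    _ ≤ (((i + 1) * (m + 1)) * ((j + 1) * (m + 1))) / 2 ^ (i + m) := by gcongr
    _ = _ := by rw [pow_add, one_div, inv_pow]; field_simp

theorem TwoA_summable : Summable fun m : ℕ => ((m : ℝ) + 1) ^ 2 * (1 / 2) ^ m := by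
  have h := (summable_nat_add_iff 1).2
    (summable_pow_mul_geometric_of_norm_lt_one 2 (r := (1 / 2 : ℝ)) (by norm_num))
  refine (h.mul_left 2).congr fun m => ?_
  push_cast; ring

theorem twoA : ∃ F : ℕ → ℕ → ℚ_[2],
    (∀ i j : ℕ, ‖F i j‖ ≤ 8 * ((i : ℝ) + 1) * ((j : ℝ) + 1) / 2 ^ i) ∧
    ∀ i j : ℕ, ((M0 i j : ℚ) : ℚ_[2])
      = F i j - F 1 0 * ((cG i j : ℚ) : ℚ_[2]) - F 0 0 * ((cZ i j : ℚ) : ℚ_[2]) := by
  have hs : ∀ i j : ℕ, Summable fun m : ℕ =>
      ((nu (i + m) : ℚ) : ℚ_[2]) / ((j : ℚ_[2]) + m + 1) := fun i j =>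
    Summable.of_norm_bounded (TwoA_summable.mul_left _) (TwoA_term i j)
  refine ⟨fun i j => ∑' m : ℕ, ((nu (i + m) : ℚ) : ℚ_[2]) / ((j : ℚ_[2]) + m + 1), ?_, ?_⟩
  · intro i j
    apply IsUltrametricDist.norm_tsum_le_of_forall_le_of_nonneg (by positivity)
    intro m
    refine (TwoA_term i j m).trans ?_
    have h1 : ((m : ℝ) + 1) ^ 2 * (1 / 2) ^ m ≤ 8 := by
      rw [one_div, inv_pow, ← div_eq_mul_inv, div_le_iff₀ (by positivity)]; exact TwoA_sq_le m
    calc _ ≤ ((i : ℝ) + 1) * ((j : ℝ) + 1) / 2 ^ i * 8 := by gcongr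
      _ = _ := by ring
  · intro i j
    have h0 : Filter.Tendsto (fun k : ℕ => ((nu k : ℚ) : ℚ_[2])) Filter.atTop (nhds 0) := by
      apply squeeze_zero_norm (a := fun k : ℕ => ((k : ℝ) + 1) ^ 2 * (1 / 2) ^ k) _
        TwoA_summable.tendsto_atTop_zero
      intro k
      refine (pn2_nu k).trans ?_
      have hk : (0 : ℝ) ≤ k := Nat.cast_nonneg k
      rw [one_div, inv_pow, ← div_eq_mul_inv]
      gcongr; nlinarith
    have := gen_decomp _ (fun i j => (hs i j).hasSum) h0 i j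
    linear_combination -this

/-- sum of a sampled hinge. -/
theorem hinge_sum (a c : ℝ) (ha : 0 ≤ a) (hc : 0 < c) (n : ℕ) :
    ∑ k ∈ range n, max (a - c * k) 0 ≤ a ^ 2 / (2 * c) + a := by
  induction n generalizing a with
  | zero => simp; positivity
  | succ n ih =>
    rw [sum_range_succ']
    simp only [Nat.cast_zero, mul_zero, sub_zero, max_eq_left ha]
    rcases le_total c a with h | h
    · have h1 := ih (a - c) (by linarith)
      have h2 : ∑ k ∈ range n, max (a - c * ((k + 1 : ℕ) : ℝ)) 0 =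
          ∑ k ∈ range n, max (a - c - c * k) 0 :=
        sum_congr rfl fun k _ => by push_cast; ring_nf
      have h3 : (a - c) ^ 2 / (2 * c) + (a - c) ≤ a ^ 2 / (2 * c) := by
        rw [div_add' _ _ _ (by positivity), div_le_div_iff_of_pos_right (by positivity)]
        nlinarith
      linarith
    · have h2 : ∑ k ∈ range n, max (a - c * ((k + 1 : ℕ) : ℝ)) 0 = 0 :=
        sum_eq_zero fun k _ => max_eq_right (by
          have : (0 : ℝ) ≤ k := Nat.cast_nonneg k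
          push_cast; nlinarith)
      have : 0 ≤ a ^ 2 / (2 * c) := by positivity
      linarith

end Vale.Agent.P030
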