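import Vale.Agent.P030.TwoA
import Vale.Agent.P030.Contact
import Vale.Agent.P030.LA

namespace Vale.Agent.P030

open Polynomial Finset

noncomputable def TwoB_W (g : ℕ → ℕ → ℚ_[2]) (N : ℕ) (q : ℤ[X]) (k : ℕ) : ℚ_[2] :=
  ∑ j ∈ range (44 * N), ((col N k).coeff j : ℚ_[2]) *
    ∑ i ∈ range (49 * N + 1), (((1 - X) ^ (2 * N) * q).coeff i : ℚ_[2]) * g i j

theorem TwoB_expand (g : ℕ → ℕ → ℚ_[2]) (N k c : ℕ) (q : ℤ[X]) (hq : ∀ i, c < i → q.coeff i = 0) :
    TwoB_W g N q k = ∑ a : Fin (c + 1), (q.coeff (c - a) : ℚ_[2]) * TwoB_W g N (X ^ (c - a)) k := by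
  have e : q = ∑ a ∈ range (c + 1), C (q.coeff (c - a)) * X ^ (c - a) := by
    have := sum_range_reflect (fun a => C (q.coeff a) * (X : ℤ[X]) ^ a) (c + 1)
    simp only [Nat.add_sub_cancel] at this
    rw [this]
    exact as_sum_range_C_mul_X_pow' q (Nat.lt_succ_of_le (natDegree_le_iff_coeff_eq_zero.2 hq))
  rw [Fin.sum_univ_eq_sum_range (fun a => (q.coeff (c - a) : ℚ_[2]) * TwoB_W g N (X ^ (c - a)) k)]
  conv_lhs => rw [e]
  simp only [TwoB_W, mul_sum, mul_left_comm _ (C _), finsetSum_coeff, coeff_C_mul, Int.cast_sum,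
    Int.cast_mul, sum_mul]
  rw [sum_comm' (t' := range (c + 1)) (s' := fun _ => range (44 * N)) (s := range (44 * N))
    (t := fun _ => range (c + 1)) (by simp [and_comm]) |>.symm]
  refine sum_congr rfl fun j _ => ?_
  rw [sum_comm]
  exact sum_congr rfl fun a _ => sum_congr rfl fun i _ => by ring

theorem TwoB_norm (g : ℕ → ℕ → ℚ_[2]) (N k d : ℕ) {c : ℝ} (hc : 0 ≤ c)
    (h : ∀ i j, d ≤ i → i ≤ 2 * N + d → 6 * N + k ≤ j → j < 44 * N → ‖g i j‖ ≤ c) :
    ‖TwoB_W g N (X ^ d) k‖ ≤ c := by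
  refine LA_sum_le _ _ hc fun j hj => ?_
  by_cases h1 : j < 6 * N + k
  · simpa [col_low h1] using hc
  rw [norm_mul]
  refine (mul_le_of_le_one_left (norm_nonneg _) (Padic.norm_int_le_one _)).trans
    (LA_sum_le _ _ hc fun i _ => ?_)
  by_cases h2 : d ≤ i ∧ i ≤ 2 * N + d
  · rw [norm_mul]
    exact (mul_le_of_le_one_left (norm_nonneg _) (Padic.norm_int_le_one _)).trans
      (h i j h2.1 h2.2 (by omega) (mem_range.1 hj))
  · rw [coeff_mul_X_pow']
    split_ifs with h3
    · simpa [Rows_pow_coeff (show 2 * N < i - d by omega)] using hc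
    · simpa using hc

theorem TwoB_cG (i j : ℕ) : ‖((cG i j : ℚ) : ℚ_[2])‖ ≤ (2 : ℝ) ^ ((i : ℝ) - j) := by
  unfold cG
  split_ifs with h
  · refine (pn2_cc _).trans ?_
    rw [← Nat.cast_sub h.1.le, Real.rpow_natCast, show (4 : ℝ) = 2 ^ 2 by norm_num, ← pow_mul]
    exact pow_le_pow_right₀ one_le_two (by omega)
  · simp only [Rat.cast_zero, norm_zero]; positivity

theorem TwoB_add {x y : ℚ_[2]} {c : ℝ} (hx : ‖x‖ ≤ c) (hy : ‖y‖ ≤ c) : ‖x + y‖ ≤ c :=
  (IsUltrametricDist.norm_add_le_max x y).trans (max_le hx hy)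

theorem TwoB_two (a : ℕ) : ‖(2 : ℚ_[2]) ^ a / 2‖ = 2 * (2 : ℝ) ^ (-(a : ℝ)) := by
  have : ‖(2 : ℚ_[2])‖ = 2⁻¹ := by exact_mod_cast Padic.norm_p (p := 2)
  rw [norm_div, norm_pow, this, Real.rpow_neg zero_le_two, Real.rpow_natCast, inv_pow]
  ring

theorem two_bound (G : ℚ) : ∃ c : ℕ, ∀ N : ℕ, 1 ≤ N →
    pn 2 (Delta G N) ≤ (2 : ℝ) ^ ((1057 / 8 : ℝ) * (N : ℝ) ^ 2) * ((N : ℝ) + 1) ^ (c * N) := by
  obtain ⟨F, hF, hM⟩ := twoA
  obtain ⟨K, hK⟩ := pow_unbounded_of_one_lt ‖4 * (G : ℚ_[2]) - F 1 0‖ (one_lt_two (α := ℝ))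
  refine ⟨36 * (K + 18) + 76, fun N hN => ?_⟩
  have hN' : (1 : ℝ) ≤ N := by exact_mod_cast hN
  set g1 : ℕ → ℕ → ℚ_[2] := fun i j => F i j + (4 * (G : ℚ_[2]) - F 1 0) * (cG i j : ℚ) with hg1
  set g2 : ℕ → ℕ → ℚ_[2] := fun i j => -(3 / 2) * (Z0 i j : ℚ) + -F 0 0 * if i = j then 1 else 0
    with hg2
  choose u hu using fun (r : Fin (36 * N)) (a : Fin (47 * N + 1)) =>
    show (2 : ℤ) ^ (a : ℕ) ∣ 2 * (al (47 * N) ((r : ℤ) - 3 * N)).coeff (47 * N - a) by
      have := al_dvd (c := 47 * N) (m := (r : ℤ) - 3 * N) (by omega) (47 * N - a)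
      rwa [show 47 * N - (47 * N - a) = a by omega] at this
  choose v hv using fun (r : Fin (36 * N)) (a : Fin (47 * N + 1)) =>
    show (2 : ℤ) ^ (a : ℕ) ∣ 2 * (de (47 * N) ((r : ℤ) - 3 * N)).coeff (47 * N - a) by
      have := de_dvd (c := 47 * N) (m := (r : ℤ) - 3 * N) (by omega) (47 * N - a)
      rw [show 47 * N - 1 - (47 * N - a) = a - 1 by omega] at this
      exact Rows_dvd_two_mul this
  have e : (Matrix.of fun r k : Fin (36 * N) => mat G N r k).map (fun x : ℚ => (x : ℚ_[2])) =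
      (Matrix.of fun r => Sum.elim (fun a => (u r a : ℚ_[2])) fun a => (v r a : ℚ_[2])) *
      Matrix.of (Sum.elim
        (fun (a : Fin (47 * N + 1)) (k : Fin (36 * N)) =>
          2 ^ (a : ℕ) / 2 * TwoB_W g1 N (X ^ (47 * N - a)) k)
        fun (a : Fin (47 * N + 1)) (k : Fin (36 * N)) =>
          2 ^ (a : ℕ) / 2 * TwoB_W g2 N (X ^ (47 * N - a)) k) := by
    ext r k
    have e1 : ((mat G N r k : ℚ) : ℚ_[2]) = TwoB_W g1 N (al (47 * N) ((r : ℤ) - 3 * N)) k +
        TwoB_W g2 N (de (47 * N) ((r : ℤ) - 3 * N)) k := by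
      simp only [mat, TwoB_W, Rat.cast_sum, Rat.cast_mul, Rat.cast_intCast, ← sum_add_distrib,
        ← mul_add]
      refine sum_congr rfl fun j hj => congrArg _ ?_
      have hj' := mem_range.1 hj
      have c1 := congrArg (fun x : ℚ => (x : ℚ_[2])) (contact (N := N) r.2.le hj')
      simp only [Rat.cast_sum, Rat.cast_mul, Rat.cast_intCast, rowA, rowD] at c1
      simp only [ent, rowA, rowD, hg1, hg2, mul_add, sum_add_distrib, mul_ite, mul_one, mul_zero,
        sum_ite_eq', if_pos (mem_range.2 (show j < 49 * N + 1 by omega)), ← c1, Rat.cast_sub,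
        Rat.cast_add, Rat.cast_sum, Rat.cast_mul, Rat.cast_intCast, hM, mul_sum, sum_mul]
      simp only [← sum_add_distrib, ← sum_sub_distrib]
      exact sum_congr rfl fun i _ => by push_cast; ring
    simp only [Matrix.map_apply, Matrix.of_apply, Matrix.mul_apply, Fintype.sum_sum_type,
      Sum.elim_inl, Sum.elim_inr]
    rw [e1, TwoB_expand _ _ _ (47 * N) _ fun i hi => al_coeff_eq_zero (by omega) hi,
      TwoB_expand g2 _ _ (47 * N) _ fun i hi => de_coeff_eq_zero (by omega) hi.le]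
    congr 1 <;> refine sum_congr rfl fun a _ => ?_
    · have := congrArg (fun z : ℤ => (z : ℚ_[2])) (hu r a)
      push_cast at this
      linear_combination TwoB_W g1 N (X ^ (47 * N - a)) k / 2 * this
    · have := congrArg (fun z : ℤ => (z : ℚ_[2])) (hv r a)
      push_cast at this
      linear_combination TwoB_W g2 N (X ^ (47 * N - a)) k / 2 * this
  rw [Delta, pn_det, e]
  refine la_cb _ _ _ (by positivity) fun f hf => ?_
  refine (mul_le_of_le_one_left (by positivity) ((la_det_le _ (fun _ => 1) (fun _ => 1)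
    (fun _ => zero_le_one) (fun _ => zero_le_one) fun r k => ?_).trans (by simp))).trans ?_
  · simp only [Matrix.submatrix_apply, Matrix.of_apply, id, mul_one]
    rcases f k with a | a <;> exact Padic.norm_int_le_one _
  set P : ℝ := 2 ^ K * (2 ^ 15 * ((N : ℝ) + 1) ^ 2) with hP
  have hP1 : 2 ^ 15 * ((N : ℝ) + 1) ^ 2 ≤ P :=
    le_mul_of_one_le_left (by positivity) (one_le_pow₀ one_le_two)
  set ψ : Fin (47 * N + 1) ⊕ Fin (47 * N + 1) → ℝ := Sum.elim
    (fun a => max (79 / 2 * N - 2 * ((a : ℕ) : ℝ)) 0) fun a => max (65 / 4 * N - 1 * ((a : ℕ) : ℝ)) 0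
    with hψ
  have hψ0 : ∀ x, 0 ≤ ψ x := by rintro (a | a) <;> exact le_max_right _ _
  calc _ ≤ ∏ k : Fin (36 * N), 2 * P * (2 : ℝ) ^
          (-(65 / 4 * N) + max (79 / 4 * N - 1 * ((k : ℕ) : ℝ)) 0 + ψ (f k)) := by
        refine prod_le_prod (fun _ _ => norm_nonneg _) fun k _ => ?_
        have k0 := le_max_right (79 / 4 * N - 1 * ((k : ℕ) : ℝ)) 0
        have k1 := le_max_left (79 / 4 * N - 1 * ((k : ℕ) : ℝ)) 0
        have key : ∀ (g : ℕ → ℕ → ℚ_[2]) (a : ℕ) (E : ℝ), (∀ i j, 47 * N - a ≤ i →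
            i ≤ 2 * N + (47 * N - a) → 6 * N + k ≤ j → j < 44 * N → ‖g i j‖ ≤ P * 2 ^ (E + a)) →
            ‖2 ^ a / 2 * TwoB_W g N (X ^ (47 * N - a)) k‖ ≤ 2 * P * 2 ^ E := fun g a E h => by
          rw [norm_mul, TwoB_two]
          refine (mul_le_mul_of_nonneg_left (TwoB_norm g N k _ (by positivity) h)
            (by positivity)).trans_eq ?_
          rw [Real.rpow_add two_pos, Real.rpow_neg zero_le_two]
          field_simp
        rcases f k with a | a <;> refine key _ a _ fun i j h1 h2 h3 h4 => TwoB_add ?_ ?_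
        all_goals
          have a0 := hψ0 (Sum.inl a)
          have a1 : 79 / 2 * N - 2 * ((a : ℕ) : ℝ) ≤ ψ (Sum.inl a) := le_max_left _ _
          have a2 : 65 / 4 * N - 1 * ((a : ℕ) : ℝ) ≤ ψ (Sum.inr a) := le_max_left _ _
          have i1 : (47 : ℝ) * N ≤ i + (a : ℕ) := by exact_mod_cast (by omega : 47 * N ≤ i + a)
          have i2 : (i : ℝ) + (a : ℕ) ≤ 49 * N := by exact_mod_cast (by omega : i + a ≤ 49 * N)
          have i3 : (i : ℝ) ≤ 49 * N := by exact_mod_cast (by omega : i ≤ 49 * N)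
          have j1 : (6 : ℝ) * N + (k : ℕ) ≤ j := by exact_mod_cast h3
          have j2 : (j : ℝ) + 1 ≤ 44 * N := by exact_mod_cast h4
        · refine (hF i j).trans ?_
          rw [div_eq_mul_inv, ← Real.rpow_natCast, ← Real.rpow_neg zero_le_two]
          refine mul_le_mul (le_trans ?_ hP1) (Real.rpow_le_rpow_of_exponent_le one_le_two
            (by linarith)) (by positivity) (by positivity)
          calc _ ≤ 8 * (50 * (N : ℝ)) * (44 * N) := by gcongr; linarith
            _ ≤ _ := by nlinarith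
        · rw [norm_mul]
          refine mul_le_mul (hK.le.trans (le_mul_of_one_le_right (by positivity) (by nlinarith)))
            ((TwoB_cG i j).trans (Real.rpow_le_rpow_of_exponent_le one_le_two (by linarith)))
            (by positivity) (by positivity)
        · refine le_trans ?_ (hP1.trans (le_mul_of_one_le_right (by positivity)
            (Real.one_le_rpow one_le_two (by linarith))))
          have z := pn_Z0 (p := 2) (i := i) (j := j) (T := 49 * N) (by omega) (by omega)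
          have z1 := pn_pow_log_le (p := 2) (T := 49 * N) (by omega)
          have z2 : pn 2 (3 / 2) ≤ 2 := by
            rw [pn_div, CF_pn2_two]; have := pn_nat (p := 2) 3; push_cast at this; linarith
          rw [norm_mul, norm_neg]
          calc _ ≤ 2 * ((49 * N : ℕ) : ℝ) ^ 2 := by
                refine mul_le_mul (by simpa [pn] using z2) (z.trans ?_) (norm_nonneg _) zero_le_two
                rw [mul_comm, pow_mul]; gcongr
            _ ≤ _ := by push_cast; nlinarith
        · refine le_trans ?_ (hP1.trans (le_mul_of_one_le_right (by positivity)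
            (Real.one_le_rpow one_le_two (by linarith))))
          have := hF 0 0
          split_ifs <;> simp at this ⊢ <;> nlinarith
    _ ≤ _ := by
        rw [prod_mul_distrib, ← Real.rpow_sum_of_pos two_pos, prod_const, card_univ,
          Fintype.card_fin, sum_add_distrib, sum_add_distrib, sum_const, card_univ, Fintype.card_fin,
          Fin.sum_univ_eq_sum_range (fun k => max (79 / 4 * N - 1 * (k : ℝ)) 0)]
        have s1 := hinge_sum (79 / 4 * N) 1 (by positivity) one_pos (36 * N)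
        have s2 := hinge_sum (79 / 2 * N) 2 (by positivity) two_pos (47 * N + 1)
        have s3 := hinge_sum (65 / 4 * N) 1 (by positivity) one_pos (47 * N + 1)
        have s4 : ∑ k, ψ (f k) ≤ ∑ x, ψ x :=
          (sum_map univ ⟨f, hf⟩ ψ).symm.trans_le (sum_le_univ_sum_of_nonneg hψ0)
        rw [Fintype.sum_sum_type] at s4
        simp only [hψ, Sum.elim_inl, Sum.elim_inr] at s4
        rw [Fin.sum_univ_eq_sum_range (fun k => max (79 / 2 * N - 2 * (k : ℝ)) 0),
          Fin.sum_univ_eq_sum_range (fun k => max (65 / 4 * N - 1 * (k : ℝ)) 0)] at s4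
        have n2 : (2 : ℝ) ≤ N + 1 := by linarith
        calc _ ≤ (((N : ℝ) + 1) ^ (K + 18)) ^ (36 * N) *
              (2 : ℝ) ^ ((1057 / 8 : ℝ) * (N : ℝ) ^ 2 + (76 * N : ℕ)) := by
              refine mul_le_mul (pow_le_pow_left₀ (by positivity) ?_ _)
                (Real.rpow_le_rpow_of_exponent_le one_le_two ?_) (by positivity) (by positivity)
              · calc 2 * P = 2 ^ (K + 16) * ((N : ℝ) + 1) ^ 2 := by rw [hP]; ring
                  _ ≤ ((N : ℝ) + 1) ^ (K + 16) * ((N : ℝ) + 1) ^ 2 := by gcongr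
                  _ = _ := by ring
              · simp only [nsmul_eq_mul, hψ]
                push_cast
                nlinarith
          _ ≤ (((N : ℝ) + 1) ^ (K + 18)) ^ (36 * N) *
              ((2 : ℝ) ^ ((1057 / 8 : ℝ) * (N : ℝ) ^ 2) * ((N : ℝ) + 1) ^ (76 * N)) := by
              rw [Real.rpow_add two_pos, Real.rpow_natCast]; gcongr
          _ = _ := by rw [← pow_mul]; ring

end Vale.Agent.P030
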